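import Mathlib

open MeasureTheory Set Filter Topology
open scoped ENNReal BigOperators

namespace Vale.Agent.P171

/-- Pair energy of a finite configuration `x : ι → E` for the pair function `v`
(each unordered pair counted once, for symmetric `v`). -/
noncomputable def energy {E ι : Type*} [Fintype ι] [DecidableEq ι] (v : E → E → ℝ)
    (x : ι → E) : ℝ :=
  (1 / 2) * ∑ i, ∑ j, if i = j then 0 else v (x i) (x j)

/-- Boltzmann factor. -/
noncomputable def bolt {E ι : Type*} [Fintype ι] [DecidableEq ι] (v : E → E → ℝ)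
    (x : ι → E) : ℝ≥0∞ :=
  ENNReal.ofReal (Real.exp (-(energy v x)))

section basics

variable {E ι κ : Type*} [Fintype ι] [DecidableEq ι] [Fintype κ] [DecidableEq κ]

lemma energy_comp_equiv (v : E → E → ℝ) (e : κ ≃ ι) (x : ι → E) :
    energy v (x ∘ e) = energy v x := by
  unfold energy
  congr 1
  rw [← Equiv.sum_comp e (fun i => ∑ j, if i = j then 0 else v (x i) (x j))]
  refine Finset.sum_congr rfl fun i _ => ?_
  rw [← Equiv.sum_comp e (fun j => if e i = j then 0 else v (x (e i)) (x j))]
  refine Finset.sum_congr rfl fun j _ => ?_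
  simp [Function.comp]

lemma bolt_comp_equiv (v : E → E → ℝ) (e : κ ≃ ι) (x : ι → E) :
    bolt v (x ∘ e) = bolt v x := by
  unfold bolt; rw [energy_comp_equiv]

lemma energy_measurable [MeasurableSpace E] {v : E → E → ℝ}
    (hv : Measurable (Function.uncurry v)) :
    Measurable (fun x : ι → E => energy v x) := by
  unfold energy
  refine Measurable.const_mul ?_ _
  refine Finset.measurable_sum _ fun i _ => Finset.measurable_sum _ fun j _ => ?_
  split_ifs
  · exact measurable_const
  · have : (fun x : ι → E => v (x i) (x j)) = Function.uncurry v ∘ (fun x => (x i, x j)) := rfl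
    rw [this]
    exact hv.comp ((measurable_pi_apply i).prodMk (measurable_pi_apply j))

lemma bolt_measurable [MeasurableSpace E] {v : E → E → ℝ}
    (hv : Measurable (Function.uncurry v)) :
    Measurable (fun x : ι → E => bolt v x) :=
  ENNReal.measurable_ofReal.comp (Real.measurable_exp.comp (energy_measurable hv).neg)

lemma energy_mono {v w : E → E → ℝ} {x : ι → E}
    (h : ∀ i j, i ≠ j → v (x i) (x j) ≤ w (x i) (x j)) : energy v x ≤ energy w x := by
  unfold energy
  refine mul_le_mul_of_nonneg_left ?_ (by norm_num)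
  refine Finset.sum_le_sum fun i _ => Finset.sum_le_sum fun j _ => ?_
  split_ifs with hij
  · exact le_rfl
  · exact h i j hij

lemma energy_add (v w : E → E → ℝ) (x : ι → E) :
    energy (fun a b => v a b + w a b) x = energy v x + energy w x := by
  unfold energy
  rw [← mul_add, ← Finset.sum_add_distrib]
  congr 1
  refine Finset.sum_congr rfl fun i _ => ?_
  rw [← Finset.sum_add_distrib]
  refine Finset.sum_congr rfl fun j _ => ?_
  split_ifs <;> simp

lemma energy_sub (v w : E → E → ℝ) (x : ι → E) :
    energy (fun a b => v a b - w a b) x = energy v x - energy w x := by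
  unfold energy
  rw [← mul_sub, ← Finset.sum_sub_distrib]
  congr 1
  refine Finset.sum_congr rfl fun i _ => ?_
  rw [← Finset.sum_sub_distrib]
  refine Finset.sum_congr rfl fun j _ => ?_
  split_ifs <;> simp

lemma bolt_le_of_energy_le {v w : E → E → ℝ} {x : ι → E} (h : energy v x ≤ energy w x) :
    bolt w x ≤ bolt v x := by
  unfold bolt
  exact ENNReal.ofReal_le_ofReal (Real.exp_le_exp.mpr (neg_le_neg h))

lemma bolt_ne_top (v : E → E → ℝ) (x : ι → E) : bolt v x ≠ ∞ := ENNReal.ofReal_ne_top

lemma energy_succAbove {n : ℕ} {v : E → E → ℝ} (hs : ∀ a b, v a b = v b a)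
    (x : Fin (n + 1) → E) (i : Fin (n + 1)) :
    energy v x = energy v (fun j => x (i.succAbove j)) + ∑ j, v (x i) (x (i.succAbove j)) := by
  unfold energy
  rw [Fin.sum_univ_succAbove _ i]
  rw [Fin.sum_univ_succAbove (fun j => if i = j then 0 else v (x i) (x j)) i]
  have h1 : ∀ a : Fin n, (∑ j, if i.succAbove a = j then 0 else v (x (i.succAbove a)) (x j))
      = v (x i) (x (i.succAbove a)) + ∑ b : Fin n, if a = b then 0 else
          v (x (i.succAbove a)) (x (i.succAbove b)) := by
    intro a
    rw [Fin.sum_univ_succAbove _ i]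
    rw [if_neg (Fin.succAbove_ne i a), hs]
    congr 1
    refine Finset.sum_congr rfl fun b _ => ?_
    simp
  simp_rw [h1]
  rw [Finset.sum_add_distrib]
  have h2 : ∀ a : Fin n, (if i = i.succAbove a then (0:ℝ) else v (x i) (x (i.succAbove a)))
      = v (x i) (x (i.succAbove a)) := by
    intro a
    rw [if_neg (Fin.succAbove_ne i a).symm]
  simp_rw [h2]
  simp
  ring

end basics

section part

variable {E : Type*} [MeasurableSpace E]

/-- `n`-particle weight `∫ F e^{-U} dν^n`. -/
noncomputable def wInt (ν : Measure E) (v : E → E → ℝ) (n : ℕ) (F : (Fin n → E) → ℝ≥0∞) : ℝ≥0∞ :=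
  ∫⁻ x : Fin n → E, F x * bolt v x ∂(Measure.pi fun _ => ν)

/-- Grand canonical sum `∑ (1/n!) ∫ F e^{-U} dν^n`. -/
noncomputable def gInt (ν : Measure E) (v : E → E → ℝ) (F : (n : ℕ) → (Fin n → E) → ℝ≥0∞) :
    ℝ≥0∞ :=
  ∑' n : ℕ, ((n.factorial : ℕ) : ℝ≥0∞)⁻¹ * wInt ν v n (F n)

/-- Grand canonical partition function. -/
noncomputable def Xi (ν : Measure E) (v : E → E → ℝ) : ℝ≥0∞ := gInt ν v (fun _ _ => 1)

end part

section gnz

variable {E : Type*} [MeasurableSpace E]

/-- The Georgii–Nguyen–Zessin identity on the level of `n + 1` particles. -/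
lemma wInt_gnz {ν : Measure E} [SigmaFinite ν] {v : E → E → ℝ}
    (hv : Measurable (Function.uncurry v)) (hs : ∀ a b, v a b = v b a) (n : ℕ)
    (h : E → (Fin n → E) → ℝ≥0∞) (hm : Measurable (Function.uncurry h)) :
    wInt ν v (n + 1) (fun x => ∑ i, h (x i) (fun j => x (i.succAbove j))) =
      ((n + 1 : ℕ) : ℝ≥0∞) * ∫⁻ y, wInt ν v n
        (fun x => h y x * ENNReal.ofReal (Real.exp (-∑ j, v y (x j)))) ∂ν := by
  unfold wInt
  simp_rw [Finset.sum_mul]
  have hmeas : ∀ i : Fin (n + 1), Measurable (fun x : Fin (n + 1) → E =>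
      h (x i) (fun j => x (i.succAbove j)) * bolt v x) := by
    intro i
    refine Measurable.mul ?_ (bolt_measurable hv)
    have : (fun x : Fin (n + 1) → E => h (x i) (fun j => x (i.succAbove j))) =
      Function.uncurry h ∘ (fun x => (x i, fun j => x (i.succAbove j))) := rfl
    rw [this]
    exact hm.comp ((measurable_pi_apply i).prodMk (measurable_pi_iff.2 fun j =>
      measurable_pi_apply _))
  rw [lintegral_finsetSum _ (fun i _ => hmeas i)]
  have key : ∀ i : Fin (n + 1),
      ∫⁻ x : Fin (n + 1) → E, h (x i) (fun j => x (i.succAbove j)) * bolt v x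
        ∂(Measure.pi fun _ => ν) =
      ∫⁻ y, ∫⁻ x : Fin n → E, h y x * ENNReal.ofReal (Real.exp (-∑ j, v y (x j))) * bolt v x
        ∂(Measure.pi fun _ => ν) ∂ν := by
    intro i
    have hpres := measurePreserving_piFinSuccAbove (fun _ : Fin (n + 1) => ν) i
    set G : E × (Fin n → E) → ℝ≥0∞ := fun p =>
      h p.1 p.2 * ENNReal.ofReal (Real.exp (-∑ j, v p.1 (p.2 j))) * bolt v p.2 with hG
    have hGm : Measurable G := by
      refine Measurable.mul (Measurable.mul ?_ ?_) ((bolt_measurable hv).comp measurable_snd)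
      · exact hm
      · refine ENNReal.measurable_ofReal.comp (Real.measurable_exp.comp (Measurable.neg ?_))
        refine Finset.measurable_sum _ fun j _ => ?_
        have : (fun p : E × (Fin n → E) => v p.1 (p.2 j)) =
          Function.uncurry v ∘ (fun p => (p.1, p.2 j)) := rfl
        rw [this]
        exact hv.comp (measurable_fst.prodMk ((measurable_pi_apply j).comp measurable_snd))
    have h1 : ∀ x : Fin (n + 1) → E, h (x i) (fun j => x (i.succAbove j)) * bolt v x =
        G (MeasurableEquiv.piFinSuccAbove (fun _ => E) i x) := by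
      intro x
      have : MeasurableEquiv.piFinSuccAbove (fun _ => E) i x =
        (x i, fun j => x (i.succAbove j)) := rfl
      rw [this, hG]
      simp only
      rw [mul_assoc]
      congr 1
      unfold bolt
      rw [← ENNReal.ofReal_mul (Real.exp_pos _).le, ← Real.exp_add]
      congr 2
      rw [energy_succAbove hs x i]
      ring
    simp_rw [h1]
    rw [hpres.lintegral_comp hGm, lintegral_prod _ hGm.aemeasurable]
  simp_rw [key]
  rw [Finset.sum_const, Finset.card_univ, Fintype.card_fin, nsmul_eq_mul]

end gnz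

end Vale.Agent.P171
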