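import Vale.Agent.P171.Lip

open MeasureTheory Set Filter Topology
open scoped ENNReal NNReal BigOperators

namespace Vale.Agent.P171

/-- Block of side `l` containing a cell. -/
def blk (l : ℕ) (c : Z3) : Z3 := fun i => c i / (l : ℤ)

/-- Indicator of belonging to the same block. -/
noncomputable def same (l : ℕ) (x y : E3) : ℝ :=
  if blk l (cell x) = blk l (cell y) then 1 else 0

lemma measurable_blkcell (l : ℕ) : Measurable (fun x : E3 => blk l (cell x)) :=
  (measurable_of_countable (blk l)).comp measurable_cell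

lemma same_measurable (l : ℕ) : Measurable (Function.uncurry (same l)) := by
  unfold same Function.uncurry
  refine Measurable.ite ?_ measurable_const measurable_const
  exact measurableSet_eq_fun ((measurable_blkcell l).comp measurable_fst)
    ((measurable_blkcell l).comp measurable_snd)

lemma same_symm (l : ℕ) (x y : E3) : same l x y = same l y x := by
  unfold same; simp only [eq_comm]

lemma blk_near {l : ℕ} (hl : 0 < l) {x y : E3} (h : dist x y < l) (i : Fin 3) :
    |blk l (cell x) i - blk l (cell y) i| ≤ 1 := by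
  have h1 := cell_diff_le h i
  unfold blk
  have hl' : (0 : ℤ) < l := by exact_mod_cast hl
  rw [abs_le] at h1 ⊢
  constructor
  · have h2 : cell y i ≤ cell x i + l := by linarith [h1.1]
    have h3 : cell y i / (l : ℤ) ≤ (cell x i + l) / (l : ℤ) := Int.ediv_le_ediv hl' h2
    rw [Int.add_ediv_of_dvd_right (dvd_refl _), Int.ediv_self hl'.ne'] at h3
    linarith
  · have h2 : cell x i ≤ cell y i + l := by linarith [h1.2]
    have h3 : cell x i / (l : ℤ) ≤ (cell y i + l) / (l : ℤ) := Int.ediv_le_ediv hl' h2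
    rw [Int.add_ediv_of_dvd_right (dvd_refl _), Int.ediv_self hl'.ne'] at h3
    linarith

/-- Kernel for neighbouring blocks. -/
noncomputable def nker (l : ℕ) (c d : Z3) : ℝ :=
  if ∀ i, |c i - d i| ≤ ((1 : ℕ) : ℤ) then ((l : ℝ) ^ 3)⁻¹ else 0

lemma nker_nonneg (l : ℕ) (c d : Z3) : 0 ≤ nker l c d := by
  unfold nker; split_ifs
  · positivity
  · exact le_rfl

lemma nker_symm (l : ℕ) (c d : Z3) : nker l c d = nker l d c := by
  unfold nker
  congr 1
  simp_rw [abs_sub_comm]

lemma sum_nker_le (l : ℕ) (C : Finset Z3) (c : Z3) :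
    ∑ d ∈ C, nker l c d ≤ 27 * ((l : ℝ) ^ 3)⁻¹ := by
  unfold nker
  rw [← Finset.sum_filter, Finset.sum_const, nsmul_eq_mul]
  refine mul_le_mul_of_nonneg_right ?_ (by positivity)
  have h := card_near_le C c 1
  norm_num at h
  have : ((C.filter (fun d => ∀ i, |c i - d i| ≤ ((1 : ℕ) : ℤ))).card : ℝ) ≤ 27 := by
    have h2 : (C.filter (fun d => ∀ i, |c i - d i| ≤ ((1 : ℕ) : ℤ))).card ≤ 27 := by
      simpa using h
    exact_mod_cast h2
  exact this

lemma gfun_le_nker {l : ℕ} (hl : 0 < l) (x y : E3) :
    gfun l (dist x y) ≤ nker l (blk l (cell x)) (blk l (cell y)) := by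
  unfold gfun
  split_ifs with h
  · unfold nker
    rw [if_pos (fun i => by simpa using blk_near hl h i)]
  · exact nker_nonneg _ _ _

/-- The step of range `l` is dominated by the mean-field interaction of blocks of side `l`. -/
lemma energy_step_le {l : ℕ} (hl : 0 < l) {n : ℕ} (x : Fin n → E3) :
    energy (pv (gfun l)) x ≤ 27 * ((l : ℝ) ^ 3)⁻¹ * (energy (same l) x + n / 2) := by
  classical
  set C : Finset Z3 := Finset.univ.image (fun i => blk l (cell (x i))) with hC
  have hx : ∀ i, (fun y : E3 => blk l (cell y)) (x i) ∈ C := fun i =>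
    Finset.mem_image_of_mem _ (Finset.mem_univ i)
  have h1 : ∑ i, ∑ j, (if i = j then 0 else pv (gfun l) (x i) (x j)) ≤
      ∑ i, ∑ j, nker l (blk l (cell (x i))) (blk l (cell (x j))) := by
    refine Finset.sum_le_sum fun i _ => Finset.sum_le_sum fun j _ => ?_
    split_ifs
    · exact nker_nonneg _ _ _
    · exact gfun_le_nker hl _ _
  have h2 := sum_sum_cell_le (cell := fun y : E3 => blk l (cell y)) hx (nker_nonneg l)
    (nker_symm l)
  have h3 := sum_cnt_self (cell := fun y : E3 => blk l (cell y)) hx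
  have h4 : ∑ c ∈ C, (cnt (fun y : E3 => blk l (cell y)) c x : ℝ) ^ 2 *
      ∑ d ∈ C, nker l c d ≤ 27 * ((l : ℝ) ^ 3)⁻¹ *
        ∑ c ∈ C, (cnt (fun y : E3 => blk l (cell y)) c x : ℝ) ^ 2 := by
    rw [Finset.mul_sum]
    refine Finset.sum_le_sum fun c _ => ?_
    rw [mul_comm (27 * _)]
    exact mul_le_mul_of_nonneg_left (sum_nker_le l C c) (sq_nonneg _)
  have h5 : ∑ i, ∑ j, (if blk l (cell (x i)) = blk l (cell (x j)) then (1:ℝ) else 0) =
      2 * energy (same l) x + n := by
    unfold energy same
    have : ∀ i : Fin n, ∑ j, (if blk l (cell (x i)) = blk l (cell (x j)) then (1:ℝ) else 0) =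
        ∑ j, (if i = j then 0 else
          (if blk l (cell (x i)) = blk l (cell (x j)) then (1:ℝ) else 0)) + 1 := by
      intro i
      rw [← Finset.add_sum_erase _ _ (Finset.mem_univ i),
        ← Finset.add_sum_erase (f := fun j => (if i = j then (0:ℝ) else
          (if blk l (cell (x i)) = blk l (cell (x j)) then (1:ℝ) else 0))) _ (Finset.mem_univ i)]
      rw [if_pos rfl, if_pos rfl, zero_add, add_comm]
      congr 1
      refine Finset.sum_congr rfl fun j hj => ?_
      rw [if_neg (Ne.symm (Finset.ne_of_mem_erase hj))]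
    simp_rw [this]
    rw [Finset.sum_add_distrib]
    simp
  rw [← h3, h5] at h4
  unfold energy at h4 ⊢
  linarith

end Vale.Agent.P171
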