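import Vale.Agent.P171.MeanField

open MeasureTheory Set Filter Topology
open scoped ENNReal NNReal BigOperators

namespace Vale.Agent.P171

/-- `N`-particle term of the partition function of the cube of side `l`. -/
noncomputable def uN (K : ℝ) (a : ℕ → ℝ) (μ : ℝ) (l : ℕ) (N : ℕ) : ℝ≥0∞ :=
  ((N.factorial : ℕ) : ℝ≥0∞)⁻¹ * bInt ((base (act μ)).restrict (hbox 0 l)) (pv (phi K a)) N

lemma tsum_uN (K : ℝ) (a : ℕ → ℝ) (μ : ℝ) (l : ℕ) : ∑' N, uN K a μ l N = Xb K a (act μ) l := by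
  unfold Xb uN; rw [Xi_eq]

lemma bInt_smul (n : ℕ) {E : Type*} [MeasurableSpace E] (ν : Measure E) [IsFiniteMeasure ν]
    (c : ℝ≥0∞) (hc : c ≠ ∞) (v : E → E → ℝ) : bInt (c • ν) v n = c ^ n * bInt ν v n := by
  have := wInt_smul n ν c hc v (fun _ => 1)
  simpa [wInt, bInt] using this

lemma uN_shift (K : ℝ) (a : ℕ → ℝ) (μ s : ℝ) (l N : ℕ) :
    uN K a (μ + s) l N = ENNReal.ofReal (Real.exp (s * N)) * uN K a μ l N := by
  unfold uN
  rw [base_act_add, bInt_smul _ _ _ ENNReal.ofReal_ne_top,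
    ← ENNReal.ofReal_pow (Real.exp_pos _).le, ← Real.exp_nat_mul, mul_comm (N : ℝ) s]
  ring

lemma energy_const {E : Type*} {N : ℕ} (τ : ℝ) (x : Fin N → E) :
    energy (fun _ _ => τ) x = τ * (N : ℝ) * ((N : ℝ) - 1) / 2 := by
  unfold energy
  have h1 : ∀ i : Fin N, (∑ j : Fin N, if i = j then (0 : ℝ) else τ) = τ * ((N : ℝ) - 1) := by
    intro i
    have : ∀ j : Fin N, (if i = j then (0 : ℝ) else τ) = τ - (if i = j then τ else 0) := by
      intro j; split_ifs <;> simp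
    simp_rw [this]
    rw [Finset.sum_sub_distrib]
    simp
    ring
  simp_rw [h1]
  simp
  ring

lemma bolt_const_shift (K : ℝ) (a : ℕ → ℝ) (τ : ℝ) {N : ℕ} (x : Fin N → E3) :
    bolt (pv (fun r => phi K a r - τ)) x =
      ENNReal.ofReal (Real.exp (τ * (N : ℝ) * ((N : ℝ) - 1) / 2)) * bolt (pv (phi K a)) x := by
  unfold bolt
  rw [← ENNReal.ofReal_mul (Real.exp_pos _).le, ← Real.exp_add]
  have h1 : energy (pv (fun r => phi K a r - τ)) x =
      energy (pv (phi K a)) x - τ * (N : ℝ) * ((N : ℝ) - 1) / 2 := by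
    rw [← energy_const τ x, ← energy_sub]
    rfl
  rw [h1]
  congr 2
  ring

lemma Qf_eq {K : ℝ} {a : ℕ → ℝ} (h : Nice a) (μ : ℝ) (l : ℕ) (τ : ℝ) :
    Qf K a (act (μ + τ / 2)) l τ =
      ∑' N : ℕ, ENNReal.ofReal (Real.exp (τ * (N : ℝ) ^ 2 / 2)) * uN K a μ l N := by
  unfold Qf
  rw [Xi_eq]
  refine tsum_congr fun N => ?_
  rw [base_act_add, bInt_smul _ _ _ ENNReal.ofReal_ne_top]
  have h1 : bInt ((base (act μ)).restrict (hbox 0 l)) (pv (fun r => phi K a r - τ)) N =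
      ENNReal.ofReal (Real.exp (τ * (N : ℝ) * ((N : ℝ) - 1) / 2)) *
        bInt ((base (act μ)).restrict (hbox 0 l)) (pv (phi K a)) N := by
    unfold bInt
    rw [← lintegral_const_mul _ (bolt_measurable (pv_measurable (h.phi_measurable K)))]
    exact lintegral_congr fun x => bolt_const_shift K a τ x
  rw [h1]
  unfold uN
  rw [← ENNReal.ofReal_pow (Real.exp_pos _).le, ← Real.exp_nat_mul]
  have h2 : ENNReal.ofReal (Real.exp (τ * (N : ℝ) ^ 2 / 2)) =
      ENNReal.ofReal (Real.exp ((N : ℝ) * (τ / 2))) *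
        ENNReal.ofReal (Real.exp (τ * (N : ℝ) * ((N : ℝ) - 1) / 2)) := by
    rw [← ENNReal.ofReal_mul (Real.exp_pos _).le, ← Real.exp_add]
    congr 2
    ring
  rw [h2]
  ring

lemma Qf_one_le {K μ : ℝ} {a : ℕ → ℝ} (h : Adm K a (act (μ + 1))) (k : ℕ) :
    Qf K a (act (μ + (27 / (Rn k : ℝ) ^ 3) / 2)) (Rn k) (27 / (Rn k : ℝ) ^ 3) ≤
      ENNReal.ofReal (Real.exp (Real.exp (K / 2) * Real.exp (μ + 1) * (Rn k : ℝ) ^ 3)) := by
  have hb := tau_bounds k (t := 1) zero_le_one le_rfl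
  rw [mul_one] at hb
  obtain ⟨hτ0, hτ1, hτ2⟩ := hb
  set τ := 27 / (Rn k : ℝ) ^ 3 with hτ
  have hz : Adm K a (act (μ + τ / 2)) := h.of_le (by linarith)
  refine (hyp_Qf hz hτ0 hτ1).Xi_le.trans ?_
  refine ENNReal.ofReal_le_ofReal (Real.exp_le_exp.mpr ?_)
  rw [base_box_univ _ _ (by positivity), ENNReal.toReal_ofReal (by positivity), mul_assoc]
  refine mul_le_mul_of_nonneg_left ?_ (Real.exp_pos _).le
  refine mul_le_mul_of_nonneg_right ?_ (by positivity)
  rw [act_coe]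
  exact Real.exp_le_exp.mpr (by linarith)

/-- Three-regime estimate of the block partition function. -/
theorem Qf_le {K μ : ℝ} {a : ℕ → ℝ} (h : Adm K a (act (μ + 1))) (k : ℕ) {t s0 x1 X : ℝ}
    (ht0 : 0 < t) (ht : t ≤ 1/2) (hs0 : 0 < s0) (hs1 : s0 ≤ 1) (hx1 : 0 ≤ x1) (hxX : x1 ≤ X)
    (htX : 27 * t * X ≤ s0) (hX : Real.exp (K / 2) * Real.exp (μ + 1) ≤ (27/4) * X ^ 2) :
    Qf K a (act (μ + 27 * t / (Rn k : ℝ) ^ 3 / 2)) (Rn k) (27 * t / (Rn k : ℝ) ^ 3) ≤
      ENNReal.ofReal (Real.exp ((27 * t / 2) * x1 ^ 2 * (Rn k : ℝ) ^ 3 +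
        lX K a (act μ) (Rn k))) +
      ENNReal.ofReal (Real.exp ((27 * t / 2) * x1 ^ 2 * (Rn k : ℝ) ^ 3 -
        s0 * x1 * (Rn k : ℝ) ^ 3 + lX K a (act (μ + s0)) (Rn k))) + 1 := by
  have hR : (0 : ℝ) < Rn k := by exact_mod_cast Rn_pos k
  set l := Rn k with hl
  set c : ℝ := (l : ℝ) ^ 3 with hc
  have hc0 : 0 < c := by positivity
  set T : ℝ := (27 * t / 2) * x1 ^ 2 * c with hT
  rw [Qf_eq h.nice]
  have hterm : ∀ N : ℕ, ENNReal.ofReal (Real.exp (27 * t / c * (N : ℝ) ^ 2 / 2)) *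
      uN K a μ l N ≤ (ENNReal.ofReal (Real.exp T) * uN K a μ l N +
        ENNReal.ofReal (Real.exp (T - s0 * x1 * c)) * uN K a (μ + s0) l N) +
        ENNReal.ofReal (Real.exp (-((27/4) * X ^ 2 * c))) *
          (ENNReal.ofReal (Real.exp (27 / c * (N : ℝ) ^ 2 / 2)) * uN K a μ l N) := by
    intro N
    have hN : (0 : ℝ) ≤ N := Nat.cast_nonneg N
    have hn : (N : ℝ) = (N / c) * c := by field_simp
    set y : ℝ := N / c with hy
    have hy0 : 0 ≤ y := by positivity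
    by_cases h1 : y ≤ x1
    · refine le_trans ?_ le_self_add
      refine le_trans ?_ le_self_add
      refine mul_le_mul_left (ENNReal.ofReal_le_ofReal (Real.exp_le_exp.mpr ?_)) _
      rw [hn, hT]
      have h2 : y ^ 2 ≤ x1 ^ 2 := pow_le_pow_left₀ hy0 h1 2
      have h3 : 27 * t / c * (y * c) ^ 2 / 2 = (27 * t / 2) * c * y ^ 2 := by field_simp
      rw [h3]
      have h4 : (0 : ℝ) ≤ (27 * t / 2) * c := by positivity
      nlinarith
    · push Not at h1
      by_cases h2 : y ≤ X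
      · refine le_trans ?_ le_self_add
        refine le_trans ?_ le_add_self
        rw [uN_shift, ← mul_assoc, ← ENNReal.ofReal_mul (Real.exp_pos _).le, ← Real.exp_add]
        refine mul_le_mul_left (ENNReal.ofReal_le_ofReal (Real.exp_le_exp.mpr ?_)) _
        rw [hn, hT]
        have h3 : 27 * t / c * (y * c) ^ 2 / 2 = (27 * t / 2) * c * y ^ 2 := by field_simp
        rw [h3]
        have h4 : (27 * t / 2) * (y + x1) ≤ s0 := by nlinarith
        have h5 : (27 * t / 2) * (y + x1) * (y - x1) ≤ s0 * (y - x1) :=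
          mul_le_mul_of_nonneg_right h4 (by linarith)
        nlinarith
      · push Not at h2
        refine le_trans ?_ le_add_self
        rw [← mul_assoc, ← ENNReal.ofReal_mul (Real.exp_pos _).le, ← Real.exp_add]
        refine mul_le_mul_left (ENNReal.ofReal_le_ofReal (Real.exp_le_exp.mpr ?_)) _
        rw [hn]
        have h3 : 27 * t / c * (y * c) ^ 2 / 2 = (27 * t / 2) * c * y ^ 2 := by field_simp
        have h4 : 27 / c * (y * c) ^ 2 / 2 = (27 / 2) * c * y ^ 2 := by field_simp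
        rw [h3, h4]
        have hX0 : 0 ≤ X := le_trans hx1 hxX
        have h5 : X ^ 2 ≤ y ^ 2 := pow_le_pow_left₀ hX0 h2.le 2
        have h6 : 0 ≤ c * y ^ 2 := by positivity
        nlinarith
  refine (ENNReal.tsum_le_tsum hterm).trans ?_
  rw [ENNReal.tsum_add, ENNReal.tsum_add, ENNReal.tsum_mul_left, ENNReal.tsum_mul_left,
    ENNReal.tsum_mul_left, tsum_uN, tsum_uN]
  have hA0 : Adm K a (act μ) := h.of_le (by linarith)
  have hA1 : Adm K a (act (μ + s0)) := h.of_le (by linarith)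
  rw [← hA0.exp_lX, ← hA1.exp_lX]
  refine add_le_add (add_le_add (le_of_eq ?_) (le_of_eq ?_)) ?_
  · rw [← ENNReal.ofReal_mul (Real.exp_pos _).le, ← Real.exp_add]
  · rw [← ENNReal.ofReal_mul (Real.exp_pos _).le, ← Real.exp_add]
  · have h1 := Qf_one_le h k
    rw [Qf_eq h.nice] at h1
    calc ENNReal.ofReal (Real.exp (-((27/4) * X ^ 2 * c))) *
          ∑' N : ℕ, (ENNReal.ofReal (Real.exp (27 / c * (N : ℝ) ^ 2 / 2)) * uN K a μ l N)
        ≤ ENNReal.ofReal (Real.exp (-((27/4) * X ^ 2 * c))) *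
          ENNReal.ofReal (Real.exp (Real.exp (K / 2) * Real.exp (μ + 1) * c)) :=
          mul_le_mul_right h1 _
      _ ≤ 1 := by
          rw [← ENNReal.ofReal_mul (Real.exp_pos _).le, ← Real.exp_add, ← ENNReal.ofReal_one]
          refine ENNReal.ofReal_le_ofReal ?_
          refine Real.exp_le_one_iff.mpr ?_
          have := mul_le_mul_of_nonneg_right hX hc0.le
          linarith

end Vale.Agent.P171
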