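import Vale.Agent.P171.Basic

open MeasureTheory Set Filter Topology
open scoped ENNReal BigOperators

namespace Vale.Agent.P171

section count

variable {E I : Type*} [DecidableEq I]

/-- Number of particles in cell `c`. -/
def cnt (cell : E → I) (c : I) {n : ℕ} (x : Fin n → E) : ℕ :=
  (Finset.univ.filter (fun i => cell (x i) = c)).card

variable {cell : E → I} {C : Finset I}

lemma cnt_cast (c : I) {n : ℕ} (x : Fin n → E) :
    (cnt cell c x : ℝ) = ∑ i, if cell (x i) = c then (1 : ℝ) else 0 := by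
  unfold cnt
  rw [Finset.card_filter]
  push_cast
  rfl

lemma sum_cell_eq {n : ℕ} {x : Fin n → E} (hx : ∀ i, cell (x i) ∈ C) (g : I → ℝ) :
    ∑ i, g (cell (x i)) = ∑ c ∈ C, (cnt cell c x : ℝ) * g c := by
  rw [← Finset.sum_fiberwise_of_maps_to (s := Finset.univ) (t := C) (g := fun i => cell (x i))
    (fun i _ => hx i)]
  refine Finset.sum_congr rfl fun c _ => ?_
  rw [Finset.sum_congr rfl (g := fun _ => g c)]
  · rw [Finset.sum_const, nsmul_eq_mul]; rfl
  · intro i hi
    rw [(Finset.mem_filter.mp hi).2]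

lemma sum_cnt {n : ℕ} {x : Fin n → E} (hx : ∀ i, cell (x i) ∈ C) :
    ∑ c ∈ C, (cnt cell c x : ℝ) = n := by
  have := sum_cell_eq hx (fun _ => 1)
  simp at this
  exact this.symm

lemma sum_sum_cell_eq {n : ℕ} {x : Fin n → E} (hx : ∀ i, cell (x i) ∈ C) (G : I → I → ℝ) :
    ∑ i, ∑ j, G (cell (x i)) (cell (x j)) =
      ∑ c ∈ C, ∑ d ∈ C, (cnt cell c x : ℝ) * (cnt cell d x : ℝ) * G c d := by
  have h1 : ∀ i, ∑ j, G (cell (x i)) (cell (x j)) =
      ∑ d ∈ C, (cnt cell d x : ℝ) * G (cell (x i)) d := fun i =>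
    sum_cell_eq hx (fun d => G (cell (x i)) d)
  simp_rw [h1]
  rw [sum_cell_eq hx (fun c => ∑ d ∈ C, (cnt cell d x : ℝ) * G c d)]
  refine Finset.sum_congr rfl fun c _ => ?_
  rw [Finset.mul_sum]
  refine Finset.sum_congr rfl fun d _ => ?_
  ring

/-- AM-GM bound for a symmetric nonnegative kernel. -/
lemma sum_sum_cell_le {n : ℕ} {x : Fin n → E} (hx : ∀ i, cell (x i) ∈ C) {G : I → I → ℝ}
    (hG : ∀ c d, 0 ≤ G c d) (hs : ∀ c d, G c d = G d c) :
    ∑ i, ∑ j, G (cell (x i)) (cell (x j)) ≤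
      ∑ c ∈ C, (cnt cell c x : ℝ) ^ 2 * ∑ d ∈ C, G c d := by
  rw [sum_sum_cell_eq hx]
  have h1 : ∑ c ∈ C, ∑ d ∈ C, (cnt cell c x : ℝ) * (cnt cell d x : ℝ) * G c d ≤
      ∑ c ∈ C, ∑ d ∈ C, ((1/2) * ((cnt cell c x : ℝ)^2 * G c d) +
        (1/2) * ((cnt cell d x : ℝ)^2 * G c d)) := by
    refine Finset.sum_le_sum fun c _ => Finset.sum_le_sum fun d _ => ?_
    nlinarith [mul_nonneg (sq_nonneg ((cnt cell c x : ℝ) - cnt cell d x)) (hG c d)]
  refine h1.trans (le_of_eq ?_)
  simp_rw [Finset.sum_add_distrib]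
  have h2 : ∑ c ∈ C, ∑ d ∈ C, (1/2 : ℝ) * ((cnt cell d x : ℝ)^2 * G c d) =
      ∑ c ∈ C, ∑ d ∈ C, (1/2 : ℝ) * ((cnt cell c x : ℝ)^2 * G c d) := by
    rw [Finset.sum_comm]
    refine Finset.sum_congr rfl fun c _ => Finset.sum_congr rfl fun d _ => ?_
    rw [hs d c]
  rw [h2, ← Finset.sum_add_distrib]
  refine Finset.sum_congr rfl fun c _ => ?_
  rw [← Finset.sum_add_distrib, Finset.mul_sum]
  refine Finset.sum_congr rfl fun d _ => ?_
  ring

lemma sum_cnt_self {n : ℕ} {x : Fin n → E} (hx : ∀ i, cell (x i) ∈ C) :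
    ∑ i, ∑ j, (if cell (x i) = cell (x j) then (1 : ℝ) else 0) =
      ∑ c ∈ C, (cnt cell c x : ℝ) ^ 2 := by
  have := sum_sum_cell_eq hx (fun c d => if c = d then (1 : ℝ) else 0)
  rw [this]
  refine Finset.sum_congr rfl fun c hc => ?_
  rw [Finset.sum_eq_single c]
  · simp; ring
  · intro d _ hd
    rw [if_neg (Ne.symm hd)]; simp
  · intro h; exact absurd hc h

/-- Stability of a pair energy bounded below by a strong local repulsion. -/
lemma energy_ge {n : ℕ} {x : Fin n → E} (hx : ∀ i, cell (x i) ∈ C) {v : E → E → ℝ}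
    {V : I → I → ℝ} {K J : ℝ} (hV : ∀ c d, 0 ≤ V c d) (hVs : ∀ c d, V c d = V d c)
    (hJ : ∀ c ∈ C, ∑ d ∈ C, V c d ≤ J)
    (h : ∀ y z, cell y ∈ C → cell z ∈ C →
      (if cell y = cell z then K else 0) - V (cell y) (cell z) ≤ v y z) :
    (1/2) * ((K - J) * ∑ c ∈ C, (cnt cell c x : ℝ)^2 - K * n) ≤ energy v x := by
  unfold energy
  refine mul_le_mul_of_nonneg_left ?_ (by norm_num)
  have h1 : ∑ i, ∑ j, (if i = j then 0 else
      ((if cell (x i) = cell (x j) then K else 0) - V (cell (x i)) (cell (x j)))) ≤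
      ∑ i, ∑ j, (if i = j then 0 else v (x i) (x j)) := by
    refine Finset.sum_le_sum fun i _ => Finset.sum_le_sum fun j _ => ?_
    split_ifs with hij
    · exact le_rfl
    · have := h (x i) (x j) (hx i) (hx j)
      rw [if_pos (by assumption)] at this
      exact this
    · have := h (x i) (x j) (hx i) (hx j)
      rw [if_neg (by assumption)] at this
      exact this
  refine le_trans ?_ h1
  have h2 : ∑ i, ∑ j, (if i = j then 0 else
      ((if cell (x i) = cell (x j) then K else 0) - V (cell (x i)) (cell (x j)))) =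
      K * ∑ i, ∑ j, (if cell (x i) = cell (x j) then (1:ℝ) else 0) - K * n
        - (∑ i, ∑ j, V (cell (x i)) (cell (x j)) - ∑ i, V (cell (x i)) (cell (x i))) := by
    have : ∀ i : Fin n, ∑ j, (if i = j then 0 else
      ((if cell (x i) = cell (x j) then K else 0) - V (cell (x i)) (cell (x j)))) =
      K * ∑ j, (if cell (x i) = cell (x j) then (1:ℝ) else 0) - K
        - (∑ j, V (cell (x i)) (cell (x j)) - V (cell (x i)) (cell (x i))) := by
      intro i
      have e1 : ∀ j, (if i = j then 0 else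
        ((if cell (x i) = cell (x j) then K else 0) - V (cell (x i)) (cell (x j)))) =
        (K * (if cell (x i) = cell (x j) then (1:ℝ) else 0) - V (cell (x i)) (cell (x j)))
          - (if i = j then (K - V (cell (x i)) (cell (x i))) else 0) := by
        intro j
        by_cases hij : i = j
        · subst hij; simp
        · simp [hij]
      simp_rw [e1]
      rw [Finset.sum_sub_distrib, Finset.sum_sub_distrib, ← Finset.mul_sum]
      simp
      ring
    simp_rw [this]
    rw [Finset.sum_sub_distrib, Finset.sum_sub_distrib, Finset.sum_sub_distrib, ← Finset.mul_sum]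
    simp
    ring
  rw [h2, sum_cnt_self hx]
  have h3 := sum_sum_cell_le hx hV hVs
  have h4 : ∑ c ∈ C, (cnt cell c x : ℝ) ^ 2 * ∑ d ∈ C, V c d ≤
      J * ∑ c ∈ C, (cnt cell c x : ℝ) ^ 2 := by
    rw [Finset.mul_sum]
    refine Finset.sum_le_sum fun c hc => ?_
    rw [mul_comm J]
    exact mul_le_mul_of_nonneg_left (hJ c hc) (sq_nonneg _)
  have h5 : 0 ≤ ∑ i, V (cell (x i)) (cell (x i)) := Finset.sum_nonneg fun i _ => hV _ _
  nlinarith

end count

end Vale.Agent.P171
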