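import Vale.Agent.P171.Decouple

open MeasureTheory Set Filter Topology
open scoped ENNReal NNReal BigOperators

namespace Vale.Agent.P171

lemma count_coord {l : ℕ} (hl : 0 < l) (m R : ℕ) :
    ((Finset.Ico (0 : ℤ) ((m * l : ℕ) : ℤ)).filter
      (fun x => x % (l : ℤ) < R ∨ (l : ℤ) - R ≤ x % (l : ℤ))).card ≤ m * (2 * R) := by
  have hlZ : (0 : ℤ) < l := by exact_mod_cast hl
  set T : Finset (ℤ × ℤ) := (Finset.Ico (0 : ℤ) m) ×ˢ
    (Finset.Ico (0 : ℤ) R ∪ Finset.Ico ((l : ℤ) - R) l) with hT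
  have h1 : ((Finset.Ico (0 : ℤ) ((m * l : ℕ) : ℤ)).filter
      (fun x => x % (l : ℤ) < R ∨ (l : ℤ) - R ≤ x % (l : ℤ))).card ≤ T.card := by
    refine Finset.card_le_card_of_injOn (fun x => (x / (l : ℤ), x % (l : ℤ))) ?_ ?_
    · intro x hx
      have hx' := Finset.mem_filter.mp hx
      have h2 := Finset.mem_Ico.mp hx'.1
      have h3 := Int.emod_nonneg x hlZ.ne'
      have h4 := Int.emod_lt_of_pos x hlZ
      rw [hT, Finset.mem_coe, Finset.mem_product]
      refine ⟨?_, ?_⟩
      · rw [Finset.mem_Ico]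
        refine ⟨Int.ediv_nonneg h2.1 hlZ.le, ?_⟩
        rw [Int.ediv_lt_iff_lt_mul hlZ]
        have := h2.2
        push_cast at this
        exact this
      · rw [Finset.mem_union, Finset.mem_Ico, Finset.mem_Ico]
        rcases hx'.2 with h | h
        · exact Or.inl ⟨h3, h⟩
        · exact Or.inr ⟨h, h4⟩
    · intro x _ y _ hxy
      simp only [Prod.mk.injEq] at hxy
      have h5 := Int.mul_ediv_add_emod x l
      have h6 := Int.mul_ediv_add_emod y l
      rw [← h5, ← h6, hxy.1, hxy.2]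
  refine h1.trans ?_
  rw [hT, Finset.card_product]
  refine Nat.mul_le_mul ?_ ?_
  · simp
  · refine (Finset.card_union_le _ _).trans ?_
    rw [Int.card_Ico, Int.card_Ico]
    omega

/-- Cells close to the boundary of their block. -/
noncomputable def badCells (l m R : ℕ) : Finset Z3 :=
  (boxCells (m * l)).filter (fun c => ∃ i, c i % (l : ℤ) < R ∨ (l : ℤ) - R ≤ c i % (l : ℤ))

lemma card_badCells_le {l : ℕ} (hl : 0 < l) (m R : ℕ) :
    (badCells l m R).card ≤ 3 * ((m * (2 * R)) * (m * l) ^ 2) := by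
  classical
  have hsub : badCells l m R ⊆ Finset.univ.biUnion (fun i : Fin 3 =>
      (boxCells (m * l)).filter (fun c => c i % (l : ℤ) < R ∨ (l : ℤ) - R ≤ c i % (l : ℤ))) := by
    intro c hc
    have h := Finset.mem_filter.mp hc
    obtain ⟨i, hi⟩ := h.2
    rw [Finset.mem_biUnion]
    exact ⟨i, Finset.mem_univ _, Finset.mem_filter.mpr ⟨h.1, hi⟩⟩
  refine (Finset.card_le_card hsub).trans (Finset.card_biUnion_le.trans ?_)
  have h1 : ∀ i : Fin 3, ((boxCells (m * l)).filter
      (fun c => c i % (l : ℤ) < R ∨ (l : ℤ) - R ≤ c i % (l : ℤ))).card ≤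
      (m * (2 * R)) * (m * l) ^ 2 := by
    intro i
    set S := Finset.Ico (0 : ℤ) ((m * l : ℕ) : ℤ) with hS
    set P : ℤ → Prop := fun x => x % (l : ℤ) < R ∨ (l : ℤ) - R ≤ x % (l : ℤ) with hP
    have hsub2 : (boxCells (m * l)).filter (fun c => c i % (l : ℤ) < R ∨ (l : ℤ) - R ≤ c i % (l : ℤ)) ⊆
        Fintype.piFinset (fun j => if j = i then S.filter P else S) := by
      intro c hc
      have h := Finset.mem_filter.mp hc
      have h2 := Fintype.mem_piFinset.mp h.1
      rw [Fintype.mem_piFinset]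
      intro j
      by_cases hj : j = i
      · subst hj
        rw [if_pos rfl]
        exact Finset.mem_filter.mpr ⟨h2 j, h.2⟩
      · rw [if_neg hj]; exact h2 j
    refine (Finset.card_le_card hsub2).trans ?_
    rw [Fintype.card_piFinset]
    have hSc : S.card = m * l := by rw [hS, Int.card_Ico]; omega
    have hPc := count_coord hl m R
    have h3 : ∏ j : Fin 3, (if j = i then S.filter P else S).card =
        (S.filter P).card * S.card ^ 2 := by
      rw [Fin.prod_univ_three]
      fin_cases i <;> simp <;> ring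
    rw [h3, hSc]
    exact Nat.mul_le_mul_right _ hPc
  calc ∑ i : Fin 3, ((boxCells (m * l)).filter
      (fun c => c i % (l : ℤ) < R ∨ (l : ℤ) - R ≤ c i % (l : ℤ))).card
      ≤ ∑ _i : Fin 3, (m * (2 * R)) * (m * l) ^ 2 := Finset.sum_le_sum fun i _ => h1 i
    _ = _ := by simp

lemma blk_eq_of_near {l R : ℕ} (hl : 0 < l) {c d : Z3}
    (hc : ∀ i, (R : ℤ) ≤ c i % (l : ℤ) ∧ c i % (l : ℤ) < (l : ℤ) - R)
    (h : ∀ i, |c i - d i| ≤ (R : ℤ)) : blk l c = blk l d := by
  funext i
  have hlZ : (0 : ℤ) < l := by exact_mod_cast hl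
  unfold blk
  have h1 := Int.mul_ediv_add_emod (c i) l
  have h2 := abs_le.mp (h i)
  have h3 := hc i
  symm
  refine le_antisymm ?_ ?_
  · have : d i / (l : ℤ) < c i / l + 1 := by
      rw [Int.ediv_lt_iff_lt_mul hlZ]
      nlinarith
    omega
  · rw [Int.le_ediv_iff_mul_le hlZ]
    nlinarith

lemma cross_step_le {l : ℕ} (hl : 0 < l) (m : ℕ) {R : ℕ} (hR : 0 < R) :
    ∑ c ∈ boxCells (m * l), ∑ d ∈ boxCells (m * l),
      (if blk l c = blk l d then 0 else gker R c d) ≤
      ((m * l : ℕ) : ℝ) ^ 3 * (27 * min (1 : ℝ) (6 * (R : ℝ) / (l : ℝ))) := by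
  classical
  have hl' : (0 : ℝ) < l := by exact_mod_cast hl
  have hrow : ∀ c ∈ boxCells (m * l), ∑ d ∈ boxCells (m * l),
      (if blk l c = blk l d then 0 else gker R c d) ≤ if c ∈ badCells l m R then 27 else 0 := by
    intro c hc
    by_cases hb : c ∈ badCells l m R
    · rw [if_pos hb]
      refine le_trans (Finset.sum_le_sum fun d _ => ?_) (sum_gker_le (boxCells (m * l)) c hR)
      split_ifs
      · exact gker_nonneg _ _ _
      · exact le_rfl
    · rw [if_neg hb]
      refine Finset.sum_nonpos fun d _ => ?_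
      split_ifs with h
      · exact le_rfl
      · unfold gker
        rw [if_neg]
        intro hnear
        apply h
        refine blk_eq_of_near hl ?_ hnear
        intro i
        by_contra hcon
        apply hb
        unfold badCells
        rw [Finset.mem_filter]
        refine ⟨hc, i, ?_⟩
        by_contra h2
        push Not at h2
        exact hcon h2
  have hsum : ∑ c ∈ boxCells (m * l), ∑ d ∈ boxCells (m * l),
      (if blk l c = blk l d then 0 else gker R c d) ≤ 27 * ((badCells l m R).card : ℝ) := by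
    refine (Finset.sum_le_sum hrow).trans (le_of_eq ?_)
    rw [← Finset.sum_filter, Finset.sum_const, nsmul_eq_mul, mul_comm]
    congr 2
    rw [Finset.filter_mem_eq_inter]
    exact congrArg _ (Finset.inter_eq_right.mpr (Finset.filter_subset _ _))
  have h1 : ((badCells l m R).card : ℝ) ≤ ((m * l : ℕ) : ℝ) ^ 3 := by
    have : (badCells l m R).card ≤ (m * l) ^ 3 := by
      rw [← card_boxCells]
      exact Finset.card_filter_le _ _
    exact_mod_cast this
  have h2 : ((badCells l m R).card : ℝ) ≤ ((m * l : ℕ) : ℝ) ^ 3 * (6 * R / l) := by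
    have h3 : ((badCells l m R).card : ℝ) ≤ 3 * ((m * (2 * R)) * (m * l) ^ 2) := by
      exact_mod_cast card_badCells_le hl m R
    refine h3.trans (le_of_eq ?_)
    push_cast
    field_simp
    ring
  have h3 : ((badCells l m R).card : ℝ) ≤
      ((m * l : ℕ) : ℝ) ^ 3 * min (1 : ℝ) (6 * (R : ℝ) / (l : ℝ)) := by
    rcases min_choice (1 : ℝ) (6 * (R : ℝ) / (l : ℝ)) with h | h
    · rw [h, mul_one]; exact h1
    · rw [h]; exact h2
  calc _ ≤ 27 * ((badCells l m R).card : ℝ) := hsum
    _ ≤ 27 * (((m * l : ℕ) : ℝ) ^ 3 * min (1 : ℝ) (6 * (R : ℝ) / (l : ℝ))) :=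
        mul_le_mul_of_nonneg_left h3 (by norm_num)
    _ = _ := by ring

/-- Error term of the block decoupling. -/
noncomputable def dlt (a : ℕ → ℝ) (l : ℕ) : ℝ := ∑' k, a k * (27 * min 1 (6 * (Rn k : ℝ) / l))

lemma Nice.summable_dlt {a : ℕ → ℝ} (h : Nice a) (l : ℕ) :
    Summable fun k => a k * (27 * min 1 (6 * (Rn k : ℝ) / l)) := by
  refine Summable.of_nonneg_of_le (fun k => ?_) (fun k => ?_) (h.summable.mul_left 27)
  · have := h.nonneg k
    positivity
  · have h1 : min 1 (6 * (Rn k : ℝ) / l) ≤ 1 := min_le_left _ _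
    nlinarith [h.nonneg k]

lemma Nice.sum_Wker_le {a : ℕ → ℝ} (h : Nice a) {l : ℕ} (hl : 0 < l) (m : ℕ) :
    ∑ c ∈ boxCells (m * l), ∑ d ∈ boxCells (m * l), Wker a l c d ≤
      ((m * l : ℕ) : ℝ) ^ 3 * dlt a l := by
  have hterm : ∀ c d, Wker a l c d = ∑' k, a k * (if blk l c = blk l d then 0 else
      gker (Rn k) c d) := by
    intro c d
    unfold Wker Vker
    split_ifs <;> simp
  have hs : ∀ c d, Summable fun k => a k * (if blk l c = blk l d then 0 else
      gker (Rn k) c d) := by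
    intro c d
    split_ifs
    · simp
    · exact h.summable_gker c d
  simp_rw [hterm]
  simp_rw [← Summable.tsum_finsetSum (fun d _ => hs _ d)]
  rw [← Summable.tsum_finsetSum (fun c _ => summable_sum fun d _ => hs c d)]
  unfold dlt
  rw [← tsum_mul_left]
  refine Summable.tsum_le_tsum (fun k => ?_)
    (summable_sum fun c _ => summable_sum fun d _ => hs c d)
    ((h.summable_dlt l).mul_left _)
  simp_rw [← Finset.mul_sum]
  have h1 := cross_step_le hl m (Rn_pos k)
  calc a k * ∑ c ∈ boxCells (m * l), ∑ d ∈ boxCells (m * l),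
        (if blk l c = blk l d then 0 else gker (Rn k) c d)
      ≤ a k * (((m * l : ℕ) : ℝ) ^ 3 * (27 * min 1 (6 * (Rn k : ℝ) / l))) :=
        mul_le_mul_of_nonneg_left h1 (h.nonneg k)
    _ = _ := by ring

lemma Nice.tendsto_dlt {a : ℕ → ℝ} (h : Nice a) :
    Tendsto (fun l : ℕ => dlt a l) atTop (𝓝 0) := by
  have h0 : (∑' k : ℕ, (0 : ℝ)) = 0 := tsum_zero
  rw [← h0]
  unfold dlt
  refine tendsto_tsum_of_dominated_convergence (bound := fun k => 27 * a k)
    (h.summable.mul_left 27) (fun k => ?_) (Eventually.of_forall fun l k => ?_)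
  · have h1 : Tendsto (fun l : ℕ => 6 * (Rn k : ℝ) / (l : ℝ)) atTop (𝓝 0) :=
      tendsto_const_nhds.div_atTop tendsto_natCast_atTop_atTop
    have h2 : Tendsto (fun l : ℕ => min 1 (6 * (Rn k : ℝ) / (l : ℝ))) atTop (𝓝 (min 1 0)) :=
      tendsto_const_nhds.min h1
    rw [min_eq_right (by norm_num : (0:ℝ) ≤ 1)] at h2
    have h3 := (h2.const_mul 27).const_mul (a k)
    simpa using h3
  · have h1 : min 1 (6 * (Rn k : ℝ) / l) ≤ 1 := min_le_left _ _
    have h2 : (0 : ℝ) ≤ min 1 (6 * (Rn k : ℝ) / l) := by positivity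
    have h3 := h.nonneg k
    rw [Real.norm_eq_abs, abs_of_nonneg (by positivity)]
    nlinarith

end Vale.Agent.P171
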