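import Vale.Agent.P171.Block

open MeasureTheory Set Filter Topology
open scoped ENNReal NNReal BigOperators

namespace Vale.Agent.P171

/-- Interaction with a step of range `l` replaced by the mean-field block interaction. -/
noncomputable def v2 (K : ℝ) (a : ℕ → ℝ) (l : ℕ) (τ : ℝ) (x y : E3) : ℝ :=
  pv (phi K a) x y - τ * same l x y

/-- Block-diagonal part. -/
noncomputable def v3 (K : ℝ) (a : ℕ → ℝ) (l : ℕ) (τ : ℝ) (x y : E3) : ℝ :=
  same l x y * (pv (phi K a) x y - τ)

/-- Attraction between different blocks. -/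
noncomputable def wcross (a : ℕ → ℝ) (l : ℕ) (x y : E3) : ℝ :=
  (1 - same l x y) * pv (attr a) x y

lemma v2_ge {K : ℝ} (hK : 0 ≤ K) {a : ℕ → ℝ} (l : ℕ) (τ : ℝ) (x y : E3) :
    v3 K a l τ x y - wcross a l x y ≤ v2 K a l τ x y := by
  unfold v2 v3 wcross pv phi same
  split_ifs <;> linarith

lemma v3_measurable {K : ℝ} {a : ℕ → ℝ} (h : Nice a) (l : ℕ) (τ : ℝ) :
    Measurable (Function.uncurry (v3 K a l τ)) := by
  have h1 := pv_measurable (h.phi_measurable K)
  exact (same_measurable l).mul (h1.sub_const τ)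

lemma v2_measurable {K : ℝ} {a : ℕ → ℝ} (h : Nice a) (l : ℕ) (τ : ℝ) :
    Measurable (Function.uncurry (v2 K a l τ)) := by
  have h1 := pv_measurable (h.phi_measurable K)
  exact h1.sub ((same_measurable l).const_mul τ)

lemma wcross_measurable {a : ℕ → ℝ} (h : Nice a) (l : ℕ) :
    Measurable (Function.uncurry (wcross a l)) := by
  have h1 := pv_measurable h.attr_measurable
  exact (measurable_const.sub (same_measurable l)).mul h1

lemma wcross_nonneg {a : ℕ → ℝ} (h : Nice a) (l : ℕ) (x y : E3) : 0 ≤ wcross a l x y := by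
  unfold wcross same pv
  have := h.attr_nonneg (dist x y)
  split_ifs <;> linarith

/-- Kernel of the cross-block attraction. -/
noncomputable def Wker (a : ℕ → ℝ) (l : ℕ) (c d : Z3) : ℝ :=
  if blk l c = blk l d then 0 else Vker a c d

lemma Wker_nonneg {a : ℕ → ℝ} (h : Nice a) (l : ℕ) (c d : Z3) : 0 ≤ Wker a l c d := by
  unfold Wker; split_ifs
  · exact le_rfl
  · exact h.Vker_nonneg c d

lemma Wker_symm (a : ℕ → ℝ) (l : ℕ) (c d : Z3) : Wker a l c d = Wker a l d c := by
  unfold Wker; rw [Vker_symm a c d]; simp only [eq_comm]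

lemma wcross_le {a : ℕ → ℝ} (h : Nice a) (l : ℕ) (x y : E3) :
    wcross a l x y ≤ Wker a l (cell x) (cell y) := by
  unfold wcross same Wker pv
  split_ifs
  · simp
  · simpa using h.attr_le_Vker x y

/-- Kernel for the mean-field term. -/
noncomputable def Tker (l : ℕ) (τ : ℝ) (c d : Z3) : ℝ := if blk l c = blk l d then τ else 0

lemma sum_Tker_le {l : ℕ} (hl : 0 < l) {τ : ℝ} (hτ : 0 ≤ τ) (C : Finset Z3) (c : Z3) :
    ∑ d ∈ C, Tker l τ c d ≤ τ * (l : ℝ) ^ 3 := by
  unfold Tker
  rw [← Finset.sum_filter, Finset.sum_const, nsmul_eq_mul, mul_comm]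
  refine mul_le_mul_of_nonneg_left ?_ hτ
  have hl' : (0 : ℤ) < l := by exact_mod_cast hl
  have hsub : C.filter (fun d => blk l c = blk l d) ⊆
      Fintype.piFinset fun i => Finset.Ico ((c i / l) * l) ((c i / l) * l + l) := by
    intro d hd
    rw [Fintype.mem_piFinset]
    intro i
    have h1 : c i / (l : ℤ) = d i / (l : ℤ) := congrFun (Finset.mem_filter.mp hd).2 i
    rw [Finset.mem_Ico, h1]
    have h2 := Int.emod_nonneg (d i) hl'.ne'
    have h3 := Int.emod_lt_of_pos (d i) hl'
    have h4 := Int.mul_ediv_add_emod (d i) l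
    constructor <;> nlinarith
  have h5 := Finset.card_le_card hsub
  rw [Fintype.card_piFinset] at h5
  have h6 : ∀ i : Fin 3, (Finset.Ico ((c i / (l : ℤ)) * l) ((c i / l) * l + l)).card = l := by
    intro i; rw [Int.card_Ico]; simp
  simp_rw [h6] at h5
  simp at h5
  exact_mod_cast h5

lemma hyp_v3w {K : ℝ} {a : ℕ → ℝ} {z : ℝ≥0} (h : Adm K a z) {l : ℕ} (hl : 0 < l) {τ : ℝ}
    (hτ : 0 ≤ τ) (hτl : τ * (l : ℝ) ^ 3 ≤ 27) (n : ℕ) :
    Hyp ((base z).restrict (hbox 0 n)) (fun x y => v3 K a l τ x y - wcross a l x y) cell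
      (boxCells n) (fun c d => Vker a c d + Tker l τ c d) K (27 * (∑' k, a k + 1)) := by
  have hT0 : ∀ c d, 0 ≤ Tker l τ c d := by
    intro c d; unfold Tker; split_ifs
    · exact hτ
    · exact le_rfl
  refine hyp_box ((v3_measurable h.nice l τ).sub (wcross_measurable h.nice l)) ?_ ?_ ?_ ?_ ?_ ?_
    h.K_pos ?_ h.hz
  · intro x y
    unfold v3 wcross
    rw [same_symm l x y, pv_symm _ x y, pv_symm _ x y]
  · intro c d
    exact add_nonneg (h.nice.Vker_nonneg c d) (hT0 c d)
  · intro c d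
    rw [Vker_symm a c d]
    unfold Tker
    simp only [eq_comm]
  · intro c _
    rw [Finset.sum_add_distrib]
    have h1 := h.nice.sum_Vker_le (boxCells n) c
    have h2 := sum_Tker_le hl hτ (boxCells n) c
    linarith
  · have := h.nice.tsum_nonneg
    positivity
  · intro y z
    unfold v3 wcross pv phi same Tker
    have h1 := h.nice.attr_le_Vker y z
    have hK := h.K_pos
    by_cases hc : cell y = cell z
    · rw [if_pos hc, if_pos (by rw [hc]), if_pos (by rw [hc]),
        if_pos (dist_lt_two_of_cell_eq hc)]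
      linarith
    · rw [if_neg hc]
      split_ifs <;> linarith
  · linarith [h.hK]

/-- Partition function of one block with a mean-field attraction. -/
noncomputable def Qf (K : ℝ) (a : ℕ → ℝ) (z : ℝ≥0) (l : ℕ) (τ : ℝ) : ℝ≥0∞ :=
  Xi ((base z).restrict (hbox 0 l)) (pv (fun r => phi K a r - τ))

lemma blk_of_mem {l : ℕ} (hl : 0 < l) {D : Z3} {x : E3}
    (hx : x ∈ hbox (fun i => (l : ℝ) * (D i : ℝ)) l) : blk l (cell x) = D := by
  funext i
  have hl' : (0 : ℤ) < l := by exact_mod_cast hl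
  have h := hx i
  unfold blk cell
  have h1 : (l : ℤ) * D i ≤ ⌊x i⌋ := by
    rw [Int.le_floor]; push_cast; exact h.1
  have h2 : ⌊x i⌋ < (l : ℤ) * D i + l := by
    rw [Int.floor_lt]; push_cast; exact h.2
  refine le_antisymm ?_ ?_
  · have : ⌊x i⌋ / (l : ℤ) < D i + 1 := by
      rw [Int.ediv_lt_iff_lt_mul hl']
      linarith
    omega
  · rw [Int.le_ediv_iff_mul_le hl']
    linarith

lemma Xi_v3_le {K : ℝ} {a : ℕ → ℝ} (h : Nice a) (z : ℝ≥0) {l : ℕ} (hl : 0 < l) (τ : ℝ)
    (m : ℕ) :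
    Xi ((base z).restrict (hbox 0 ((m * l : ℕ) : ℝ))) (v3 K a l τ) ≤ Qf K a z l τ ^ (m ^ 3) := by
  have hl' : (0 : ℝ) < l := by exact_mod_cast hl
  have hlZ : (0 : ℤ) < l := by exact_mod_cast hl
  set A : Z3 → Set E3 := fun D => hbox (fun i => (l : ℝ) * (D i : ℝ)) l with hA
  have hsub : hbox 0 ((m * l : ℕ) : ℝ) ⊆ ⋃ D ∈ boxCells m, A D := by
    intro x hx
    rw [Set.mem_iUnion₂]
    refine ⟨blk l (cell x), ?_, ?_⟩
    · rw [mem_boxCells]
      intro i
      have h1 := mem_boxCells.mp (cell_mem_boxCells hx) i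
      unfold blk
      constructor
      · exact Int.ediv_nonneg h1.1 hlZ.le
      · rw [Int.ediv_lt_iff_lt_mul hlZ]
        have := h1.2
        push_cast at this
        linarith
    · intro i
      have h1 := Int.mul_ediv_add_emod (cell x i) l
      have h2 := Int.emod_nonneg (cell x i) hlZ.ne'
      have h3 := Int.emod_lt_of_pos (cell x i) hlZ
      have h4 : (l : ℤ) * (cell x i / l) ≤ cell x i := by linarith
      have h5 : cell x i + 1 ≤ (l : ℤ) * (cell x i / l) + l := by omega
      have h6 := Int.floor_le (x i)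
      have h7 := Int.lt_floor_add_one (x i)
      have h8 : ((l : ℤ) : ℝ) * ((cell x i / l : ℤ) : ℝ) ≤ (cell x i : ℝ) := by exact_mod_cast h4
      have h9 : (cell x i : ℝ) + 1 ≤ ((l : ℤ) : ℝ) * ((cell x i / l : ℤ) : ℝ) + ((l : ℤ) : ℝ) := by
        exact_mod_cast h5
      have e1 : (cell x i : ℝ) = (⌊x i⌋ : ℝ) := rfl
      rw [e1] at h8 h9
      show (l : ℝ) * ((cell x i / l : ℤ) : ℝ) ≤ x i ∧ x i < (l : ℝ) * ((cell x i / l : ℤ) : ℝ) + l
      simp only [Int.cast_natCast] at h8 h9
      constructor <;> linarith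
  have hdiff : ∀ D D' : Z3, D ≠ D' → ∀ x ∈ A D, ∀ y ∈ A D', same l x y = 0 := by
    intro D D' hD x hx y hy
    unfold same
    rw [blk_of_mem hl hx, blk_of_mem hl hy, if_neg hD]
  refine (Xi_restrict_mono _ hsub).trans ?_
  refine (Xi_biUnion_le (v3_measurable h l τ) (fun x y => ?_) (boxCells m) A
    (fun D => measurableSet_hbox _ _) ?_ ?_).trans (le_of_eq ?_)
  · unfold v3; rw [same_symm l x y, pv_symm _ x y]
  · intro D _ D' _ hD
    rw [Set.disjoint_left]
    intro x hx hx'
    exact hD ((blk_of_mem hl hx).symm.trans (blk_of_mem hl hx'))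
  · intro D _ D' _ hD x hx y hy
    unfold v3
    rw [hdiff D D' hD x hx y hy, zero_mul]
  · have : ∀ D ∈ boxCells m, Xi ((base z).restrict (A D)) (v3 K a l τ) = Qf K a z l τ := by
      intro D _
      have h1 : Xi ((base z).restrict (A D)) (v3 K a l τ) =
          Xi ((base z).restrict (A D)) (pv (fun r => phi K a r - τ)) := by
        refine Xi_congr_on (measurableSet_hbox _ _) fun x hx y hy => ?_
        unfold v3 same
        rw [blk_of_mem hl hx, blk_of_mem hl hy, if_pos rfl, one_mul]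
        rfl
      rw [h1]
      exact Xi_translate ((h.phi_measurable K).sub_const τ) z _ _
    rw [Finset.prod_congr rfl this, Finset.prod_const, card_boxCells]

end Vale.Agent.P171
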