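import Mathlib

open Filter Topology Set

namespace Vale.Agent.P171

/-- Ekeland's variational principle for continuous functions bounded below on a complete
metric space. -/
theorem ekeland {X : Type*} [MetricSpace X] [CompleteSpace X] {F : X → ℝ} (hF : Continuous F)
    {m : ℝ} (hb : ∀ x, m ≤ F x) {ε : ℝ} (hε : 0 < ε) (x0 : X) :
    ∃ x, F x + ε * dist x0 x ≤ F x0 ∧ ∀ y, F x ≤ F y + ε * dist x y := by
  have step : ∀ (x : X) (n : ℕ), ∃ y, F y + ε * dist x y ≤ F x ∧
      ∀ w, F w + ε * dist x w ≤ F x → F y ≤ F w + (1/2) ^ n := by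
    intro x n
    set S : Set X := {y | F y + ε * dist x y ≤ F x} with hS
    have hne : (F '' S).Nonempty := ⟨F x, x, by simp [hS], rfl⟩
    have hbd : BddBelow (F '' S) := ⟨m, by rintro _ ⟨y, _, rfl⟩; exact hb y⟩
    obtain ⟨_, ⟨y, hy, rfl⟩, hy2⟩ := exists_lt_of_csInf_lt hne
      (lt_add_of_pos_right (sInf (F '' S)) (by positivity : (0:ℝ) < (1/2) ^ n))
    refine ⟨y, hy, fun w hw => ?_⟩
    have := csInf_le hbd ⟨w, hw, rfl⟩
    linarith
  choose g hg1 hg2 using step
  let u : ℕ → X := fun n => Nat.rec x0 (fun k x => g x k) n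
  have hu : ∀ n, u (n + 1) = g (u n) n := fun n => rfl
  have hu1 : ∀ n, F (u (n + 1)) + ε * dist (u n) (u (n + 1)) ≤ F (u n) := fun n => by
    rw [hu]; exact hg1 _ _
  have hchain : ∀ n k, F (u (n + k)) + ε * dist (u n) (u (n + k)) ≤ F (u n) := by
    intro n k
    induction k with
    | zero => simp
    | succ k ih =>
      have h1 := hu1 (n + k)
      have h2 := dist_triangle (u n) (u (n + k)) (u (n + k + 1))
      have h3 := mul_le_mul_of_nonneg_left h2 hε.le
      rw [← add_assoc]
      linarith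
  have hanti : Antitone (fun n => F (u n)) := by
    refine antitone_nat_of_succ_le fun n => ?_
    have := hu1 n
    have h2 : 0 ≤ ε * dist (u n) (u (n + 1)) := by positivity
    linarith
  have hconv : Tendsto (fun n => F (u n)) atTop (𝓝 (⨅ n, F (u n))) :=
    tendsto_atTop_ciInf hanti ⟨m, by rintro _ ⟨n, rfl⟩; exact hb _⟩
  have hbd : BddBelow (Set.range fun n => F (u n)) := ⟨m, by rintro _ ⟨n, rfl⟩; exact hb _⟩
  have hcauchy : CauchySeq u := by
    rw [Metric.cauchySeq_iff']
    intro δ hδ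
    have hpos : 0 < ε * δ := by positivity
    obtain ⟨N, hN⟩ := (hconv.eventually (gt_mem_nhds (lt_add_of_pos_right _ hpos))).exists
    refine ⟨N, fun n hn => ?_⟩
    obtain ⟨k, rfl⟩ := Nat.exists_eq_add_of_le hn
    have h1 := hchain N k
    have h2 := ciInf_le hbd (N + k)
    rw [dist_comm]
    by_contra hcon
    push Not at hcon
    have := mul_le_mul_of_nonneg_left hcon hε.le
    linarith
  obtain ⟨x, hx⟩ := cauchySeq_tendsto_of_complete hcauchy
  have hFx : Tendsto (fun n => F (u n)) atTop (𝓝 (F x)) := (hF.tendsto x).comp hx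
  have hxn : ∀ n, F x + ε * dist (u n) x ≤ F (u n) := by
    intro n
    have h1 : Tendsto (fun k => F (u k) + ε * dist (u n) (u k)) atTop
        (𝓝 (F x + ε * dist (u n) x)) :=
      hFx.add ((tendsto_const_nhds.dist hx).const_mul ε)
    refine le_of_tendsto h1 ?_
    filter_upwards [eventually_ge_atTop n] with k hk
    obtain ⟨j, rfl⟩ := Nat.exists_eq_add_of_le hk
    exact hchain n j
  refine ⟨x, hxn 0, fun y => ?_⟩
  by_contra hcon
  push Not at hcon
  have h1 : ∀ n, F (u (n + 1)) ≤ F y + (1/2) ^ n := by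
    intro n
    rw [hu]
    refine hg2 _ _ y ?_
    have h2 := hxn n
    have h3 := dist_triangle (u n) x y
    have h4 := mul_le_mul_of_nonneg_left h3 hε.le
    linarith
  have h5 : Tendsto (fun n : ℕ => F y + (1/2 : ℝ) ^ n) atTop (𝓝 (F y + 0)) :=
    tendsto_const_nhds.add (tendsto_pow_atTop_nhds_zero_of_lt_one (by norm_num) (by norm_num))
  have h6 : F x ≤ F y + 0 :=
    le_of_tendsto_of_tendsto' (hFx.comp (tendsto_add_atTop_nat 1)) h5 h1
  have h7 : 0 ≤ ε * dist x y := by positivity
  linarith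

end Vale.Agent.P171
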