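import Vale.Agent.P171.Final

open MeasureTheory Set Filter Topology
open scoped ENNReal NNReal BigOperators

namespace Vale.Agent.P171

lemma Wadm.abs_phi_le {K : ℝ} {a : ℕ → ℝ} (h : Wadm K a) (r : ℝ) : |phi K a r| ≤ K := by
  have h1 := h.nice.attr_nonneg r
  have h2 := h.nice.attr_le r
  have h3 := h.hK
  have h4 := h.nice.tsum_nonneg
  unfold phi
  rw [abs_le]
  split_ifs
  · constructor <;> linarith
  · constructor <;> linarith

lemma ball_enorm_le (R : ℕ) (hR : 0 < R) :
    ∫⁻ x : E3, ENNReal.ofReal (gfun R ‖x‖) ≤ 64 := by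
  have hRr : (0 : ℝ) < R := by exact_mod_cast hR
  have hsub : {x : E3 | ‖x‖ < R} ⊆ hbox (fun _ => -(R : ℝ)) (2 * R) := by
    intro x hx i
    have h1 : |x i| ≤ ‖x‖ := by
      have := PiLp.norm_apply_le x i
      simpa using this
    have h2 : |x i| < R := lt_of_le_of_lt h1 hx
    rw [abs_lt] at h2
    constructor <;> linarith [h2.1, h2.2]
  calc ∫⁻ x : E3, ENNReal.ofReal (gfun R ‖x‖)
      ≤ ∫⁻ x : E3, (hbox (fun _ => -(R : ℝ)) (2 * R)).indicator
          (fun _ => ENNReal.ofReal (((R : ℝ) ^ 3)⁻¹)) x := by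
        refine lintegral_mono fun x => ?_
        show ENNReal.ofReal (gfun R ‖x‖) ≤ _
        unfold gfun
        split_ifs with hx
        · rw [Set.indicator_of_mem (hsub hx)]
        · simp
    _ = ENNReal.ofReal (((R : ℝ) ^ 3)⁻¹) * ENNReal.ofReal ((2 * R) ^ 3) := by
        rw [lintegral_indicator_const (measurableSet_hbox _ _), volume_hbox _ (by positivity)]
    _ = ENNReal.ofReal 8 := by
        rw [← ENNReal.ofReal_mul (by positivity)]
        congr 1
        field_simp
        norm_num
    _ ≤ 64 := by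
        rw [show (64 : ℝ≥0∞) = ENNReal.ofReal 64 by norm_num]
        exact ENNReal.ofReal_le_ofReal (by norm_num)

lemma gfun_measurable (k : ℕ) : Measurable (gfun (Rn k)) := by
  unfold gfun
  exact Measurable.ite (measurableSet_lt measurable_id measurable_const) measurable_const
    measurable_const

lemma Nice.integrable_attr {a : ℕ → ℝ} (h : Nice a) : Integrable (fun x : E3 => attr a ‖x‖) := by
  refine ⟨(h.attr_measurable.comp measurable_norm).aestronglyMeasurable, ?_⟩
  rw [HasFiniteIntegral]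
  have h1 : ∀ x : E3, ‖attr a ‖x‖‖ₑ = ∑' k, ENNReal.ofReal (a k * gfun (Rn k) ‖x‖) := by
    intro x
    rw [Real.enorm_of_nonneg (h.attr_nonneg _)]
    unfold attr
    rw [ENNReal.ofReal_tsum_of_nonneg
      (fun k => mul_nonneg (h.nonneg k) (gfun_nonneg k _)) (h.summable_gfun _)]
  simp_rw [h1]
  have hmeas : ∀ k, AEMeasurable (fun x : E3 => ENNReal.ofReal (a k * gfun (Rn k) ‖x‖))
      volume := fun k => by
    have h3 : Measurable (fun x : E3 => a k * gfun (Rn k) ‖x‖) :=
      ((gfun_measurable k).comp measurable_norm).const_mul _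
    exact h3.ennreal_ofReal.aemeasurable
  rw [lintegral_tsum hmeas]
  have h2 : ∀ k, ∫⁻ x : E3, ENNReal.ofReal (a k * gfun (Rn k) ‖x‖) ≤
      ENNReal.ofReal (a k) * 64 := by
    intro k
    have h3 : ∀ x : E3, ENNReal.ofReal (a k * gfun (Rn k) ‖x‖) =
        ENNReal.ofReal (a k) * ENNReal.ofReal (gfun (Rn k) ‖x‖) := fun x =>
      ENNReal.ofReal_mul (h.nonneg k)
    simp_rw [h3]
    have hm : Measurable (fun x : E3 => gfun (Rn k) ‖x‖) :=
      (gfun_measurable k).comp measurable_norm
    rw [lintegral_const_mul _ hm.ennreal_ofReal]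
    exact mul_le_mul_right (ball_enorm_le (Rn k) (Rn_pos k)) _
  refine lt_of_le_of_lt (ENNReal.tsum_le_tsum h2) ?_
  rw [ENNReal.tsum_mul_right, ← ENNReal.ofReal_tsum_of_nonneg h.nonneg h.summable]
  exact ENNReal.mul_lt_top ENNReal.ofReal_lt_top (by norm_num)

lemma Nice.integrable_phi {a : ℕ → ℝ} (h : Nice a) (K : ℝ) :
    Integrable (fun x : E3 => phi K a ‖x‖) := by
  unfold phi
  refine Integrable.sub ?_ h.integrable_attr
  have h1 : (fun x : E3 => if ‖x‖ < 2 then K else 0) =
      (Metric.ball (0 : E3) 2).indicator fun _ => K := by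
    funext x
    by_cases hx : ‖x‖ < 2
    · rw [if_pos hx, Set.indicator_of_mem (by simpa using hx)]
    · rw [if_neg hx, Set.indicator_of_notMem (by simpa using hx)]
  rw [h1]
  refine (integrable_indicator_iff measurableSet_ball).mpr ?_
  exact integrableOn_const (by exact measure_ball_lt_top.ne)

/-- Energy as a sum over increasing pairs. -/
lemma energy_eq_lt {E : Type*} {n : ℕ} {v : E → E → ℝ} (hs : ∀ a b, v a b = v b a)
    (x : Fin n → E) :
    energy v x = ∑ i, ∑ j, if i < j then v (x i) (x j) else 0 := by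
  unfold energy
  have h1 : ∀ i j : Fin n, (if i = j then (0 : ℝ) else v (x i) (x j)) =
      (if i < j then v (x i) (x j) else 0) + (if j < i then v (x j) (x i) else 0) := by
    intro i j
    rcases lt_trichotomy i j with h | h | h
    · rw [if_neg h.ne, if_pos h, if_neg h.not_gt, add_zero]
    · subst h; simp
    · rw [if_neg h.ne', if_neg h.not_gt, if_pos h, zero_add, hs]
  simp_rw [h1, Finset.sum_add_distrib]
  have h2 : ∑ i : Fin n, ∑ j : Fin n, (if j < i then v (x j) (x i) else 0) =
      ∑ i : Fin n, ∑ j : Fin n, (if i < j then v (x i) (x j) else 0) := Finset.sum_comm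
  rw [h2]
  ring

end Vale.Agent.P171
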