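import Vale.Agent.P171.StepBound
import Vale.Agent.P171.Ekeland

open MeasureTheory Set Filter Topology
open scoped ENNReal NNReal BigOperators

namespace Vale.Agent.P171

/-- The Banach space of summable sequences. -/
abbrev ell := lp (fun _ : ℕ => ℝ) 1

lemma ell_summable (a : ell) : Summable (fun k => ‖a k‖) := by
  have := (lp.memℓp a).summable (by norm_num)
  simpa using this

lemma ell_norm (a : ell) : ‖a‖ = ∑' k, ‖a k‖ := by
  rw [lp.norm_eq_tsum_rpow (by norm_num)]
  simp

/-- Radius of the domain of the variational problem. -/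
noncomputable def rad : ℝ := 10000001

/-- Height of the repulsive step. -/
noncomputable def KK : ℝ := 108 * (3 * rad + 2) + 8 * Real.exp (rad + 2)

/-- The domain. -/
def dom : Set (ell × ℝ) := {p | (∀ k, 0 ≤ p.1 k) ∧ ‖p.1‖ ≤ rad ∧ |p.2| ≤ rad}

lemma isClosed_dom : IsClosed dom := by
  have h1 : IsClosed {p : ell × ℝ | ∀ k, 0 ≤ p.1 k} := by
    rw [Set.ofPred_forall]
    refine isClosed_iInter fun k => ?_
    have hc : Continuous fun p : ell × ℝ => p.1 k := by
      have h2 : LipschitzWith 1 fun b : ell => b k := by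
        refine LipschitzWith.of_dist_le_mul fun x y => ?_
        rw [dist_eq_norm, dist_eq_norm]
        have := lp.norm_apply_le_norm (by norm_num : (1 : ℝ≥0∞) ≠ 0) (x - y) k
        simpa using this
      exact h2.continuous.comp continuous_fst
    exact isClosed_le continuous_const hc
  exact h1.inter ((isClosed_le continuous_fst.norm continuous_const).inter
    (isClosed_le continuous_snd.abs continuous_const))

lemma adm_mk {a : ℕ → ℝ} (ha : Nice a) {μ : ℝ} (h1 : ∑' k, a k ≤ 3 * rad + 1)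
    (h2 : μ ≤ rad + 2) : Adm KK a (act μ) := by
  have h3 : 0 < rad := by unfold rad; norm_num
  refine ⟨⟨ha, ?_⟩, ?_⟩
  · unfold KK
    have := Real.exp_pos (rad + 2)
    linarith
  · rw [act_coe]
    unfold KK
    have := Real.exp_le_exp.mpr h2
    linarith

lemma nice_of_nonneg {a : ell} (h : ∀ k, 0 ≤ a k) : Nice (fun k => a k) := by
  refine ⟨h, ?_⟩
  have := ell_summable a
  refine this.congr fun k => ?_
  rw [Real.norm_of_nonneg (h k)]

lemma tsum_eq_norm {a : ell} (h : ∀ k, 0 ≤ a k) : ∑' k, a k = ‖a‖ := by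
  rw [ell_norm]
  exact tsum_congr fun k => (Real.norm_of_nonneg (h k)).symm

/-- The functional to be minimised. -/
noncomputable def FF (p : dom) : ℝ :=
  press KK (fun k => p.1.1 k) (act p.1.2) - p.1.2 / 4000 - ‖p.1.1‖ / 512000

lemma adm_dom (p : dom) {μ : ℝ} (hμ : μ ≤ rad + 2) : Adm KK (fun k => p.1.1 k) (act μ) := by
  obtain ⟨⟨a, ν⟩, h1, h2, h3⟩ := p
  refine adm_mk (nice_of_nonneg h1) ?_ hμ
  rw [tsum_eq_norm h1]
  have h4 : 0 < rad := by unfold rad; norm_num
  simp only at h2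
  linarith

lemma dom_snd_le (p : dom) : p.1.2 ≤ rad := (abs_le.mp p.2.2.2).2

lemma FF_nonneg (p : dom) : 0 ≤ FF p := by
  have h0 := adm_dom p (μ := p.1.2) (by linarith [dom_snd_le p])
  have h1 := h0.press_ge
  have h2 := h0.press_nonneg
  rw [tsum_eq_norm p.2.1] at h1
  unfold FF
  linarith

lemma press_act_lip {K μ ν : ℝ} {a : ℕ → ℝ} (h : Adm K a (act μ)) (h' : Adm K a (act ν)) :
    press K a (act μ) ≤ press K a (act ν) + 5 * |μ - ν| := by
  rcases le_total μ ν with hle | hle
  · obtain ⟨s, hs⟩ : ∃ s, ν = μ + s := ⟨ν - μ, by ring⟩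
    subst hs
    have := h.press_act_mono (s := s) (by linarith) h'
    have h3 : 0 ≤ |μ - (μ + s)| := abs_nonneg _
    linarith
  · obtain ⟨s, hs⟩ : ∃ s, μ = ν + s := ⟨μ - ν, by ring⟩
    subst hs
    have := h'.press_act_le (s := s) (by linarith) h
    have h3 : |ν + s - ν| = s := by
      rw [add_sub_cancel_left, abs_of_nonneg (by linarith)]
    rw [h3]
    linarith

lemma FF_lip : LipschitzWith 80 FF := by
  refine LipschitzWith.of_le_add_mul 80 fun p q => ?_
  have hpq : dist p q = max (dist p.1.1 q.1.1) (dist p.1.2 q.1.2) := rfl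
  have hd1 : ‖p.1.1 - q.1.1‖ ≤ dist p q := by
    rw [hpq, ← dist_eq_norm]; exact le_max_left _ _
  have hd2 : |p.1.2 - q.1.2| ≤ dist p q := by
    rw [hpq, ← Real.dist_eq]; exact le_max_right _ _
  have hA1 := adm_dom p (μ := p.1.2) (by linarith [dom_snd_le p])
  have hA2 := adm_dom q (μ := p.1.2) (by linarith [dom_snd_le p])
  have hA3 := adm_dom q (μ := q.1.2) (by linarith [dom_snd_le q])
  have hsum : ∑' k, |p.1.1 k - q.1.1 k| = ‖p.1.1 - q.1.1‖ := by
    rw [ell_norm]
    exact tsum_congr fun k => by simp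
  have hsumm : Summable fun k => |p.1.1 k - q.1.1 k| := by
    have := ell_summable (p.1.1 - q.1.1)
    simpa using this
  have hc : Nice (fun k => max (p.1.1 k - q.1.1 k) 0) := by
    refine ⟨fun k => le_max_right _ _, Summable.of_nonneg_of_le (fun k => le_max_right _ _)
      (fun k => ?_) hsumm⟩
    exact max_le (le_abs_self _) (abs_nonneg _)
  have hac : Adm KK (fun k => q.1.1 k + max (p.1.1 k - q.1.1 k) 0) (act p.1.2) := by
    refine adm_mk (hA2.nice.add hc) ?_ (by linarith [dom_snd_le p])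
    rw [hA2.nice.summable.tsum_add hc.summable, tsum_eq_norm q.2.1]
    have h3 : ∑' k, max (p.1.1 k - q.1.1 k) 0 ≤ ∑' k, |p.1.1 k - q.1.1 k| :=
      Summable.tsum_le_tsum (fun k => max_le (le_abs_self _) (abs_nonneg _)) hc.summable hsumm
    have h4 := norm_sub_le p.1.1 q.1.1
    have h5 := p.2.2.1
    have h6 := q.2.2.1
    rw [hsum] at h3
    linarith
  have h1 := hA2.press_lip_a hA1 hac
  rw [hsum] at h1
  have h2 := press_act_lip hA2 hA3
  have h3 : -(p.1.2 / 4000) ≤ -(q.1.2 / 4000) + |p.1.2 - q.1.2| := by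
    have := neg_abs_le (p.1.2 - q.1.2)
    have h0 := abs_nonneg (p.1.2 - q.1.2)
    linarith
  have h4 : -(‖p.1.1‖ / 512000) ≤ -(‖q.1.1‖ / 512000) + ‖p.1.1 - q.1.1‖ := by
    have := norm_sub_norm_le q.1.1 p.1.1
    rw [norm_sub_rev] at this
    have h0 := norm_nonneg (p.1.1 - q.1.1)
    linarith
  have h5 : ((80 : ℝ≥0) : ℝ) = 80 := by norm_num
  have h6 : 0 ≤ dist p q := dist_nonneg
  rw [h5]
  unfold FF
  linarith

/-- The base point. -/
noncomputable def pt0 : dom := ⟨(0, 0), by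
  have : 0 < rad := by unfold rad; norm_num
  refine ⟨fun k => by simp, ?_, ?_⟩
  · simpa using this.le
  · simpa using this.le⟩

lemma FF_pt0 : FF pt0 ≤ 1 := by
  have h0 := adm_dom pt0 (μ := 0) (by have : 0 < rad := by unfold rad; norm_num
                                      linarith)
  have h1 : (fun k => pt0.1.1 k) = fun _ => (0 : ℝ) := by
    funext k; simp [pt0]
  rw [h1] at h0
  have h2 := press_zero_le h0
  unfold FF
  rw [h1]
  have h3 : pt0.1.2 = 0 := rfl
  have h4 : ‖pt0.1.1‖ = 0 := by simp [pt0]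
  rw [h3, h4]
  rw [act_coe, Real.exp_zero] at h2
  linarith

/-- Approximate minimiser. -/
lemma exists_min : ∃ p : dom, ‖p.1.1‖ ≤ 10000000 ∧ |p.1.2| ≤ 10000000 ∧
    ∀ q : dom, FF p ≤ FF q + (1/10000000) * dist p q := by
  have : CompleteSpace dom := isClosed_dom.completeSpace_coe
  obtain ⟨p, hp1, hp2⟩ := ekeland FF_lip.continuous FF_nonneg (ε := 1/10000000) (by norm_num) pt0
  have h1 := FF_nonneg p
  have h2 := FF_pt0
  have h3 : dist pt0 p ≤ 10000000 := by linarith
  have h4 : dist pt0 p = max (dist pt0.1.1 p.1.1) (dist pt0.1.2 p.1.2) := rfl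
  have h5 : dist pt0.1.1 p.1.1 = ‖p.1.1‖ := by simp [pt0]
  have h6 : dist pt0.1.2 p.1.2 = |p.1.2| := by
    rw [Real.dist_eq]; simp [pt0]
  rw [h4, h5, h6] at h3
  exact ⟨p, (le_max_left _ _).trans h3, (le_max_right _ _).trans h3, hp2⟩

lemma hasDerivAt_eps {f : ℝ → ℝ} {μ ρ : ℝ} (h : HasDerivAt f ρ μ) {η : ℝ} (hη : 0 < η) :
    ∃ δ > 0, ∀ s, |s| ≤ δ → |f (μ + s) - f μ - ρ * s| ≤ η * |s| := by
  have h1 := (hasDerivAt_iff_isLittleO_nhds_zero.mp h).def hη
  rw [Metric.eventually_nhds_iff] at h1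
  obtain ⟨δ, hδ, h2⟩ := h1
  refine ⟨δ / 2, by positivity, fun s hs => ?_⟩
  have h3 := h2 (y := s) (by rw [dist_zero_right, Real.norm_eq_abs]; linarith)
  rw [Real.norm_eq_abs, Real.norm_eq_abs, smul_eq_mul, mul_comm s ρ] at h3
  exact h3

lemma single_mem (k : ℕ) (t : ℝ) : Memℓp (single k t) 1 := by
  refine memℓp_gen ?_
  refine summable_of_ne_finset_zero (s := {k}) fun j hj => ?_
  unfold single
  rw [if_neg (by simpa using hj)]
  simp

/-- The single-scale sequence as an element of `ell`. -/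
noncomputable def sg (k : ℕ) (t : ℝ) : ell := ⟨single k t, single_mem k t⟩

lemma sg_apply (k : ℕ) (t : ℝ) (j : ℕ) : sg k t j = single k t j := rfl

lemma sg_norm (k : ℕ) {t : ℝ} (ht : 0 ≤ t) : ‖sg k t‖ = t := by
  rw [← tsum_eq_norm (fun j => (nice_single k ht).nonneg j)]
  exact tsum_single_eq k t

/-- Existence of a potential whose pressure has a kink. -/
theorem exists_kink : ∃ (a : ℕ → ℝ) (μ : ℝ), Wadm KK a ∧
    ¬ DifferentiableAt ℝ (fun ν => press KK a (act ν)) μ := by
  obtain ⟨p, hp1, hp2, hmin⟩ := exists_min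
  set a : ℕ → ℝ := fun k => p.1.1 k with ha
  set μ : ℝ := p.1.2 with hμ
  have hrad : rad = 10000001 := rfl
  have hμle := abs_le.mp hp2
  have hadm : ∀ ν ≤ rad + 2, Adm KK a (act ν) := fun ν hν => adm_dom p hν
  have hnn : ∀ k, 0 ≤ p.1.1 k := p.2.1
  refine ⟨a, μ, (hadm μ (by linarith)).toWadm, fun hdiff => ?_⟩
  set f : ℝ → ℝ := fun ν => press KK a (act ν) with hf
  set ρ := deriv f μ with hρ
  obtain ⟨δ, hδ, hder⟩ := hasDerivAt_eps hdiff.hasDerivAt (η := 1/10000000) (by norm_num)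
  rw [← hρ] at hder
  -- a small step
  set s0 : ℝ := min δ 1 with hs0
  have hs0pos : 0 < s0 := lt_min hδ one_pos
  have hs01 : s0 ≤ 1 := min_le_right _ _
  have hs0δ : s0 ≤ δ := min_le_left _ _
  have hup := hder s0 (by rw [abs_of_pos hs0pos]; exact hs0δ)
  have hdn := hder (-s0) (by rw [abs_neg, abs_of_pos hs0pos]; exact hs0δ)
  rw [abs_of_pos hs0pos] at hup
  rw [abs_neg, abs_of_pos hs0pos] at hdn
  have hup1 := abs_le.mp hup
  have hdn1 := abs_le.mp hdn
  -- nonnegativity of the slope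
  have hA0 := hadm μ (by linarith)
  have hAs := hadm (μ + s0) (by linarith)
  have hmono : f μ ≤ f (μ + s0) := hA0.press_act_mono hs0pos.le hAs
  have hρ0 : 0 ≤ ρ + 1/10000000 := by
    by_contra hcon
    push Not at hcon
    have : (ρ + 1/10000000) * s0 < 0 := mul_neg_of_neg_of_pos hcon hs0pos
    linarith [hup1.2]
  -- upper bound of the slope
  have hρ1 : ρ ≤ 1/4000 + 2/10000000 := by
    have hmem : ((p.1.1, μ + -s0) : ell × ℝ) ∈ dom := by
      refine ⟨hnn, p.2.2.1, ?_⟩
      show |μ + -s0| ≤ rad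
      rw [abs_le]
      constructor <;> linarith
    have h1 := hmin ⟨(p.1.1, μ + -s0), hmem⟩
    have hd : dist p ⟨(p.1.1, μ + -s0), hmem⟩ = s0 := by
      have : dist p ⟨(p.1.1, μ + -s0), hmem⟩ = max (dist p.1.1 p.1.1) (dist μ (μ + -s0)) := rfl
      rw [this, dist_self, Real.dist_eq]
      have : μ - (μ + -s0) = s0 := by ring
      rw [this, abs_of_pos hs0pos, max_eq_right hs0pos.le]
    rw [hd] at h1
    have h2 : FF p = f μ - μ / 4000 - ‖p.1.1‖ / 512000 := rfl
    have h3 : FF ⟨(p.1.1, μ + -s0), hmem⟩ =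
        f (μ + -s0) - (μ + -s0) / 4000 - ‖p.1.1‖ / 512000 := rfl
    rw [h2, h3] at h1
    by_contra hcon
    push Not at hcon
    have : (1/4000 + 2/10000000) * s0 < ρ * s0 := mul_lt_mul_of_pos_right hcon hs0pos
    linarith [hdn1.2]
  -- constants
  set X : ℝ := 1 + Real.exp (KK / 2) * Real.exp (μ + 1) with hX
  have hE : 0 < Real.exp (KK / 2) * Real.exp (μ + 1) := by positivity
  have hX1 : 1 ≤ X := by linarith
  set t : ℝ := min (1/2) (s0 / (27 * X)) with ht
  have htpos : 0 < t := lt_min (by norm_num) (by positivity)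
  have ht1 : t ≤ 1/2 := min_le_left _ _
  have ht2 : 27 * t * X ≤ s0 := by
    have : t ≤ s0 / (27 * X) := min_le_right _ _
    rw [le_div_iff₀ (by positivity)] at this
    linarith
  have hnice : ∀ k, Nice (fun j => a j + single k t j) := fun k =>
    hA0.nice.add (nice_single k htpos.le)
  have hsum : ∀ k, ∑' j, (a j + single k t j) = ‖p.1.1‖ + t := fun k => by
    rw [hA0.nice.summable.tsum_add (nice_single k htpos.le).summable, tsum_single_eq,
      tsum_eq_norm hnn]
  have hadmk : ∀ k, Adm KK (fun j => a j + single k t j) (act μ) := fun k =>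
    adm_mk (hnice k) (by rw [hsum]; linarith) (by linarith)
  have hlow : ∀ k, f μ + t * (1/512000 - 1/10000000) ≤
      press KK (fun j => a j + single k t j) (act μ) := by
    intro k
    have hnk : ∀ j, 0 ≤ (p.1.1 + sg k t : ell) j := fun j => by
      have := (hnice k).nonneg j
      simpa [sg_apply] using this
    have hnorm : ‖(p.1.1 + sg k t : ell)‖ = ‖p.1.1‖ + t := by
      rw [← tsum_eq_norm hnk, ← hsum k]
      exact tsum_congr fun j => by simp [sg_apply, ha]
    have hmem : ((p.1.1 + sg k t, μ) : ell × ℝ) ∈ dom := by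
      refine ⟨hnk, ?_, p.2.2.2⟩
      show ‖(p.1.1 + sg k t : ell)‖ ≤ rad
      rw [hnorm]
      linarith
    have h1 := hmin ⟨(p.1.1 + sg k t, μ), hmem⟩
    have hd : dist p ⟨(p.1.1 + sg k t, μ), hmem⟩ = t := by
      have : dist p ⟨(p.1.1 + sg k t, μ), hmem⟩ =
        max (dist p.1.1 (p.1.1 + sg k t)) (dist μ μ) := rfl
      rw [this, dist_self, dist_eq_norm]
      have : p.1.1 - (p.1.1 + sg k t) = - sg k t := by abel
      rw [this, norm_neg, sg_norm k htpos.le, max_eq_left htpos.le]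
    rw [hd] at h1
    have h2 : FF p = f μ - μ / 4000 - ‖p.1.1‖ / 512000 := rfl
    have hfun : (fun j => (p.1.1 + sg k t : ell) j) = fun j => a j + single k t j := by
      funext j; simp [sg_apply, ha]
    have h3 : FF ⟨(p.1.1 + sg k t, μ), hmem⟩ =
        press KK (fun j => a j + single k t j) (act μ) - μ / 4000 - (‖p.1.1‖ + t) / 512000 := by
      rw [← hnorm, ← hfun]
      rfl
    rw [h2, h3] at h1
    linarith
  have hfin := step_bound (hadm (μ + 1) (by linarith)) htpos ht1 hs0pos hs01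
    (x2 := ρ + 1/10000000) (x1 := ρ + 2/10000000) (X := X) (by linarith) (by linarith)
    (by linarith) ht2 (by nlinarith) (by
      show f (μ + s0) ≤ f μ + s0 * (ρ + 1/10000000)
      linarith [hup1.2]) hadmk hlow
  have h1 : (ρ + 2/10000000) ^ 2 ≤ (1/4000 + 4/10000000) ^ 2 :=
    pow_le_pow_left₀ (by linarith) (by linarith) 2
  have h2 : t * (1/512000 - 1/10000000) ≤ t * ((27/2) * (ρ + 2/10000000) ^ 2) := by
    have h3 : press KK a (act μ) = f μ := rfl
    rw [h3] at hfin
    linarith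
  have h3 := le_of_mul_le_mul_left h2 htpos
  norm_num at h1 h3
  linarith

end Vale.Agent.P171
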