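import Vale.Agent.P171.Parts

open MeasureTheory Set Filter Topology
open scoped ENNReal NNReal BigOperators

namespace Vale.Agent.P171

/-- Euclidean three-space. -/
abbrev E3 := EuclideanSpace ℝ (Fin 3)

/-- Integer lattice indexing unit cells. -/
abbrev Z3 := Fin 3 → ℤ

/-- The unit cell containing a point. -/
noncomputable def cell (x : E3) : Z3 := fun i => ⌊x i⌋

/-- Half-open cube with corner `p` and side `l`. -/
def hbox (p : Fin 3 → ℝ) (l : ℝ) : Set E3 := {x | ∀ i, p i ≤ x i ∧ x i < p i + l}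

/-- Closed cube `[0, L]^3`. -/
def cbox (L : ℝ) : Set E3 := {x | ∀ i, 0 ≤ x i ∧ x i ≤ L}

/-- Lebesgue measure scaled by the activity. -/
noncomputable def base (z : ℝ≥0) : Measure E3 := z • volume

instance (z : ℝ≥0) : SigmaFinite (base z) := by unfold base; infer_instance

lemma measurable_coord (i : Fin 3) : Measurable (fun x : E3 => x i) :=
  (EuclideanSpace.proj i : E3 →L[ℝ] ℝ).continuous.measurable

lemma measurable_cell : Measurable cell :=
  measurable_pi_iff.2 fun i => Int.measurable_floor.comp (measurable_coord i)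

lemma measurableSet_hbox (p : Fin 3 → ℝ) (l : ℝ) : MeasurableSet (hbox p l) := by
  unfold hbox
  rw [Set.ofPred_forall]
  refine MeasurableSet.iInter fun i => ?_
  exact (measurableSet_le measurable_const (measurable_coord i)).inter
    (measurableSet_lt (measurable_coord i) measurable_const)

lemma hbox_eq_preimage (p : Fin 3 → ℝ) (l : ℝ) :
    hbox p l = (@WithLp.ofLp 2 (Fin 3 → ℝ)) ⁻¹' (Set.pi univ fun i => Set.Ico (p i) (p i + l)) := by
  ext x
  simp [hbox, Set.mem_pi]

lemma cbox_eq_preimage (L : ℝ) :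
    cbox L = (@WithLp.ofLp 2 (Fin 3 → ℝ)) ⁻¹' (Set.pi univ fun _ => Set.Icc 0 L) := by
  ext x
  simp only [cbox, Set.mem_ofPred_eq, Set.mem_preimage, Set.mem_pi, Set.mem_univ, true_implies,
    Set.mem_Icc]

lemma volume_hbox (p : Fin 3 → ℝ) {l : ℝ} (hl : 0 ≤ l) :
    volume (hbox p l) = ENNReal.ofReal (l ^ 3) := by
  rw [hbox_eq_preimage, (PiLp.volume_preserving_ofLp (Fin 3)).measure_preimage
    (MeasurableSet.univ_pi fun i => measurableSet_Ico).nullMeasurableSet, volume_pi_pi]
  simp [Real.volume_Ico, ENNReal.ofReal_pow hl]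

lemma cbox_ae_eq (L : ℝ) : (cbox L : Set E3) =ᵐ[volume] hbox 0 L := by
  rw [cbox_eq_preimage, hbox_eq_preimage]
  refine (PiLp.volume_preserving_ofLp (Fin 3)).quasiMeasurePreserving.preimage_ae_eq ?_
  simp only [Pi.zero_apply, zero_add]
  exact (Measure.ae_eq_set_pi fun i _ => Ico_ae_eq_Icc.symm)

lemma base_apply (z : ℝ≥0) (s : Set E3) : base z s = z * volume s := by
  simp [base]

instance (z : ℝ≥0) (p : Fin 3 → ℝ) (l : ℝ) : IsFiniteMeasure ((base z).restrict (hbox p l)) := by
  constructor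
  rw [Measure.restrict_apply_univ, base_apply]
  refine ENNReal.mul_lt_top (by simp) ?_
  by_cases hl : 0 ≤ l
  · rw [volume_hbox p hl]; exact ENNReal.ofReal_lt_top
  · have : hbox p l = ∅ := by
      ext x
      simp only [hbox, Set.mem_ofPred_eq, Set.mem_empty_iff_false, iff_false, not_forall]
      refine ⟨0, fun h => hl ?_⟩
      linarith [h.1, h.2]
    rw [this]; simp

/-- Cells of the cube of integer side `n`. -/
noncomputable def boxCells (n : ℕ) : Finset Z3 := Fintype.piFinset fun _ => Finset.Ico (0 : ℤ) n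

lemma card_boxCells (n : ℕ) : (boxCells n).card = n ^ 3 := by
  simp [boxCells]

lemma mem_boxCells {n : ℕ} {c : Z3} : c ∈ boxCells n ↔ ∀ i, 0 ≤ c i ∧ c i < n := by
  simp [boxCells]

lemma cell_mem_boxCells {n : ℕ} {x : E3} (hx : x ∈ hbox 0 n) : cell x ∈ boxCells n := by
  rw [mem_boxCells]
  intro i
  have := hx i
  simp only [Pi.zero_apply, zero_add] at this
  refine ⟨Int.floor_nonneg.mpr this.1, ?_⟩
  unfold cell
  rw [Int.floor_lt]
  exact_mod_cast this.2

lemma cell_preimage (c : Z3) : cell ⁻¹' {c} = hbox (fun i => (c i : ℝ)) 1 := by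
  ext x
  simp only [Set.mem_preimage, Set.mem_singleton_iff, hbox, Set.mem_ofPred_eq, cell]
  rw [funext_iff]
  refine forall_congr' fun i => ?_
  show ⌊x i⌋ = c i ↔ _
  rw [Int.floor_eq_iff]

lemma volume_cell (c : Z3) : volume (cell ⁻¹' {c}) = 1 := by
  rw [cell_preimage, volume_hbox _ (by norm_num)]
  simp

lemma abs_coord_le_dist (x y : E3) (i : Fin 3) : |x i - y i| ≤ dist x y := by
  have := EuclideanSpace.norm_eq (x - y)
  rw [dist_eq_norm]
  have h := PiLp.norm_apply_le (x - y) i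
  simpa using h

lemma dist_lt_of_coord {x y : E3} {r : ℝ} (h : ∀ i, |x i - y i| ≤ r) (hr : 0 < r) :
    dist x y < 2 * r := by
  rw [EuclideanSpace.dist_eq]
  have h1 : ∑ i, dist (x i) (y i) ^ 2 ≤ 3 * r ^ 2 := by
    calc ∑ i, dist (x i) (y i) ^ 2 ≤ ∑ _i : Fin 3, r ^ 2 := by
          refine Finset.sum_le_sum fun i _ => ?_
          rw [Real.dist_eq]
          exact pow_le_pow_left₀ (abs_nonneg _) (h i) 2
      _ = 3 * r ^ 2 := by simp
  rw [Real.sqrt_lt' (by positivity)]
  nlinarith [sq_nonneg r, mul_pos hr hr]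

lemma dist_lt_two_of_cell_eq {x y : E3} (h : cell x = cell y) : dist x y < 2 := by
  have := dist_lt_of_coord (x := x) (y := y) (r := 1) (fun i => ?_) one_pos
  · simpa using this
  · have h1 : ⌊x i⌋ = ⌊y i⌋ := congrFun h i
    exact (Int.abs_sub_lt_one_of_floor_eq_floor h1).le

lemma cell_diff_le {x y : E3} {R : ℕ} (h : dist x y < R) (i : Fin 3) :
    |cell x i - cell y i| ≤ R := by
  have h1 : |x i - y i| < R := lt_of_le_of_lt (abs_coord_le_dist x y i) h
  rw [abs_lt] at h1
  unfold cell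
  rw [abs_le]
  have a1 := Int.floor_le (x i)
  have a2 := Int.lt_floor_add_one (x i)
  have b1 := Int.floor_le (y i)
  have b2 := Int.lt_floor_add_one (y i)
  constructor
  · have : (-(R : ℝ)) - 1 < (⌊x i⌋ : ℝ) - ⌊y i⌋ := by linarith [h1.1]
    have : (-(R : ℤ)) - 1 < ⌊x i⌋ - ⌊y i⌋ := by exact_mod_cast this
    linarith
  · have : (⌊x i⌋ : ℝ) - ⌊y i⌋ < (R : ℝ) + 1 := by linarith [h1.2]
    have : ⌊x i⌋ - ⌊y i⌋ < (R : ℤ) + 1 := by exact_mod_cast this
    linarith

end Vale.Agent.P171
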