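import Vale.Agent.P171.Pressure

open MeasureTheory Set Filter Topology
open scoped ENNReal NNReal BigOperators

namespace Vale.Agent.P171

lemma far_boxes {l q : ℕ} {j j' : Fin 3 → Fin q} (hj : j ≠ j') {x y : E3}
    (hx : x ∈ hbox (fun i => ((l : ℝ) + 2) * (j i : ℕ)) l)
    (hy : y ∈ hbox (fun i => ((l : ℝ) + 2) * (j' i : ℕ)) l) : 2 < dist x y := by
  obtain ⟨i, hi⟩ := Function.ne_iff.mp hj
  have hne : (j i : ℕ) ≠ (j' i : ℕ) := fun h => hi (Fin.ext h)
  have hx' := hx i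
  have hy' := hy i
  have hl : (0 : ℝ) ≤ l := Nat.cast_nonneg l
  refine lt_of_lt_of_le ?_ (abs_coord_le_dist x y i)
  rcases lt_or_gt_of_ne hne with h | h
  · have h1 : ((j i : ℕ) : ℝ) + 1 ≤ (j' i : ℕ) := by exact_mod_cast h
    have h2 : ((l : ℝ) + 2) * (((j i : ℕ) : ℝ) + 1) ≤ ((l : ℝ) + 2) * (j' i : ℕ) :=
      mul_le_mul_of_nonneg_left h1 (by positivity)
    rw [abs_sub_comm]
    refine lt_of_lt_of_le ?_ (le_abs_self _)
    nlinarith [hx'.2, hy'.1]
  · have h1 : ((j' i : ℕ) : ℝ) + 1 ≤ (j i : ℕ) := by exact_mod_cast h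
    have h2 : ((l : ℝ) + 2) * (((j' i : ℕ) : ℝ) + 1) ≤ ((l : ℝ) + 2) * (j i : ℕ) :=
      mul_le_mul_of_nonneg_left h1 (by positivity)
    refine lt_of_lt_of_le ?_ (le_abs_self _)
    nlinarith [hy'.2, hx'.1]

lemma phi_nonpos {K : ℝ} {a : ℕ → ℝ} (h : Nice a) {r : ℝ} (hr : 2 ≤ r) : phi K a r ≤ 0 := by
  unfold phi
  rw [if_neg (not_lt.mpr hr)]
  linarith [h.attr_nonneg r]

lemma Wadm.Xb_pow_le {K : ℝ} {a : ℕ → ℝ} {z : ℝ≥0} (h : Wadm K a) (l q : ℕ) {L : ℝ}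
    (hL : (q : ℝ) * (l + 2) ≤ L) : Xb K a z l ^ (q ^ 3) ≤ Xb K a z L := by
  set A : (Fin 3 → Fin q) → Set E3 := fun j => hbox (fun i => ((l : ℝ) + 2) * (j i : ℕ)) l with hA
  have hm := h.nice.phi_measurable K
  have hsub : (⋃ j ∈ (Finset.univ : Finset (Fin 3 → Fin q)), A j) ⊆ hbox 0 L := by
    intro x hx
    simp only [Finset.mem_univ, Set.iUnion_true, Set.mem_iUnion] at hx
    obtain ⟨j, hj⟩ := hx
    intro i
    have h1 := hj i
    simp only [Pi.zero_apply, zero_add]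
    have hl : (0 : ℝ) ≤ l := Nat.cast_nonneg l
    have h2 : ((j i : ℕ) : ℝ) + 1 ≤ q := by exact_mod_cast (j i).isLt
    have h3 : (0 : ℝ) ≤ ((j i : ℕ) : ℝ) := Nat.cast_nonneg _
    constructor
    · have : 0 ≤ ((l : ℝ) + 2) * (j i : ℕ) := by positivity
      linarith [h1.1]
    · nlinarith [h1.2, mul_le_mul_of_nonneg_left h2 (by positivity : (0:ℝ) ≤ (l : ℝ) + 2)]
  calc Xb K a z l ^ (q ^ 3)
      = ∏ j ∈ (Finset.univ : Finset (Fin 3 → Fin q)), Xi ((base z).restrict (A j))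
          (pv (phi K a)) := by
        have : ∀ j ∈ (Finset.univ : Finset (Fin 3 → Fin q)), Xi ((base z).restrict (A j))
            (pv (phi K a)) = Xb K a z l := fun j _ => Xi_translate hm z _ _
        rw [Finset.prod_congr rfl this, Finset.prod_const]
        simp
    _ ≤ Xi ((base z).restrict (⋃ j ∈ (Finset.univ : Finset (Fin 3 → Fin q)), A j))
          (pv (phi K a)) := by
        refine Xi_biUnion_ge (pv_measurable hm) (pv_symm _) _ A (fun j => measurableSet_hbox _ _)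
          ?_ ?_
        · intro j _ j' _ hjj
          rw [Set.disjoint_left]
          intro x hx hx'
          have := far_boxes hjj hx hx'
          rw [dist_self] at this
          linarith
        · intro j _ j' _ hjj x hx y hy
          exact phi_nonpos h.nice (far_boxes hjj hx hy).le
    _ ≤ _ := Xi_restrict_mono _ hsub

lemma Wadm.superadd {K : ℝ} {a : ℕ → ℝ} {z : ℝ≥0} (h : Wadm K a) (l q : ℕ) {L : ℝ}
    (hL : (q : ℝ) * (l + 2) ≤ L) : (q : ℝ) ^ 3 * lX K a z l ≤ lX K a z L := by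
  have h1 := h.Xb_pow_le (z := z) l q hL
  have h2 := ENNReal.toReal_mono (h.Xb_lt_top L).ne h1
  rw [ENNReal.toReal_pow] at h2
  unfold lX
  have h3 : (q : ℝ) ^ 3 * Real.log (Xb K a z l).toReal =
      Real.log ((Xb K a z l).toReal ^ (q ^ 3)) := by
    rw [Real.log_pow]; push_cast; ring
  rw [h3]
  exact Real.log_le_log (by have := h.one_le_toReal (z := z) l; positivity) h2

/-- The pressure (times inverse temperature). -/
noncomputable def press (K : ℝ) (a : ℕ → ℝ) (z : ℝ≥0) : ℝ :=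
  ⨆ n : ℕ, lX K a z n / ((n : ℝ) + 2) ^ 3

lemma Wadm.bddAbove {K : ℝ} {a : ℕ → ℝ} {z : ℝ≥0} (h : Wadm K a) :
    BddAbove (Set.range fun n : ℕ => lX K a z n / ((n : ℝ) + 2) ^ 3) := by
  refine ⟨Real.exp (K / 2) * z, ?_⟩
  rintro _ ⟨n, rfl⟩
  have hn : (0 : ℝ) ≤ n := Nat.cast_nonneg n
  show lX K a z n / ((n : ℝ) + 2) ^ 3 ≤ _
  rw [div_le_iff₀ (by positivity)]
  refine (h.lX_le n).trans ?_
  refine mul_le_mul_of_nonneg_left ?_ (by positivity)
  exact pow_le_pow_left₀ hn (by linarith) 3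

lemma Wadm.lX_le_press {K : ℝ} {a : ℕ → ℝ} {z : ℝ≥0} (h : Wadm K a) (n : ℕ) :
    lX K a z n ≤ ((n : ℝ) + 2) ^ 3 * press K a z := by
  have := le_ciSup (h.bddAbove (z := z)) n
  have hn : (0 : ℝ) ≤ n := Nat.cast_nonneg n
  rw [mul_comm, ← div_le_iff₀ (by positivity)]
  exact this

lemma Wadm.press_nonneg {K : ℝ} {a : ℕ → ℝ} {z : ℝ≥0} (h : Wadm K a) : 0 ≤ press K a z := by
  refine le_trans ?_ (le_ciSup (h.bddAbove (z := z)) 0)
  have := h.lX_nonneg (z := z) ((0 : ℕ) : ℝ)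
  positivity

lemma tendsto_ratio (c : ℝ) : Tendsto (fun L : ℝ => ((L + c) / L) ^ 3) atTop (𝓝 1) := by
  have h1 : Tendsto (fun L : ℝ => 1 + c / L) atTop (𝓝 (1 + 0)) :=
    tendsto_const_nhds.add (tendsto_const_nhds.div_atTop tendsto_id)
  have h2 : Tendsto (fun L : ℝ => (L + c) / L) atTop (𝓝 1) := by
    rw [add_zero] at h1
    refine h1.congr' ?_
    filter_upwards [eventually_gt_atTop 0] with L hL
    field_simp
  simpa using h2.pow 3

/-- The thermodynamic limit exists. -/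
theorem Wadm.tendsto_press {K : ℝ} {a : ℕ → ℝ} {z : ℝ≥0} (h : Wadm K a) :
    Tendsto (fun L : ℝ => lX K a z L / L ^ 3) atTop (𝓝 (press K a z)) := by
  rw [tendsto_order]
  constructor
  · intro b hb
    obtain ⟨n, hn⟩ := exists_lt_of_lt_ciSup hb
    have hn0 : (0 : ℝ) ≤ n := Nat.cast_nonneg n
    have hlim : Tendsto (fun L : ℝ => ((L + (-(n + 2))) / L) ^ 3 *
        (lX K a z n / ((n : ℝ) + 2) ^ 3)) atTop (𝓝 (1 * (lX K a z n / ((n : ℝ) + 2) ^ 3))) :=
      (tendsto_ratio _).mul_const _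
    rw [one_mul] at hlim
    filter_upwards [hlim.eventually_const_lt hn, eventually_ge_atTop ((n : ℝ) + 2)] with L hL1 hL2
    refine lt_of_lt_of_le hL1 ?_
    have hLpos : 0 < L := by linarith
    set q : ℕ := ⌊L / (n + 2)⌋₊ with hq
    have hq1 : (q : ℝ) * (n + 2) ≤ L := by
      have := Nat.floor_le (div_nonneg hLpos.le (by positivity : (0:ℝ) ≤ n + 2))
      rwa [le_div_iff₀ (by positivity)] at this
    have hq2 : L / (n + 2) < q + 1 := Nat.lt_floor_add_one _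
    have hs := h.superadd (z := z) n q hq1
    have h3 : (L + (-(n + 2))) / (n + 2) ≤ q := by
      have : (L + (-((n:ℝ) + 2))) / (n + 2) = L / (n + 2) - 1 := by field_simp; ring
      rw [this]; linarith
    have h4 : 0 ≤ (L + (-((n:ℝ) + 2))) / (n + 2) := div_nonneg (by linarith) (by positivity)
    have h5 : ((L + (-((n:ℝ) + 2))) / (n + 2)) ^ 3 ≤ (q : ℝ) ^ 3 := pow_le_pow_left₀ h4 h3 3
    have h6 := h.lX_nonneg (z := z) (n : ℝ)
    rw [le_div_iff₀ (by positivity)]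
    calc ((L + (-((n:ℝ) + 2))) / L) ^ 3 * (lX K a z n / ((n : ℝ) + 2) ^ 3) * L ^ 3
        = ((L + (-((n:ℝ) + 2))) / (n + 2)) ^ 3 * lX K a z n := by
          field_simp
      _ ≤ (q : ℝ) ^ 3 * lX K a z n := mul_le_mul_of_nonneg_right h5 h6
      _ ≤ lX K a z L := hs
  · intro b hb
    have hlim : Tendsto (fun L : ℝ => ((L + 3) / L) ^ 3 * press K a z) atTop
        (𝓝 (1 * press K a z)) := (tendsto_ratio _).mul_const _
    rw [one_mul] at hlim
    filter_upwards [hlim.eventually_lt_const hb, eventually_gt_atTop 0] with L hL1 hL2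
    refine lt_of_le_of_lt ?_ hL1
    have h1 : lX K a z L ≤ lX K a z (⌈L⌉₊ : ℝ) := h.lX_mono (Nat.le_ceil L)
    have h2 := h.lX_le_press (z := z) ⌈L⌉₊
    have h3 : ((⌈L⌉₊ : ℝ) + 2) ^ 3 ≤ (L + 3) ^ 3 := by
      refine pow_le_pow_left₀ (by positivity) ?_ 3
      have := Nat.ceil_lt_add_one hL2.le
      linarith
    rw [div_le_iff₀ (by positivity)]
    calc lX K a z L ≤ ((⌈L⌉₊ : ℝ) + 2) ^ 3 * press K a z := h1.trans h2
      _ ≤ (L + 3) ^ 3 * press K a z := mul_le_mul_of_nonneg_right h3 h.press_nonneg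
      _ = ((L + 3) / L) ^ 3 * press K a z * L ^ 3 := by field_simp

lemma Adm.lX_le_press {K : ℝ} {a : ℕ → ℝ} {z : ℝ≥0} (h : Adm K a z) (n : ℕ) :
    lX K a z n ≤ ((n : ℝ) + 2) ^ 3 * press K a z := h.toWadm.lX_le_press n

lemma Adm.press_nonneg {K : ℝ} {a : ℕ → ℝ} {z : ℝ≥0} (h : Adm K a z) : 0 ≤ press K a z :=
  h.toWadm.press_nonneg

theorem Adm.tendsto_press {K : ℝ} {a : ℕ → ℝ} {z : ℝ≥0} (h : Adm K a z) :
    Tendsto (fun L : ℝ => lX K a z L / L ^ 3) atTop (𝓝 (press K a z)) :=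
  h.toWadm.tendsto_press

end Vale.Agent.P171
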