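import Vale.Agent.P171.Trial2

open MeasureTheory Set Filter Topology
open scoped ENNReal NNReal BigOperators

namespace Vale.Agent.P171

lemma attr_add {a c : ℕ → ℝ} (ha : Nice a) (hc : Nice c) (r : ℝ) :
    attr (fun k => a k + c k) r = attr a r + attr c r := by
  unfold attr
  rw [← (ha.summable_gfun r).tsum_add (hc.summable_gfun r)]
  refine tsum_congr fun k => ?_
  ring

lemma Nice.add {a c : ℕ → ℝ} (ha : Nice a) (hc : Nice c) : Nice (fun k => a k + c k) where
  nonneg := fun k => add_nonneg (ha.nonneg k) (hc.nonneg k)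
  summable := ha.summable.add hc.summable

lemma phi_add {K : ℝ} {a c : ℕ → ℝ} (ha : Nice a) (hc : Nice c) (r : ℝ) :
    phi K (fun k => a k + c k) r = phi K a r - attr c r := by
  unfold phi; rw [attr_add ha hc]; ring

lemma attr_mono {a b : ℕ → ℝ} (ha : Nice a) (hb : Nice b) (h : ∀ k, a k ≤ b k) (r : ℝ) :
    attr a r ≤ attr b r :=
  Summable.tsum_le_tsum (fun k => mul_le_mul_of_nonneg_right (h k) (gfun_nonneg k r))
    (ha.summable_gfun r) (hb.summable_gfun r)

lemma log_le_of_Xi_le {X Y : ℝ≥0∞} {M : ℝ} (hX : 1 ≤ X) (hY : Y < ∞)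
    (h : X ≤ ENNReal.ofReal (Real.exp M) * Y) : Real.log X.toReal ≤ M + Real.log Y.toReal := by
  have hfin : ENNReal.ofReal (Real.exp M) * Y ≠ ∞ := ENNReal.mul_ne_top ENNReal.ofReal_ne_top hY.ne
  have h1 := ENNReal.toReal_mono hfin h
  have h2 : (1 : ℝ) ≤ X.toReal := by
    have := ENNReal.toReal_mono (ne_top_of_le_ne_top hfin h) hX
    simpa using this
  rw [ENNReal.toReal_mul, ENNReal.toReal_ofReal (Real.exp_pos _).le] at h1
  have hYpos : 0 < Y.toReal := by
    by_contra hcon
    push Not at hcon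
    have : Y.toReal = 0 := le_antisymm hcon ENNReal.toReal_nonneg
    rw [this] at h1
    linarith
  calc Real.log X.toReal ≤ Real.log (Real.exp M * Y.toReal) :=
        Real.log_le_log (by linarith) h1
    _ = M + Real.log Y.toReal := by
        rw [Real.log_mul (Real.exp_pos _).ne' hYpos.ne', Real.log_exp]

/-- Increasing the attraction by `c` raises the log partition function by at most
`(135/2) (∑ c) n^3`. -/
lemma Adm.lX_add_le {K : ℝ} {a c : ℕ → ℝ} {z : ℝ≥0} (ha : Adm K a z) (hc : Nice c)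
    (hac : Adm K (fun k => a k + c k) z) (n : ℕ) :
    lX K (fun k => a k + c k) z n ≤ (135/2) * (∑' k, c k) * (n : ℝ) ^ 3 + lX K a z n := by
  have hfun : (pv (phi K (fun k => a k + c k))) =
      (fun x y => pv (phi K a) x y - pv (attr c) x y) := by
    funext x y
    unfold pv
    exact phi_add ha.nice hc _
  have H := hac.hyp n
  rw [hfun] at H
  have hp := H.perturb (pv_measurable hc.attr_measurable) (fun x y => hc.attr_nonneg _)
    hc.Vker_nonneg (Vker_symm c) (fun y z _ _ => hc.attr_le_Vker y z)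
  have h1 : Xb K (fun k => a k + c k) z n ≤
      ENNReal.ofReal (Real.exp ((135/2) * (∑' k, c k) * (n : ℝ) ^ 3)) * Xb K a z n := by
    unfold Xb
    rw [hfun]
    refine hp.trans (mul_le_mul_left (ENNReal.ofReal_le_ofReal (Real.exp_le_exp.mpr ?_)) _)
    calc (5/2) * ∑ e ∈ boxCells n, ∑ d ∈ boxCells n, Vker c e d
        ≤ (5/2) * ∑ _e ∈ boxCells n, 27 * ∑' k, c k := by
          refine mul_le_mul_of_nonneg_left (Finset.sum_le_sum fun e _ => ?_) (by norm_num)
          exact hc.sum_Vker_le _ e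
      _ = (135/2) * (∑' k, c k) * (n : ℝ) ^ 3 := by
          rw [Finset.sum_const, nsmul_eq_mul, card_boxCells]
          push_cast; ring
  exact log_le_of_Xi_le (one_le_Xb _ _ _ _) (ha.Xb_lt_top _) h1

lemma Adm.tendsto_press_nat {K : ℝ} {a : ℕ → ℝ} {z : ℝ≥0} (h : Adm K a z) :
    Tendsto (fun n : ℕ => lX K a z (n : ℝ) / (n : ℝ) ^ 3) atTop (𝓝 (press K a z)) :=
  h.tendsto_press.comp tendsto_natCast_atTop_atTop

lemma Adm.press_add_le {K : ℝ} {a c : ℕ → ℝ} {z : ℝ≥0} (ha : Adm K a z) (hc : Nice c)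
    (hac : Adm K (fun k => a k + c k) z) :
    press K (fun k => a k + c k) z ≤ (135/2) * (∑' k, c k) + press K a z := by
  refine le_of_tendsto_of_tendsto hac.tendsto_press_nat
    (tendsto_const_nhds.add ha.tendsto_press_nat) ?_
  filter_upwards [eventually_gt_atTop 0] with n hn
  have hn' : (0 : ℝ) < n := by exact_mod_cast hn
  have := ha.lX_add_le hc hac n
  rw [div_le_iff₀ (by positivity), add_mul, div_mul_cancel₀ _ (by positivity)]
  exact this

lemma Adm.press_mono {K : ℝ} {a b : ℕ → ℝ} {z : ℝ≥0} (ha : Adm K a z) (hb : Adm K b z)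
    (h : ∀ k, a k ≤ b k) : press K a z ≤ press K b z := by
  refine le_of_tendsto_of_tendsto' ha.tendsto_press_nat hb.tendsto_press_nat fun n => ?_
  refine div_le_div_of_nonneg_right ?_ (by positivity)
  unfold lX
  refine Real.log_le_log (by linarith [ha.one_le_toReal n])
    (ENNReal.toReal_mono (hb.Xb_lt_top n).ne ?_)
  unfold Xb
  refine Xi_le_of_le_on (measurableSet_hbox _ _) fun x _ y _ => ?_
  unfold pv phi
  have := attr_mono ha.nice hb.nice h (dist x y)
  linarith

/-- Lipschitz dependence on the weights. -/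
lemma Adm.press_lip_a {K : ℝ} {a b : ℕ → ℝ} {z : ℝ≥0} (ha : Adm K a z) (hb : Adm K b z)
    (hac : Adm K (fun k => a k + max (b k - a k) 0) z) :
    press K b z ≤ press K a z + (135/2) * (∑' k, |b k - a k|) := by
  have hsum : Summable (fun k => |b k - a k|) := (hb.nice.summable.sub ha.nice.summable).abs
  have hc : Nice (fun k => max (b k - a k) 0) := by
    refine ⟨fun k => le_max_right _ _, Summable.of_nonneg_of_le (fun k => le_max_right _ _)
      (fun k => ?_) hsum⟩
    exact max_le (le_abs_self _) (abs_nonneg _)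
  have h1 := ha.press_add_le hc hac
  have h2 : press K b z ≤ press K (fun k => a k + max (b k - a k) 0) z := by
    refine hb.press_mono hac fun k => ?_
    have := le_max_left (b k - a k) 0
    linarith
  have h3 : ∑' k, max (b k - a k) 0 ≤ ∑' k, |b k - a k| :=
    Summable.tsum_le_tsum (fun k => max_le (le_abs_self _) (abs_nonneg _)) hc.summable hsum
  linarith

lemma base_act_add (μ s : ℝ) (p : Fin 3 → ℝ) (l : ℝ) :
    (base (act (μ + s))).restrict (hbox p l) =
      ENNReal.ofReal (Real.exp s) • (base (act μ)).restrict (hbox p l) := by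
  rw [← Measure.restrict_smul]
  congr 1
  ext t _
  rw [Measure.smul_apply, smul_eq_mul, base_apply, base_apply, act_ennreal, act_ennreal,
    ← mul_assoc, ← ENNReal.ofReal_mul (Real.exp_pos _).le, ← Real.exp_add, add_comm]

lemma Adm.lX_act_le {K μ s : ℝ} {a : ℕ → ℝ} (hs : 0 ≤ s) (h : Adm K a (act μ))
    (h' : Adm K a (act (μ + s))) (n : ℕ) :
    lX K a (act (μ + s)) n ≤ 5 * s * (n : ℝ) ^ 3 + lX K a (act μ) n := by
  have H := h'.hyp n
  rw [base_act_add] at H
  have hp := H.number hs
  have h1 : Xb K a (act (μ + s)) n ≤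
      ENNReal.ofReal (Real.exp (5 * s * (n : ℝ) ^ 3)) * Xb K a (act μ) n := by
    unfold Xb
    rw [base_act_add]
    refine hp.trans (le_of_eq ?_)
    rw [card_boxCells]
    push_cast
    rfl
  exact log_le_of_Xi_le (one_le_Xb _ _ _ _) (h.Xb_lt_top _) h1

lemma Adm.press_act_le {K μ s : ℝ} {a : ℕ → ℝ} (hs : 0 ≤ s) (h : Adm K a (act μ))
    (h' : Adm K a (act (μ + s))) :
    press K a (act (μ + s)) ≤ 5 * s + press K a (act μ) := by
  refine le_of_tendsto_of_tendsto h'.tendsto_press_nat
    (tendsto_const_nhds.add h.tendsto_press_nat) ?_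
  filter_upwards [eventually_gt_atTop 0] with n hn
  have hn' : (0 : ℝ) < n := by exact_mod_cast hn
  have := h.lX_act_le hs h' n
  rw [div_le_iff₀ (by positivity), add_mul, div_mul_cancel₀ _ (by positivity)]
  exact this

lemma Xi_mono_measure_smul {E : Type*} [MeasurableSpace E] {ν : Measure E} [IsFiniteMeasure ν]
    (v : E → E → ℝ) {c : ℝ≥0∞} (hc : 1 ≤ c) (hc' : c ≠ ∞) : Xi ν v ≤ Xi (c • ν) v := by
  unfold Xi gInt
  refine ENNReal.tsum_le_tsum fun n => mul_le_mul_right ?_ _
  rw [wInt_smul n ν c hc' v]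
  exact le_mul_of_one_le_left (zero_le) (one_le_pow₀ hc)

lemma Adm.press_act_mono {K μ s : ℝ} {a : ℕ → ℝ} (hs : 0 ≤ s) (h : Adm K a (act μ))
    (h' : Adm K a (act (μ + s))) :
    press K a (act μ) ≤ press K a (act (μ + s)) := by
  refine le_of_tendsto_of_tendsto' h.tendsto_press_nat h'.tendsto_press_nat fun n => ?_
  refine div_le_div_of_nonneg_right ?_ (by positivity)
  unfold lX
  refine Real.log_le_log (by linarith [h.one_le_toReal n])
    (ENNReal.toReal_mono (h'.Xb_lt_top n).ne ?_)
  unfold Xb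
  rw [base_act_add]
  refine Xi_mono_measure_smul _ ?_ ENNReal.ofReal_ne_top
  rw [← ENNReal.ofReal_one]
  exact ENNReal.ofReal_le_ofReal (Real.one_le_exp hs)

end Vale.Agent.P171
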