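import Vale.Agent.P171.Cross

open MeasureTheory Set Filter Topology
open scoped ENNReal NNReal BigOperators

namespace Vale.Agent.P171

/-- Weight `t` on the single scale `k`. -/
noncomputable def single (k : ℕ) (t : ℝ) : ℕ → ℝ := fun j => if j = k then t else 0

lemma nice_single (k : ℕ) {t : ℝ} (ht : 0 ≤ t) : Nice (single k t) where
  nonneg := fun j => by unfold single; split_ifs; exacts [ht, le_rfl]
  summable := by
    refine summable_of_ne_finset_zero (s := {k}) fun j hj => ?_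
    unfold single
    rw [if_neg (by simpa using hj)]

lemma tsum_single_eq (k : ℕ) (t : ℝ) : ∑' j, single k t j = t := by
  unfold single
  rw [tsum_ite_eq]

lemma attr_single (k : ℕ) (t r : ℝ) : attr (single k t) r = t * gfun (Rn k) r := by
  unfold attr
  rw [tsum_eq_single k]
  · simp [single]
  · intro j hj
    simp [single, hj]

lemma energy_const_mul {E ι : Type*} [Fintype ι] [DecidableEq ι] (c : ℝ) (v : E → E → ℝ)
    (x : ι → E) : energy (fun a b => c * v a b) x = c * energy v x := by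
  unfold energy
  have h1 : ∀ i, (∑ j, if i = j then (0 : ℝ) else c * v (x i) (x j)) =
      c * ∑ j, if i = j then (0 : ℝ) else v (x i) (x j) := by
    intro i
    rw [Finset.mul_sum]
    refine Finset.sum_congr rfl fun j _ => ?_
    split_ifs <;> simp
  simp_rw [h1]
  rw [← Finset.mul_sum]
  ring

lemma act_mono {μ μ' : ℝ} (h : μ ≤ μ') : (act μ : ℝ) ≤ act μ' := by
  rw [act_coe, act_coe]; exact Real.exp_le_exp.mpr h

lemma Adm.of_le {K μ μ' : ℝ} {a : ℕ → ℝ} (h : Adm K a (act μ')) (hμ : μ ≤ μ') :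
    Adm K a (act μ) := ⟨h.toWadm, by linarith [h.hz, act_mono hμ]⟩

lemma bolt_step_le {K : ℝ} {a : ℕ → ℝ} (ha : Nice a) (k : ℕ) {t : ℝ} (ht : 0 ≤ t) {n : ℕ}
    (x : Fin n → E3) :
    bolt (pv (phi K (fun j => a j + single k t j))) x ≤
      ENNReal.ofReal (Real.exp (27 * t / (Rn k : ℝ) ^ 3 / 2)) ^ n *
        bolt (v2 K a (Rn k) (27 * t / (Rn k : ℝ) ^ 3)) x := by
  unfold bolt
  rw [← ENNReal.ofReal_pow (Real.exp_pos _).le, ← Real.exp_nat_mul,
    ← ENNReal.ofReal_mul (Real.exp_pos _).le, ← Real.exp_add]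
  refine ENNReal.ofReal_le_ofReal (Real.exp_le_exp.mpr ?_)
  have h1 : energy (pv (phi K (fun j => a j + single k t j))) x =
      energy (pv (phi K a)) x - t * energy (pv (gfun (Rn k))) x := by
    rw [← energy_const_mul, ← energy_sub]
    congr 1
    funext y z
    unfold pv
    rw [phi_add ha (nice_single k ht), attr_single]
  have h2 : energy (v2 K a (Rn k) (27 * t / (Rn k : ℝ) ^ 3)) x =
      energy (pv (phi K a)) x - (27 * t / (Rn k : ℝ) ^ 3) * energy (same (Rn k)) x := by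
    rw [← energy_const_mul, ← energy_sub]
    rfl
  rw [h1, h2]
  have h3 := mul_le_mul_of_nonneg_left (energy_step_le (Rn_pos k) x) ht
  have h4 : t * (27 * ((Rn k : ℝ) ^ 3)⁻¹ * (energy (same (Rn k)) x + n / 2)) =
      (27 * t / (Rn k : ℝ) ^ 3) * energy (same (Rn k)) x +
        n * (27 * t / (Rn k : ℝ) ^ 3 / 2) := by
    ring
  linarith

lemma Xi_step_le {K μ : ℝ} {a : ℕ → ℝ} (ha : Nice a) (k : ℕ) {t : ℝ} (ht : 0 ≤ t) (L : ℝ) :
    Xb K (fun j => a j + single k t j) (act μ) L ≤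
      Xi ((base (act (μ + 27 * t / (Rn k : ℝ) ^ 3 / 2))).restrict (hbox 0 L))
        (v2 K a (Rn k) (27 * t / (Rn k : ℝ) ^ 3)) := by
  unfold Xb
  rw [base_act_add, Xi_eq, Xi_eq]
  refine ENNReal.tsum_le_tsum fun n => mul_le_mul_right ?_ _
  have h1 : bInt (ENNReal.ofReal (Real.exp (27 * t / (Rn k : ℝ) ^ 3 / 2)) •
      (base (act μ)).restrict (hbox 0 L)) (v2 K a (Rn k) (27 * t / (Rn k : ℝ) ^ 3)) n =
      ENNReal.ofReal (Real.exp (27 * t / (Rn k : ℝ) ^ 3 / 2)) ^ n *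
        bInt ((base (act μ)).restrict (hbox 0 L)) (v2 K a (Rn k) (27 * t / (Rn k : ℝ) ^ 3)) n := by
    have := wInt_smul n ((base (act μ)).restrict (hbox 0 L))
      (ENNReal.ofReal (Real.exp (27 * t / (Rn k : ℝ) ^ 3 / 2))) ENNReal.ofReal_ne_top
      (v2 K a (Rn k) (27 * t / (Rn k : ℝ) ^ 3)) (fun _ => 1)
    simpa [wInt, bInt] using this
  rw [h1]
  unfold bInt
  rw [← lintegral_const_mul _ (bolt_measurable (v2_measurable ha _ _))]
  exact lintegral_mono fun x => bolt_step_le ha k ht x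

lemma tau_bounds (k : ℕ) {t : ℝ} (ht0 : 0 ≤ t) (ht : t ≤ 1) :
    0 ≤ 27 * t / (Rn k : ℝ) ^ 3 ∧ 27 * t / (Rn k : ℝ) ^ 3 * (Rn k : ℝ) ^ 3 ≤ 27 ∧
      27 * t / (Rn k : ℝ) ^ 3 / 2 ≤ 1 := by
  have h8 : (8 : ℝ) ≤ Rn k := by
    unfold Rn; push_cast
    have : (0 : ℝ) ≤ k := Nat.cast_nonneg k
    linarith
  have h9 : (512 : ℝ) ≤ (Rn k : ℝ) ^ 3 := by
    calc (512 : ℝ) = 8 ^ 3 := by norm_num
      _ ≤ _ := pow_le_pow_left₀ (by norm_num) h8 3
  have hpos : (0 : ℝ) < (Rn k : ℝ) ^ 3 := by linarith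
  refine ⟨by positivity, ?_, ?_⟩
  · rw [div_mul_cancel₀ _ hpos.ne']; linarith
  · rw [div_div, div_le_one (by positivity)]
    nlinarith

/-- Decoupling of the blocks. -/
theorem Xb_step_le {K μ : ℝ} {a : ℕ → ℝ} (h : Adm K a (act (μ + 1))) (k : ℕ) {t : ℝ}
    (ht0 : 0 ≤ t) (ht : t ≤ 1) (m : ℕ) :
    Xb K (fun j => a j + single k t j) (act μ) ((m * Rn k : ℕ) : ℝ) ≤
      ENNReal.ofReal (Real.exp ((5/2) * (((m * Rn k : ℕ) : ℝ) ^ 3 * dlt a (Rn k)))) *
        Qf K a (act (μ + 27 * t / (Rn k : ℝ) ^ 3 / 2)) (Rn k) (27 * t / (Rn k : ℝ) ^ 3) ^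
          (m ^ 3) := by
  obtain ⟨hτ0, hτ1, hτ2⟩ := tau_bounds k ht0 ht
  set τ := 27 * t / (Rn k : ℝ) ^ 3 with hτ
  have hz : Adm K a (act (μ + τ / 2)) := h.of_le (by linarith)
  refine (Xi_step_le h.nice k ht0 _).trans ?_
  rw [← hτ]
  refine (Xi_le_of_le_on (measurableSet_hbox _ _)
    (fun x _ y _ => v2_ge h.K_pos.le (Rn k) τ x y)).trans ?_
  have H := hyp_v3w hz (Rn_pos k) hτ0 hτ1 (m * Rn k)
  have hp := H.perturb (wcross_measurable h.nice (Rn k)) (wcross_nonneg h.nice (Rn k))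
    (Wker_nonneg h.nice (Rn k)) (Wker_symm a (Rn k))
    (fun y z _ _ => wcross_le h.nice (Rn k) y z)
  refine hp.trans (mul_le_mul' (ENNReal.ofReal_le_ofReal (Real.exp_le_exp.mpr ?_)) ?_)
  · exact mul_le_mul_of_nonneg_left (h.nice.sum_Wker_le (Rn_pos k) m) (by norm_num)
  · exact Xi_v3_le h.nice _ (Rn_pos k) τ m

lemma hyp_Qf {K μ : ℝ} {a : ℕ → ℝ} (h : Adm K a (act μ)) {l : ℕ} {τ : ℝ} (hτ : 0 ≤ τ)
    (hτl : τ * (l : ℝ) ^ 3 ≤ 27) :
    Hyp ((base (act μ)).restrict (hbox 0 l)) (pv (fun r => phi K a r - τ)) cell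
      (boxCells l) (fun c d => Vker a c d + τ) K (27 * (∑' k, a k + 1)) := by
  refine hyp_box (pv_measurable ((h.nice.phi_measurable K).sub_const τ)) (pv_symm _) ?_ ?_ ?_ ?_ ?_
    h.K_pos ?_ h.hz
  · intro c d
    exact add_nonneg (h.nice.Vker_nonneg c d) hτ
  · intro c d
    rw [Vker_symm a c d]
  · intro c _
    rw [Finset.sum_add_distrib, Finset.sum_const, nsmul_eq_mul, card_boxCells]
    have h1 := h.nice.sum_Vker_le (boxCells l) c
    push_cast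
    nlinarith
  · have := h.nice.tsum_nonneg
    positivity
  · intro y z
    have := pv_phi_lower h.K_pos.le h.nice y z
    unfold pv at this ⊢
    linarith
  · linarith [h.hK]

lemma Qf_lt_top {K μ : ℝ} {a : ℕ → ℝ} (h : Adm K a (act μ)) {l : ℕ} {τ : ℝ} (hτ : 0 ≤ τ)
    (hτl : τ * (l : ℝ) ^ 3 ≤ 27) : Qf K a (act μ) l τ < ∞ := (hyp_Qf h hτ hτl).Xi_lt_top

lemma one_le_Qf (K : ℝ) (a : ℕ → ℝ) (z : ℝ≥0) (l : ℕ) (τ : ℝ) : 1 ≤ Qf K a z l τ :=
  Xi_ge_one _ _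

/-- Pressure bound by a single block. -/
theorem press_step_le {K μ : ℝ} {a : ℕ → ℝ} (h : Adm K a (act (μ + 1))) (k : ℕ) {t : ℝ}
    (ht0 : 0 ≤ t) (ht : t ≤ 1) (hat : Adm K (fun j => a j + single k t j) (act μ)) :
    press K (fun j => a j + single k t j) (act μ) ≤ (5/2) * dlt a (Rn k) +
      Real.log (Qf K a (act (μ + 27 * t / (Rn k : ℝ) ^ 3 / 2)) (Rn k)
        (27 * t / (Rn k : ℝ) ^ 3)).toReal / (Rn k : ℝ) ^ 3 := by
  obtain ⟨hτ0, hτ1, hτ2⟩ := tau_bounds k ht0 ht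
  set τ := 27 * t / (Rn k : ℝ) ^ 3 with hτ
  have hz : Adm K a (act (μ + τ / 2)) := h.of_le (by linarith)
  set Q := Qf K a (act (μ + τ / 2)) (Rn k) τ with hQ
  have hQfin : Q < ∞ := Qf_lt_top hz hτ0 hτ1
  have hR : (0 : ℝ) < Rn k := by exact_mod_cast Rn_pos k
  have hlim : Tendsto (fun m : ℕ => lX K (fun j => a j + single k t j) (act μ)
      ((m * Rn k : ℕ) : ℝ) / ((m * Rn k : ℕ) : ℝ) ^ 3) atTop
      (𝓝 (press K (fun j => a j + single k t j) (act μ))) := by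
    refine hat.tendsto_press_nat.comp ?_
    exact tendsto_id.atTop_mul_const' (Rn_pos k)
  refine le_of_tendsto hlim ?_
  filter_upwards [eventually_gt_atTop 0] with m hm
  have hm' : (0 : ℝ) < m := by exact_mod_cast hm
  have h1 := Xb_step_le h k ht0 ht m
  rw [← hτ, ← hQ] at h1
  have h2 := log_le_of_Xi_le (one_le_Xb _ _ _ _) (ENNReal.pow_lt_top hQfin) h1
  rw [ENNReal.toReal_pow, Real.log_pow] at h2
  have hpos : (0 : ℝ) < ((m * Rn k : ℕ) : ℝ) ^ 3 := by push_cast; positivity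
  rw [div_le_iff₀ hpos]
  refine (show lX K (fun j => a j + single k t j) (act μ) ((m * Rn k : ℕ) : ℝ) ≤ _ from h2).trans
    (le_of_eq ?_)
  rw [add_mul]
  congr 1
  · ring
  · push_cast
    field_simp

end Vale.Agent.P171
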