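import Vale.Agent.P171.Count

open MeasureTheory Set Filter Topology
open scoped ENNReal BigOperators

namespace Vale.Agent.P171

set_option linter.unusedSectionVars false

section moment

variable {E I : Type*} [MeasurableSpace E] [DecidableEq I] [Countable I] [MeasurableSpace I]
  [MeasurableSingletonClass I]

/-- Standing hypotheses for the local moment bound. -/
structure Hyp (ν : Measure E) (v : E → E → ℝ) (cell : E → I) (C : Finset I) (V : I → I → ℝ)
    (K J : ℝ) : Prop where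
  hv : Measurable (Function.uncurry v)
  hs : ∀ a b, v a b = v b a
  hcell : Measurable cell
  hC : ∀ᵐ y ∂ν, cell y ∈ C
  hV0 : ∀ c d, 0 ≤ V c d
  hVs : ∀ c d, V c d = V d c
  hJ : ∀ c ∈ C, ∑ d ∈ C, V c d ≤ J
  hJ0 : 0 ≤ J
  hlow : ∀ y z, cell y ∈ C → cell z ∈ C →
    (if cell y = cell z then K else 0) - V (cell y) (cell z) ≤ v y z
  hK : 0 < K
  hKJ : 4 * J ≤ K
  hM : ∀ c ∈ C, ν (cell ⁻¹' {c}) ≤ ENNReal.ofReal (K / 8)

lemma tsum_exp_bound (r : ℝ) (hr : 0 ≤ r) :
    ∑' n : ℕ, ((n.factorial : ℕ) : ℝ≥0∞)⁻¹ * (ENNReal.ofReal r) ^ n =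
      ENNReal.ofReal (Real.exp r) := by
  have h1 : ∀ n : ℕ, ((n.factorial : ℕ) : ℝ≥0∞)⁻¹ * (ENNReal.ofReal r) ^ n =
      ENNReal.ofReal (r ^ n / (n.factorial : ℝ)) := by
    intro n
    rw [div_eq_mul_inv, mul_comm, ENNReal.ofReal_mul (by positivity), ENNReal.ofReal_pow hr,
      ENNReal.ofReal_inv_of_pos (by positivity), ENNReal.ofReal_natCast]
  simp_rw [h1]
  rw [← ENNReal.ofReal_tsum_of_nonneg (fun n => by positivity) (Real.summable_pow_div_factorial r)]
  congr 1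
  rw [Real.exp_eq_exp_ℝ, NormedSpace.exp_eq_tsum_div]

lemma ae_cells {ν : Measure E} [SigmaFinite ν] {cell : E → I} {C : Finset I}
    (hC : ∀ᵐ y ∂ν, cell y ∈ C) (n : ℕ) :
    ∀ᵐ x ∂(Measure.pi fun _ : Fin n => ν), ∀ i, cell (x i) ∈ C := by
  rw [ae_all_iff]
  intro i
  exact (Measure.quasiMeasurePreserving_eval (fun _ : Fin n => ν) i).ae hC

lemma wInt_mono_ae {ν : Measure E} [SigmaFinite ν] {v : E → E → ℝ} {n : ℕ}
    {F G : (Fin n → E) → ℝ≥0∞} (h : ∀ᵐ x ∂(Measure.pi fun _ : Fin n => ν), F x ≤ G x) :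
    wInt ν v n F ≤ wInt ν v n G := by
  unfold wInt
  refine lintegral_mono_ae ?_
  filter_upwards [h] with x hx
  exact mul_le_mul_left hx _

lemma gInt_mono_ae {ν : Measure E} [SigmaFinite ν] {v : E → E → ℝ}
    {F G : (n : ℕ) → (Fin n → E) → ℝ≥0∞}
    (h : ∀ n, ∀ᵐ x ∂(Measure.pi fun _ : Fin n => ν), F n x ≤ G n x) :
    gInt ν v F ≤ gInt ν v G :=
  ENNReal.tsum_le_tsum fun n => mul_le_mul_right (wInt_mono_ae (h n)) _

lemma gInt_const_mul {ν : Measure E} {v : E → E → ℝ} (hv : Measurable (Function.uncurry v))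
    {F : (n : ℕ) → (Fin n → E) → ℝ≥0∞} (hF : ∀ n, Measurable (F n)) (a : ℝ≥0∞) :
    gInt ν v (fun n x => a * F n x) = a * gInt ν v F := by
  unfold gInt wInt
  rw [← ENNReal.tsum_mul_left]
  refine tsum_congr fun n => ?_
  simp_rw [mul_assoc]
  have hm : Measurable (fun x => F n x * bolt v x) := (hF n).mul (bolt_measurable hv)
  rw [lintegral_const_mul _ hm]
  ring

lemma gInt_add {ν : Measure E} {v : E → E → ℝ} (hv : Measurable (Function.uncurry v))
    {F G : (n : ℕ) → (Fin n → E) → ℝ≥0∞} (hF : ∀ n, Measurable (F n)) :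
    gInt ν v (fun n x => F n x + G n x) = gInt ν v F + gInt ν v G := by
  unfold gInt wInt
  rw [← ENNReal.tsum_add]
  refine tsum_congr fun n => ?_
  simp_rw [add_mul]
  have hm : Measurable (fun x => F n x * bolt v x) := (hF n).mul (bolt_measurable hv)
  rw [lintegral_add_left hm]
  ring

lemma gInt_finset_sum {ν : Measure E} {v : E → E → ℝ} (hv : Measurable (Function.uncurry v))
    {α : Type*} (s : Finset α)
    {F : α → (n : ℕ) → (Fin n → E) → ℝ≥0∞} (hF : ∀ a n, Measurable (F a n)) :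
    gInt ν v (fun n x => ∑ a ∈ s, F a n x) = ∑ a ∈ s, gInt ν v (F a) := by
  classical
  induction s using Finset.induction_on with
  | empty => simp [gInt, wInt]
  | insert a s ha ih =>
    simp_rw [Finset.sum_insert ha]
    rw [gInt_add hv (hF a), ih]

lemma cnt_measurable {cell : E → I} (hcell : Measurable cell) (c : I) (n : ℕ) :
    Measurable (fun x : Fin n → E => (cnt cell c x : ℝ)) := by
  simp_rw [cnt_cast]
  refine Finset.measurable_sum _ fun i _ => ?_
  refine Measurable.ite ?_ measurable_const measurable_const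
  exact (hcell.comp (measurable_pi_apply i)) (measurableSet_singleton c)

/-- The interaction field of a configuration at cell `c`. -/
noncomputable def Phi (cell : E → I) (V : I → I → ℝ) (c : I) {n : ℕ} (x : Fin n → E) : ℝ :=
  ∑ j, V c (cell (x j))

lemma Phi_measurable {cell : E → I} (hcell : Measurable cell) (V : I → I → ℝ) (c : I) (n : ℕ) :
    Measurable (fun x : Fin n → E => Phi cell V c x) := by
  unfold Phi
  refine Finset.measurable_sum _ fun j _ => ?_
  exact (measurable_of_countable (V c)).comp (hcell.comp (measurable_pi_apply j))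

variable {ν : Measure E} {v : E → E → ℝ} {cell : E → I} {C : Finset I} {V : I → I → ℝ}
  {K J : ℝ}

lemma Hyp.bolt_le (H : Hyp ν v cell C V K J) {n : ℕ} {x : Fin n → E}
    (hx : ∀ i, cell (x i) ∈ C) :
    bolt v x ≤ ENNReal.ofReal (Real.exp (K / 2)) ^ n := by
  unfold bolt
  rw [← ENNReal.ofReal_pow (Real.exp_pos _).le, ← Real.exp_nat_mul]
  refine ENNReal.ofReal_le_ofReal (Real.exp_le_exp.mpr ?_)
  have h1 := energy_ge hx H.hV0 H.hVs H.hJ H.hlow
  have h2 : 0 ≤ (K - J) * ∑ c ∈ C, (cnt cell c x : ℝ)^2 := by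
    refine mul_nonneg ?_ (Finset.sum_nonneg fun c _ => sq_nonneg _)
    linarith [H.hKJ, H.hJ0]
  linarith

lemma Hyp.gInt_sq_lt_top [IsFiniteMeasure ν] (H : Hyp ν v cell C V K J) :
    gInt ν v (fun n _ => (n : ℝ≥0∞) ^ 2) < ∞ := by
  set m := (ν univ).toReal with hm
  have hm' : ν univ = ENNReal.ofReal m := (ENNReal.ofReal_toReal (measure_ne_top ν _)).symm
  have hm0 : 0 ≤ m := ENNReal.toReal_nonneg
  have hb : ∀ n : ℕ, ((n.factorial : ℕ) : ℝ≥0∞)⁻¹ * wInt ν v n (fun _ => (n : ℝ≥0∞) ^ 2) ≤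
      ((n.factorial : ℕ) : ℝ≥0∞)⁻¹ * (ENNReal.ofReal (4 * Real.exp (K / 2) * m)) ^ n := by
    intro n
    refine mul_le_mul_right ?_ _
    calc wInt ν v n (fun _ => (n : ℝ≥0∞) ^ 2)
        ≤ ∫⁻ _ : Fin n → E, (4 : ℝ≥0∞)^n * ENNReal.ofReal (Real.exp (K / 2)) ^ n
            ∂(Measure.pi fun _ => ν) := by
          unfold wInt
          refine lintegral_mono_ae ?_
          filter_upwards [ae_cells H.hC n] with x hx
          refine mul_le_mul' ?_ (H.bolt_le hx)
          have : n ^ 2 ≤ 4 ^ n := by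
            have h1 : n ≤ 2 ^ n := Nat.lt_two_pow_self.le
            calc n ^ 2 ≤ (2 ^ n) ^ 2 := Nat.pow_le_pow_left h1 2
              _ = 4 ^ n := by rw [← pow_mul, mul_comm, pow_mul]; norm_num
          exact_mod_cast this
      _ = (4 : ℝ≥0∞)^n * ENNReal.ofReal (Real.exp (K / 2)) ^ n * (ν univ)^n := by
          rw [lintegral_const, Measure.pi_univ]
          simp
      _ = (ENNReal.ofReal (4 * Real.exp (K / 2) * m)) ^ n := by
          rw [hm', ← mul_pow, ← mul_pow, ENNReal.ofReal_mul (by positivity),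
            ENNReal.ofReal_mul (by norm_num)]
          norm_num
  refine lt_of_le_of_lt (ENNReal.tsum_le_tsum hb) ?_
  rw [tsum_exp_bound _ (by positivity)]
  exact ENNReal.ofReal_lt_top

lemma Hyp.Xi_lt_top [IsFiniteMeasure ν] (H : Hyp ν v cell C V K J) : Xi ν v < ∞ := by
  have h1 : Xi ν v ≤ wInt ν v 0 (fun _ => 1) + gInt ν v (fun n _ => (n : ℝ≥0∞) ^ 2) := by
    unfold Xi gInt
    rw [tsum_eq_zero_add' ENNReal.summable]
    refine add_le_add (by simp) ?_
    rw [tsum_eq_zero_add' (f := fun n : ℕ => ((n.factorial : ℕ) : ℝ≥0∞)⁻¹ *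
      wInt ν v n (fun _ => (n : ℝ≥0∞) ^ 2)) ENNReal.summable]
    refine le_trans ?_ le_add_self
    refine ENNReal.tsum_le_tsum fun n => mul_le_mul_right (wInt_mono_ae ?_) _
    refine Eventually.of_forall fun x => ?_
    have : 1 ≤ (n + 1) ^ 2 := Nat.one_le_pow _ _ (Nat.succ_pos n)
    show (1 : ℝ≥0∞) ≤ ((n + 1 : ℕ) : ℝ≥0∞) ^ 2
    exact_mod_cast this
  refine lt_of_le_of_lt h1 (ENNReal.add_lt_top.mpr ⟨?_, H.gInt_sq_lt_top⟩)
  unfold wInt
  rw [Measure.pi_of_empty]
  simp [bolt_ne_top, lt_top_iff_ne_top]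

lemma Xi_ge_one (ν : Measure E) [SigmaFinite ν] (v : E → E → ℝ) : 1 ≤ Xi ν v := by
  unfold Xi gInt
  refine le_trans ?_ (ENNReal.le_tsum 0)
  unfold wInt
  rw [Measure.pi_of_empty]
  simp [bolt, energy]

end moment

end Vale.Agent.P171
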