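import Vale.Agent.P171.Moment

open MeasureTheory Set Filter Topology
open scoped ENNReal BigOperators

namespace Vale.Agent.P171

set_option linter.unusedSectionVars false

section moment2

variable {E I : Type*} [MeasurableSpace E] [DecidableEq I] [Countable I] [MeasurableSpace I]
  [MeasurableSingletonClass I]
variable {ν : Measure E} {v : E → E → ℝ} {cell : E → I} {C : Finset I} {V : I → I → ℝ}
  {K J : ℝ}

/-- Second factorial moment of the cell count, restricted to the event that the count is large
compared with the interaction field. -/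
noncomputable def badF (cell : E → I) (V : I → I → ℝ) (K : ℝ) (c : I) {n : ℕ} (x : Fin n → E) :
    ℝ := by
  classical
  exact if 2 * Phi cell V c x < K * ((cnt cell c x : ℝ) - 1) then
    (cnt cell c x : ℝ) * ((cnt cell c x : ℝ) - 1) else 0

/-- The test function in the GNZ identity. -/
noncomputable def gnzH (cell : E → I) (V : I → I → ℝ) (K : ℝ) (c : I) {n : ℕ} (y : E)
    (x : Fin n → E) : ℝ≥0∞ := by
  classical
  exact if cell y = c ∧ 2 * Phi cell V c x < K * (cnt cell c x : ℝ) then
    ENNReal.ofReal (cnt cell c x : ℝ) else 0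

lemma gnzH_measurable (hcell : Measurable cell) (V : I → I → ℝ) (K : ℝ) (c : I) (n : ℕ) :
    Measurable (Function.uncurry (fun (y : E) (x : Fin n → E) => gnzH cell V K c y x)) := by
  classical
  unfold gnzH Function.uncurry
  refine Measurable.ite ?_ ?_ measurable_const
  · have e1 : Measurable (fun p : E × (Fin n → E) => 2 * Phi cell V c p.2) :=
      ((Phi_measurable hcell V c n).comp measurable_snd).const_mul 2
    have e2 : Measurable (fun p : E × (Fin n → E) => K * (cnt cell c p.2 : ℝ)) :=
      ((cnt_measurable hcell c n).comp measurable_snd).const_mul K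
    exact MeasurableSet.inter ((hcell.comp measurable_fst) (measurableSet_singleton c))
      (measurableSet_lt e1 e2)
  · exact ENNReal.measurable_ofReal.comp ((cnt_measurable hcell c n).comp measurable_snd)

lemma badF_measurable (hcell : Measurable cell) (V : I → I → ℝ) (K : ℝ) (c : I) (n : ℕ) :
    Measurable (fun x : Fin n → E => badF cell V K c x) := by
  classical
  unfold badF
  have h1 := cnt_measurable hcell c n
  refine Measurable.ite ?_ ?_ measurable_const
  · refine measurableSet_lt ?_ ?_
    · exact (Phi_measurable hcell V c n).const_mul 2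
    · exact (h1.sub_const 1).const_mul K
  · exact h1.mul (h1.sub_const 1)

lemma cnt_succAbove (cell : E → I) (c : I) {n : ℕ} (x : Fin (n + 1) → E) (i : Fin (n + 1))
    (hi : cell (x i) = c) :
    (cnt cell c (fun j => x (i.succAbove j)) : ℝ) = cnt cell c x - 1 := by
  rw [cnt_cast, cnt_cast, Fin.sum_univ_succAbove _ i, if_pos hi]
  ring

lemma Phi_succAbove (cell : E → I) (V : I → I → ℝ) (hV : ∀ c d, 0 ≤ V c d) (c : I) {n : ℕ}
    (x : Fin (n + 1) → E) (i : Fin (n + 1)) :
    Phi cell V c (fun j => x (i.succAbove j)) ≤ Phi cell V c x := by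
  unfold Phi
  rw [Fin.sum_univ_succAbove (fun j => V c (cell (x j))) i]
  linarith [hV c (cell (x i))]

lemma badF_le_sum (hV : ∀ c d, 0 ≤ V c d) (c : I) {n : ℕ} (x : Fin (n + 1) → E) :
    ENNReal.ofReal (badF cell V K c x) ≤
      ∑ i, gnzH cell V K c (x i) (fun j => x (i.succAbove j)) := by
  classical
  unfold badF
  split_ifs with hbad
  · have h1 : ∀ i ∈ Finset.univ.filter (fun i => cell (x i) = c),
        ENNReal.ofReal ((cnt cell c x : ℝ) - 1) ≤
        gnzH cell V K c (x i) (fun j => x (i.succAbove j)) := by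
      intro i hi
      have hi' := (Finset.mem_filter.mp hi).2
      unfold gnzH
      rw [cnt_succAbove cell c x i hi', if_pos]
      refine ⟨hi', ?_⟩
      have := Phi_succAbove cell V hV c x i
      linarith
    calc ENNReal.ofReal ((cnt cell c x : ℝ) * ((cnt cell c x : ℝ) - 1))
        = (cnt cell c x : ℝ≥0∞) * ENNReal.ofReal ((cnt cell c x : ℝ) - 1) := by
          rw [ENNReal.ofReal_mul (by positivity), ENNReal.ofReal_natCast]
      _ = ∑ i ∈ Finset.univ.filter (fun i => cell (x i) = c),
            ENNReal.ofReal ((cnt cell c x : ℝ) - 1) := by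
          rw [Finset.sum_const, nsmul_eq_mul]; rfl
      _ ≤ ∑ i ∈ Finset.univ.filter (fun i => cell (x i) = c),
            gnzH cell V K c (x i) (fun j => x (i.succAbove j)) := Finset.sum_le_sum h1
      _ ≤ _ := Finset.sum_le_sum_of_subset (Finset.filter_subset _ _)
  · simp

/-- one-particle estimate -/
lemma Hyp.gnz_pointwise (H : Hyp ν v cell C V K J) (c : I) {n : ℕ} {y : E}
    {x : Fin n → E} (hy : cell y ∈ C) (hx : ∀ i, cell (x i) ∈ C) :
    gnzH cell V K c y x * ENNReal.ofReal (Real.exp (-∑ j, v y (x j))) ≤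
      (if cell y = c then ENNReal.ofReal (2 / K) else 0) := by
  classical
  unfold gnzH
  by_cases hyc : cell y = c
  · rw [if_pos hyc]
    split_ifs with h
    · rw [← ENNReal.ofReal_mul (by positivity)]
      refine ENNReal.ofReal_le_ofReal ?_
      have hK := H.hK
      have h1 : K * (cnt cell c x : ℝ) - Phi cell V c x ≤ ∑ j, v y (x j) := by
        rw [cnt_cast]
        unfold Phi
        rw [Finset.mul_sum, ← Finset.sum_sub_distrib]
        refine Finset.sum_le_sum fun j _ => ?_
        have := H.hlow y (x j) hy (hx j)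
        rw [hyc] at this
        refine le_trans (le_of_eq ?_) this
        congr 1
        by_cases hj : cell (x j) = c
        · simp [hj]
        · rw [if_neg hj, if_neg (Ne.symm hj)]; simp
      have h2 : -∑ j, v y (x j) ≤ -(K * (cnt cell c x : ℝ) / 2) := by
        linarith [h.2]
      set u := K * (cnt cell c x : ℝ) / 2 with hu
      have h3 : (cnt cell c x : ℝ) = (2 / K) * u := by
        rw [hu]; field_simp
      have h4 : u * Real.exp (-u) ≤ 1 := by
        have h5 : u ≤ Real.exp u := by linarith [Real.add_one_le_exp u]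
        calc u * Real.exp (-u) ≤ Real.exp u * Real.exp (-u) :=
              mul_le_mul_of_nonneg_right h5 (Real.exp_pos _).le
          _ = 1 := by rw [← Real.exp_add]; simp
      calc (cnt cell c x : ℝ) * Real.exp (-∑ j, v y (x j))
          ≤ (cnt cell c x : ℝ) * Real.exp (-u) :=
            mul_le_mul_of_nonneg_left (Real.exp_le_exp.mpr h2) (by positivity)
        _ = (2 / K) * (u * Real.exp (-u)) := by rw [h3]; ring
        _ ≤ (2 / K) * 1 := mul_le_mul_of_nonneg_left h4 (by positivity)
        _ = 2 / K := mul_one _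
    · simp
  · rw [if_neg (fun h => hyc h.1), if_neg hyc]; simp

lemma Hyp.bad_bound [IsFiniteMeasure ν] (H : Hyp ν v cell C V K J) (c : I) :
    gInt ν v (fun _ x => ENNReal.ofReal (badF cell V K c x)) ≤
      ENNReal.ofReal (2 / K) * ν (cell ⁻¹' {c}) * Xi ν v := by
  classical
  unfold gInt
  rw [tsum_eq_zero_add' ENNReal.summable]
  have h0 : wInt ν v 0 (fun x => ENNReal.ofReal (badF cell V K c x)) = 0 := by
    unfold wInt
    have : ∀ x : Fin 0 → E, badF cell V K c x = 0 := by
      intro x
      unfold badF cnt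
      simp
    simp_rw [this]
    simp
  rw [h0, mul_zero, zero_add]
  have hXi : ENNReal.ofReal (2 / K) * ν (cell ⁻¹' {c}) * Xi ν v =
      ∑' n : ℕ, ((n.factorial : ℕ) : ℝ≥0∞)⁻¹ *
        (ENNReal.ofReal (2 / K) * ν (cell ⁻¹' {c}) * wInt ν v n (fun _ => 1)) := by
    unfold Xi gInt
    rw [← ENNReal.tsum_mul_left]
    refine tsum_congr fun n => ?_
    ring
  rw [hXi]
  refine ENNReal.tsum_le_tsum fun n => ?_
  have hgnz := wInt_gnz (ν := ν) H.hv H.hs n (fun y x => gnzH cell V K c y x)
    (gnzH_measurable H.hcell V K c n)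
  calc (((n + 1).factorial : ℕ) : ℝ≥0∞)⁻¹ *
        wInt ν v (n + 1) (fun x => ENNReal.ofReal (badF cell V K c x))
      ≤ (((n + 1).factorial : ℕ) : ℝ≥0∞)⁻¹ *
        wInt ν v (n + 1) (fun x => ∑ i, gnzH cell V K c (x i) (fun j => x (i.succAbove j))) := by
        refine mul_le_mul_right (wInt_mono_ae (Eventually.of_forall fun x => ?_)) _
        exact badF_le_sum H.hV0 c x
    _ = ((n.factorial : ℕ) : ℝ≥0∞)⁻¹ * ∫⁻ y, wInt ν v n
        (fun x => gnzH cell V K c y x * ENNReal.ofReal (Real.exp (-∑ j, v y (x j)))) ∂ν := by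
        rw [hgnz, ← mul_assoc]
        congr 1
        rw [Nat.factorial_succ]
        push_cast
        have h1 : ((n : ℝ≥0∞) + 1) ≠ 0 := by positivity
        have h2 : ((n : ℝ≥0∞) + 1) ≠ ∞ := by
          exact_mod_cast ENNReal.natCast_ne_top (n + 1)
        rw [ENNReal.mul_inv (Or.inl h1) (Or.inl h2), mul_right_comm,
          ENNReal.inv_mul_cancel h1 h2, one_mul]
    _ ≤ ((n.factorial : ℕ) : ℝ≥0∞)⁻¹ * ∫⁻ y, (cell ⁻¹' {c}).indicator
        (fun _ => ENNReal.ofReal (2 / K) * wInt ν v n (fun _ => 1)) y ∂ν := by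
        refine mul_le_mul_right (lintegral_mono_ae ?_) _
        filter_upwards [H.hC] with y hy
        by_cases hyc : cell y = c
        · rw [Set.indicator_of_mem (by simpa using hyc)]
          have : ENNReal.ofReal (2 / K) * wInt ν v n (fun _ => 1) =
              wInt ν v n (fun _ => ENNReal.ofReal (2 / K)) := by
            unfold wInt
            rw [← lintegral_const_mul]
            · simp
            · simpa using bolt_measurable H.hv
          rw [this]
          refine wInt_mono_ae ?_
          filter_upwards [ae_cells H.hC n] with x hx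
          have := H.gnz_pointwise c hy hx
          rwa [if_pos hyc] at this
        · rw [Set.indicator_of_notMem (by simpa using hyc)]
          have : wInt ν v n (fun x => gnzH cell V K c y x *
              ENNReal.ofReal (Real.exp (-∑ j, v y (x j)))) ≤ wInt ν v n (fun _ => 0) := by
            refine wInt_mono_ae ?_
            filter_upwards [ae_cells H.hC n] with x hx
            have := H.gnz_pointwise c hy hx
            rwa [if_neg hyc] at this
          refine this.trans (le_of_eq ?_)
          simp [wInt]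
    _ = ((n.factorial : ℕ) : ℝ≥0∞)⁻¹ *
        (ENNReal.ofReal (2 / K) * ν (cell ⁻¹' {c}) * wInt ν v n (fun _ => 1)) := by
        rw [lintegral_indicator (H.hcell (measurableSet_singleton c)), lintegral_const]
        simp only [MeasurableSet.univ, Measure.restrict_apply, Set.univ_inter]
        ring

/-- pointwise bound of the squared cell count -/
lemma cnt_sq_le (hK : 0 < K) (hV : ∀ c d, 0 ≤ V c d) (hVJ : ∀ c ∈ C, ∑ d ∈ C, V c d ≤ J)
    {c : I} (hc : c ∈ C) {n : ℕ} {x : Fin n → E} (hx : ∀ i, cell (x i) ∈ C) :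
    (cnt cell c x : ℝ) ^ 2 ≤ 2 * badF cell V K c x + 2 +
      (8 * J / K ^ 2) * ∑ d ∈ C, V c d * (cnt cell d x : ℝ) ^ 2 := by
  classical
  have hPhi : Phi cell V c x = ∑ d ∈ C, (cnt cell d x : ℝ) * V c d := by
    unfold Phi
    exact sum_cell_eq hx (V c)
  have hPhi0 : 0 ≤ Phi cell V c x := Finset.sum_nonneg fun j _ => hV _ _
  have hJ0 : 0 ≤ J := le_trans (Finset.sum_nonneg fun d _ => hV c d) (hVJ c hc)
  have hS0 : 0 ≤ ∑ d ∈ C, V c d * (cnt cell d x : ℝ) ^ 2 :=
    Finset.sum_nonneg fun d _ => mul_nonneg (hV c d) (sq_nonneg _)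
  have hPhi2 : (Phi cell V c x) ^ 2 ≤ J * ∑ d ∈ C, V c d * (cnt cell d x : ℝ) ^ 2 := by
    have h1 : (∑ d ∈ C, (cnt cell d x : ℝ) * V c d) ^ 2 ≤
        (∑ d ∈ C, V c d) * ∑ d ∈ C, V c d * (cnt cell d x : ℝ) ^ 2 := by
      refine Finset.sum_sq_le_sum_mul_sum_of_sq_le_mul C (fun d _ => hV c d)
        (fun d _ => mul_nonneg (hV c d) (sq_nonneg _)) (fun d _ => le_of_eq ?_)
      ring
    rw [hPhi]
    refine h1.trans (mul_le_mul_of_nonneg_right (hVJ c hc) hS0)
  unfold badF
  split_ifs with h
  · have h1 : (1 : ℝ) < cnt cell c x := by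
      have : 0 < K * ((cnt cell c x : ℝ) - 1) := lt_of_le_of_lt (by positivity) h
      have := (mul_pos_iff_of_pos_left hK).mp this
      linarith
    have h2 : (2 : ℝ) ≤ cnt cell c x := by
      have : 1 < cnt cell c x := by exact_mod_cast h1
      exact_mod_cast this
    have h3 : 0 ≤ (8 * J / K ^ 2) * ∑ d ∈ C, V c d * (cnt cell d x : ℝ) ^ 2 := by positivity
    nlinarith
  · push Not at h
    have h1 : (cnt cell c x : ℝ) ≤ 1 + 2 * Phi cell V c x / K := by
      rw [← sub_le_iff_le_add', le_div_iff₀ hK]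
      linarith
    have h2 : (cnt cell c x : ℝ) ^ 2 ≤ (1 + 2 * Phi cell V c x / K) ^ 2 :=
      pow_le_pow_left₀ (by positivity) h1 2
    have h3 : (1 + 2 * Phi cell V c x / K) ^ 2 ≤ 2 + 8 * (Phi cell V c x) ^ 2 / K ^ 2 := by
      have : (1 + 2 * Phi cell V c x / K) ^ 2 ≤ 2 + 2 * (2 * Phi cell V c x / K) ^ 2 := by
        nlinarith [sq_nonneg (1 - 2 * Phi cell V c x / K)]
      refine this.trans (le_of_eq ?_)
      ring
    have h4 : 8 * (Phi cell V c x) ^ 2 / K ^ 2 ≤
        (8 * J / K ^ 2) * ∑ d ∈ C, V c d * (cnt cell d x : ℝ) ^ 2 := by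
      have : 8 * (Phi cell V c x) ^ 2 / K ^ 2 = (8 / K ^ 2) * (Phi cell V c x) ^ 2 := by ring
      rw [this]
      have e : (8 * J / K ^ 2) * ∑ d ∈ C, V c d * (cnt cell d x : ℝ) ^ 2 =
        (8 / K ^ 2) * (J * ∑ d ∈ C, V c d * (cnt cell d x : ℝ) ^ 2) := by ring
      rw [e]
      exact mul_le_mul_of_nonneg_left hPhi2 (by positivity)
    linarith

end moment2

end Vale.Agent.P171
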