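import Vale.Agent.P171.Perturb

open MeasureTheory Set Filter Topology
open scoped ENNReal BigOperators

namespace Vale.Agent.P171

set_option linter.unusedSectionVars false

section perturb2

variable {E I : Type*} [MeasurableSpace E] [DecidableEq I] [Countable I] [MeasurableSpace I]
  [MeasurableSingletonClass I]
variable {ν : Measure E} {v w : E → E → ℝ} {cell : E → I} {C : Finset I} {V : I → I → ℝ}
  {K J : ℝ}

lemma jensen_gInt [SigmaFinite ν] (hv : Measurable (Function.uncurry v))
    (Y : (n : ℕ) → (Fin n → E) → ℝ)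
    (hY0 : ∀ n x, 0 ≤ Y n x) (hYm : ∀ n, Measurable (Y n)) {M : ℝ} (hM0 : 0 ≤ M)
    (hfin : Xi ν v ≠ ∞)
    (hM : gInt ν v (fun n x => ENNReal.ofReal (Y n x)) ≤ ENNReal.ofReal M * Xi ν v) :
    ENNReal.ofReal (Real.exp (-M)) * Xi ν v ≤
      gInt ν v (fun n x => ENNReal.ofReal (Real.exp (-(Y n x)))) := by
  set G := gInt ν v (fun n x => ENNReal.ofReal (Real.exp (-(Y n x)))) with hG
  have hGfin : G ≠ ∞ := by
    have : G ≤ Xi ν v := by
      refine gInt_mono_ae fun n => Eventually.of_forall fun x => ?_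
      rw [← ENNReal.ofReal_one]
      refine ENNReal.ofReal_le_ofReal ?_
      rw [← Real.exp_zero]
      exact Real.exp_le_exp.mpr (neg_nonpos.mpr (hY0 n x))
    exact ne_top_of_le_ne_top hfin this
  have m1 : ∀ n, Measurable (fun x => ENNReal.ofReal (Y n x)) :=
    fun n => ENNReal.measurable_ofReal.comp (hYm n)
  have m2 : ∀ n, Measurable (fun x => ENNReal.ofReal (Real.exp (-(Y n x)))) :=
    fun n => ENNReal.measurable_ofReal.comp (Real.measurable_exp.comp (hYm n).neg)
  have h1 : ENNReal.ofReal (Real.exp (-M) * (1 + M)) * Xi ν v ≤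
      G + ENNReal.ofReal (Real.exp (-M)) * gInt ν v (fun n x => ENNReal.ofReal (Y n x)) := by
    rw [← gInt_const_mul hv m1, hG, ← gInt_add hv m2]
    unfold Xi
    rw [← gInt_const_mul hv (fun n => measurable_const)]
    refine gInt_mono_ae fun n => Eventually.of_forall fun x => ?_
    simp only [mul_one]
    rw [← ENNReal.ofReal_mul (Real.exp_pos _).le, ← ENNReal.ofReal_add (Real.exp_pos _).le
      (mul_nonneg (Real.exp_pos _).le (hY0 n x))]
    refine ENNReal.ofReal_le_ofReal ?_
    have h2 : Real.exp (-(Y n x)) = Real.exp (-M) * Real.exp (M - Y n x) := by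
      rw [← Real.exp_add]; congr 1; ring
    have h3 := Real.add_one_le_exp (M - Y n x)
    rw [h2, ← mul_add]
    refine mul_le_mul_of_nonneg_left ?_ (Real.exp_pos _).le
    linarith
  have h4 : ENNReal.ofReal (Real.exp (-M) * (1 + M)) * Xi ν v ≤
      G + ENNReal.ofReal (Real.exp (-M)) * (ENNReal.ofReal M * Xi ν v) :=
    h1.trans (add_le_add le_rfl (mul_le_mul_right hM _))
  have e1 := ENNReal.toReal_mono (by finiteness) h4
  rw [ENNReal.toReal_add (by finiteness) (by finiteness), ENNReal.toReal_mul, ENNReal.toReal_mul,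
    ENNReal.toReal_mul, ENNReal.toReal_ofReal (by positivity),
    ENNReal.toReal_ofReal (by positivity), ENNReal.toReal_ofReal hM0] at e1
  rw [← ENNReal.toReal_le_toReal (by finiteness) hGfin, ENNReal.toReal_mul,
    ENNReal.toReal_ofReal (by positivity)]
  nlinarith

lemma bolt_sub_mul (v w : E → E → ℝ) {n : ℕ} (x : Fin n → E) :
    ENNReal.ofReal (Real.exp (-(energy w x))) * bolt (fun a b => v a b - w a b) x = bolt v x := by
  unfold bolt
  rw [← ENNReal.ofReal_mul (Real.exp_pos _).le, ← Real.exp_add, energy_sub]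
  congr 2
  ring

/-- Removing an attraction `w` changes the logarithm of the partition function by at most
`(5/2) ∑ W`. -/
theorem Hyp.perturb [IsFiniteMeasure ν] (H : Hyp ν (fun a b => v a b - w a b) cell C V K J)
    (hwm : Measurable (Function.uncurry w)) (hw0 : ∀ a b, 0 ≤ w a b)
    {W : I → I → ℝ} (hW0 : ∀ c d, 0 ≤ W c d) (hWs : ∀ c d, W c d = W d c)
    (hwW : ∀ y z, cell y ∈ C → cell z ∈ C → w y z ≤ W (cell y) (cell z)) :
    Xi ν (fun a b => v a b - w a b) ≤
      ENNReal.ofReal (Real.exp ((5/2) * ∑ c ∈ C, ∑ d ∈ C, W c d)) * Xi ν v := by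
  set M : ℝ := (5/2) * ∑ c ∈ C, ∑ d ∈ C, W c d with hM
  have hM0 : 0 ≤ M := by
    have : 0 ≤ ∑ c ∈ C, ∑ d ∈ C, W c d :=
      Finset.sum_nonneg fun c _ => Finset.sum_nonneg fun d _ => hW0 c d
    positivity
  have hE0 : ∀ (n : ℕ) (x : Fin n → E), 0 ≤ energy w x := by
    intro n x
    unfold energy
    refine mul_nonneg (by norm_num) (Finset.sum_nonneg fun i _ => Finset.sum_nonneg fun j _ => ?_)
    split_ifs
    · exact le_rfl
    · exact hw0 _ _
  have hfin : Xi ν (fun a b => v a b - w a b) ≠ ∞ := H.Xi_lt_top.ne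
  have hY : gInt ν (fun a b => v a b - w a b) (fun n x => ENNReal.ofReal (energy w x)) ≤
      ENNReal.ofReal M * Xi ν (fun a b => v a b - w a b) := by
    have h1 : gInt ν (fun a b => v a b - w a b) (fun n x => ENNReal.ofReal (energy w x)) ≤
        gInt ν (fun a b => v a b - w a b) (fun n x =>
          ∑ c ∈ C, ENNReal.ofReal ((1/2) * ∑ d ∈ C, W c d) * cntSq cell c n x) := by
      refine gInt_mono_ae fun n => ?_
      filter_upwards [ae_cells H.hC n] with x hx
      have h2 : energy w x ≤ ∑ c ∈ C, ((1/2) * ∑ d ∈ C, W c d) * (cnt cell c x : ℝ) ^ 2 := by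
        unfold energy
        have h3 : ∑ i, ∑ j, (if i = j then 0 else w (x i) (x j)) ≤
            ∑ i, ∑ j, W (cell (x i)) (cell (x j)) := by
          refine Finset.sum_le_sum fun i _ => Finset.sum_le_sum fun j _ => ?_
          split_ifs
          · exact hW0 _ _
          · exact hwW _ _ (hx i) (hx j)
        have h4 := sum_sum_cell_le hx hW0 hWs
        calc (1/2) * ∑ i, ∑ j, (if i = j then 0 else w (x i) (x j))
            ≤ (1/2) * ∑ c ∈ C, (cnt cell c x : ℝ) ^ 2 * ∑ d ∈ C, W c d :=
              mul_le_mul_of_nonneg_left (h3.trans h4) (by norm_num)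
          _ = _ := by
              rw [Finset.mul_sum]
              refine Finset.sum_congr rfl fun c _ => ?_
              ring
      refine (ENNReal.ofReal_le_ofReal h2).trans (le_of_eq ?_)
      have h5 : ∀ c ∈ C, 0 ≤ ((1/2) * ∑ d ∈ C, W c d) := fun c _ =>
        mul_nonneg (by norm_num) (Finset.sum_nonneg fun d _ => hW0 c d)
      rw [ENNReal.ofReal_sum_of_nonneg (fun c hc => mul_nonneg (h5 c hc) (sq_nonneg _))]
      refine Finset.sum_congr rfl fun c hc => ?_
      rw [ENNReal.ofReal_mul (h5 c hc)]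
      rfl
    refine h1.trans ?_
    rw [gInt_finset_sum H.hv C (F := fun c n x =>
      ENNReal.ofReal ((1/2) * ∑ d ∈ C, W c d) * cntSq cell c n x)
      (fun c n => (cntSq_measurable H.hcell c n).const_mul _)]
    have h6 : ∀ c ∈ C, gInt ν (fun a b => v a b - w a b) (fun n x =>
        ENNReal.ofReal ((1/2) * ∑ d ∈ C, W c d) * cntSq cell c n x) ≤
        ENNReal.ofReal ((5/2) * ∑ d ∈ C, W c d) * Xi ν (fun a b => v a b - w a b) := by
      intro c hc
      rw [gInt_const_mul H.hv (fun n => cntSq_measurable H.hcell c n)]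
      refine (mul_le_mul_right (H.moment hc) _).trans (le_of_eq ?_)
      rw [← mul_assoc]
      congr 1
      have : (5 : ℝ≥0∞) = ENNReal.ofReal 5 := by norm_num
      rw [this, ← ENNReal.ofReal_mul' (by norm_num)]
      congr 1
      ring
    refine (Finset.sum_le_sum h6).trans (le_of_eq ?_)
    rw [← Finset.sum_mul, ← ENNReal.ofReal_sum_of_nonneg]
    · rw [hM, Finset.mul_sum]
    · intro c _
      exact mul_nonneg (by norm_num) (Finset.sum_nonneg fun d _ => hW0 c d)
  have hj := jensen_gInt H.hv (fun n x => energy w x) hE0 (fun n => energy_measurable hwm) hM0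
    hfin hY
  have hXv : gInt ν (fun a b => v a b - w a b)
      (fun n x => ENNReal.ofReal (Real.exp (-(energy w x)))) = Xi ν v := by
    unfold Xi gInt wInt
    refine tsum_congr fun n => ?_
    congr 1
    refine lintegral_congr fun x => ?_
    rw [bolt_sub_mul, one_mul]
  rw [hXv] at hj
  calc Xi ν (fun a b => v a b - w a b)
      = ENNReal.ofReal (Real.exp M) * (ENNReal.ofReal (Real.exp (-M)) *
          Xi ν (fun a b => v a b - w a b)) := by
        rw [← mul_assoc, ← ENNReal.ofReal_mul (Real.exp_pos _).le, ← Real.exp_add]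
        simp
    _ ≤ _ := mul_le_mul_right hj _

lemma pi_smul_measure (n : ℕ) (ν : Measure E) [IsFiniteMeasure ν] (c : ℝ≥0∞) (hc : c ≠ ∞) :
    (Measure.pi fun _ : Fin n => c • ν) = c ^ n • (Measure.pi fun _ : Fin n => ν) := by
  have : IsFiniteMeasure (c • ν) := Measure.smul_finite ν hc
  refine (Measure.pi_eq fun s hs => ?_)
  simp [Finset.prod_mul_distrib]

lemma wInt_smul (n : ℕ) (ν : Measure E) [IsFiniteMeasure ν] (c : ℝ≥0∞) (hc : c ≠ ∞)
    (v : E → E → ℝ) (F : (Fin n → E) → ℝ≥0∞) :
    wInt (c • ν) v n F = c ^ n * wInt ν v n F := by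
  unfold wInt
  rw [pi_smul_measure n ν c hc, lintegral_smul_measure, smul_eq_mul]

/-- Raising the chemical potential by `s` changes the logarithm of the partition function by at
most `5 s |C|`. -/
theorem Hyp.number [IsFiniteMeasure ν] {s : ℝ} (hs : 0 ≤ s)
    (H : Hyp (ENNReal.ofReal (Real.exp s) • ν) v cell C V K J) :
    Xi (ENNReal.ofReal (Real.exp s) • ν) v ≤
      ENNReal.ofReal (Real.exp (5 * s * C.card)) * Xi ν v := by
  have hfm : IsFiniteMeasure (ENNReal.ofReal (Real.exp s) • ν) :=
    Measure.smul_finite ν ENNReal.ofReal_ne_top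
  set ν' := ENNReal.ofReal (Real.exp s) • ν with hν'
  set M : ℝ := 5 * s * C.card with hM
  have hM0 : 0 ≤ M := by positivity
  have hfin : Xi ν' v ≠ ∞ := H.Xi_lt_top.ne
  have hY : gInt ν' v (fun n _ => ENNReal.ofReal (s * n)) ≤ ENNReal.ofReal M * Xi ν' v := by
    have h1 : gInt ν' v (fun n _ => ENNReal.ofReal (s * n)) ≤
        gInt ν' v (fun n x => ∑ c ∈ C, ENNReal.ofReal s * cntSq cell c n x) := by
      refine gInt_mono_ae fun n => ?_
      filter_upwards [ae_cells H.hC n] with x hx
      have h2 : s * n ≤ ∑ c ∈ C, s * (cnt cell c x : ℝ) ^ 2 := by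
        rw [← sum_cnt hx, Finset.mul_sum]
        refine Finset.sum_le_sum fun c _ => mul_le_mul_of_nonneg_left ?_ hs
        have : cnt cell c x ≤ (cnt cell c x) ^ 2 := Nat.le_self_pow (by norm_num) _
        exact_mod_cast this
      refine (ENNReal.ofReal_le_ofReal h2).trans (le_of_eq ?_)
      rw [ENNReal.ofReal_sum_of_nonneg (fun c hc => mul_nonneg hs (sq_nonneg _))]
      refine Finset.sum_congr rfl fun c hc => ?_
      rw [ENNReal.ofReal_mul hs]
      rfl
    refine h1.trans ?_
    rw [gInt_finset_sum H.hv C (F := fun c n x => ENNReal.ofReal s * cntSq cell c n x)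
      (fun c n => (cntSq_measurable H.hcell c n).const_mul _)]
    have h6 : ∀ c ∈ C, gInt ν' v (fun n x => ENNReal.ofReal s * cntSq cell c n x) ≤
        ENNReal.ofReal (5 * s) * Xi ν' v := by
      intro c hc
      rw [gInt_const_mul H.hv (fun n => cntSq_measurable H.hcell c n)]
      refine (mul_le_mul_right (H.moment hc) _).trans (le_of_eq ?_)
      rw [← mul_assoc]
      congr 1
      have : (5 : ℝ≥0∞) = ENNReal.ofReal 5 := by norm_num
      rw [this, ← ENNReal.ofReal_mul' (by norm_num)]
      congr 1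
      ring
    refine (Finset.sum_le_sum h6).trans (le_of_eq ?_)
    rw [Finset.sum_const, nsmul_eq_mul, ← mul_assoc]
    congr 1
    rw [hM, ← ENNReal.ofReal_natCast, ← ENNReal.ofReal_mul (by positivity)]
    congr 1
    ring
  have hj := jensen_gInt H.hv (fun n _ => s * n) (fun n _ => by positivity)
    (fun n => measurable_const) hM0 hfin hY
  have hXv : gInt ν' v (fun n _ => ENNReal.ofReal (Real.exp (-(s * n)))) = Xi ν v := by
    unfold Xi gInt
    refine tsum_congr fun n => ?_
    congr 1
    rw [hν', wInt_smul n ν _ ENNReal.ofReal_ne_top]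
    unfold wInt
    rw [lintegral_const_mul _ (bolt_measurable H.hv), ← mul_assoc]
    rw [← ENNReal.ofReal_pow (Real.exp_pos _).le, ← ENNReal.ofReal_mul (by positivity),
      ← Real.exp_nat_mul, ← Real.exp_add]
    simp only [one_mul]
    rw [show (n : ℝ) * s + -(s * n) = 0 by ring]
    simp
  rw [hXv] at hj
  calc Xi ν' v = ENNReal.ofReal (Real.exp M) * (ENNReal.ofReal (Real.exp (-M)) * Xi ν' v) := by
        rw [← mul_assoc, ← ENNReal.ofReal_mul (Real.exp_pos _).le, ← Real.exp_add]
        simp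
    _ ≤ _ := mul_le_mul_right hj _

end perturb2

end Vale.Agent.P171
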