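import Vale.Agent.P171.Split
import Vale.Agent.P171.Perturb2

open MeasureTheory Set Filter Topology
open scoped ENNReal BigOperators

namespace Vale.Agent.P171

section parts

variable {E : Type*} [MeasurableSpace E]

lemma bInt_restrict {ν : Measure E} [SigmaFinite ν] {v : E → E → ℝ} (A : Set E) (n : ℕ) :
    bInt (ν.restrict A) v n = ∫⁻ x in Set.pi univ (fun _ : Fin n => A), bolt v x
      ∂(Measure.pi fun _ => ν) := by
  unfold bInt
  rw [← Measure.restrict_pi_pi]

lemma Xi_restrict_mono {ν : Measure E} [SigmaFinite ν] (v : E → E → ℝ) {A B : Set E}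
    (h : A ⊆ B) : Xi (ν.restrict A) v ≤ Xi (ν.restrict B) v := by
  rw [Xi_eq, Xi_eq]
  refine ENNReal.tsum_le_tsum fun n => mul_le_mul_right ?_ _
  rw [bInt_restrict, bInt_restrict]
  exact lintegral_mono_set (Set.pi_mono fun _ _ => h)

lemma Xi_le_of_le_on {ν : Measure E} [SigmaFinite ν] {v v' : E → E → ℝ} {A : Set E}
    (hA : MeasurableSet A) (h : ∀ x ∈ A, ∀ y ∈ A, v' x y ≤ v x y) :
    Xi (ν.restrict A) v ≤ Xi (ν.restrict A) v' := by
  rw [Xi_eq, Xi_eq]
  refine ENNReal.tsum_le_tsum fun n => mul_le_mul_right ?_ _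
  rw [bInt_restrict, bInt_restrict]
  refine setLIntegral_mono' (MeasurableSet.pi Set.countable_univ fun i _ => hA) fun x hx => ?_
  refine bolt_le_of_energy_le (energy_mono fun i j _ => ?_)
  exact h _ (hx i (Set.mem_univ _)) _ (hx j (Set.mem_univ _))

lemma Xi_congr_on {ν : Measure E} [SigmaFinite ν] {v v' : E → E → ℝ} {A : Set E}
    (hA : MeasurableSet A) (h : ∀ x ∈ A, ∀ y ∈ A, v' x y = v x y) :
    Xi (ν.restrict A) v = Xi (ν.restrict A) v' :=
  le_antisymm (Xi_le_of_le_on hA fun x hx y hy => (h x hx y hy).le)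
    (Xi_le_of_le_on hA fun x hx y hy => (h x hx y hy).ge)

lemma Xi_restrict_empty {ν : Measure E} [SigmaFinite ν] (v : E → E → ℝ) :
    Xi (ν.restrict (∅ : Set E)) v = 1 := by
  rw [Xi_eq, tsum_eq_zero_add' ENNReal.summable]
  have h0 : bInt (ν.restrict (∅ : Set E)) v 0 = 1 := by
    unfold bInt
    rw [Measure.pi_of_empty]
    simp [bolt, energy]
  have h1 : ∀ n : ℕ, bInt (ν.restrict (∅ : Set E)) v (n + 1) = 0 := by
    intro n
    rw [bInt_restrict]
    have : Set.pi univ (fun _ : Fin (n + 1) => (∅ : Set E)) = ∅ := by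
      rw [Set.univ_pi_eq_empty_iff]
      exact ⟨0, rfl⟩
    rw [this]
    simp
  rw [h0]
  simp only [h1, mul_zero, tsum_zero, add_zero]
  simp

lemma Xi_biUnion_le {κ : Type*} [DecidableEq κ] {ν : Measure E} [SigmaFinite ν] {v : E → E → ℝ}
    (hv : Measurable (Function.uncurry v)) (hs : ∀ a b, v a b = v b a) (s : Finset κ)
    (A : κ → Set E) (hA : ∀ k, MeasurableSet (A k))
    (hd : ∀ k ∈ s, ∀ l ∈ s, k ≠ l → Disjoint (A k) (A l))
    (h : ∀ k ∈ s, ∀ l ∈ s, k ≠ l → ∀ x ∈ A k, ∀ y ∈ A l, 0 ≤ v x y) :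
    Xi (ν.restrict (⋃ k ∈ s, A k)) v ≤ ∏ k ∈ s, Xi (ν.restrict (A k)) v := by
  induction s using Finset.induction_on with
  | empty => simpa using (Xi_restrict_empty (ν := ν) v).le
  | insert a s ha ih =>
    rw [Finset.prod_insert ha, Finset.set_biUnion_insert]
    refine (Xi_union_le hv hs (hA a) (Finset.measurableSet_biUnion s fun k _ => hA k) ?_ ?_).trans
      (mul_le_mul_right (ih ?_ ?_) _)
    · rw [Set.disjoint_iUnion₂_right]
      intro k hk
      exact hd a (Finset.mem_insert_self _ _) k (Finset.mem_insert_of_mem hk)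
        (fun e => ha (e ▸ hk))
    · intro x hx y hy
      simp only [Set.mem_iUnion] at hy
      obtain ⟨k, hk, hy⟩ := hy
      exact h a (Finset.mem_insert_self _ _) k (Finset.mem_insert_of_mem hk)
        (fun e => ha (e ▸ hk)) x hx y hy
    · intro k hk l hl
      exact hd k (Finset.mem_insert_of_mem hk) l (Finset.mem_insert_of_mem hl)
    · intro k hk l hl
      exact h k (Finset.mem_insert_of_mem hk) l (Finset.mem_insert_of_mem hl)

lemma Xi_biUnion_ge {κ : Type*} [DecidableEq κ] {ν : Measure E} [SigmaFinite ν] {v : E → E → ℝ}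
    (hv : Measurable (Function.uncurry v)) (hs : ∀ a b, v a b = v b a) (s : Finset κ)
    (A : κ → Set E) (hA : ∀ k, MeasurableSet (A k))
    (hd : ∀ k ∈ s, ∀ l ∈ s, k ≠ l → Disjoint (A k) (A l))
    (h : ∀ k ∈ s, ∀ l ∈ s, k ≠ l → ∀ x ∈ A k, ∀ y ∈ A l, v x y ≤ 0) :
    ∏ k ∈ s, Xi (ν.restrict (A k)) v ≤ Xi (ν.restrict (⋃ k ∈ s, A k)) v := by
  induction s using Finset.induction_on with
  | empty => simpa using (Xi_restrict_empty (ν := ν) v).ge
  | insert a s ha ih =>
    rw [Finset.prod_insert ha, Finset.set_biUnion_insert]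
    refine le_trans (mul_le_mul_right (ih ?_ ?_) _)
      (Xi_union_ge hv hs (hA a) (Finset.measurableSet_biUnion s fun k _ => hA k) ?_ ?_)
    · intro k hk l hl
      exact hd k (Finset.mem_insert_of_mem hk) l (Finset.mem_insert_of_mem hl)
    · intro k hk l hl
      exact h k (Finset.mem_insert_of_mem hk) l (Finset.mem_insert_of_mem hl)
    · rw [Set.disjoint_iUnion₂_right]
      intro k hk
      exact hd a (Finset.mem_insert_self _ _) k (Finset.mem_insert_of_mem hk)
        (fun e => ha (e ▸ hk))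
    · intro x hx y hy
      simp only [Set.mem_iUnion] at hy
      obtain ⟨k, hk, hy⟩ := hy
      exact h a (Finset.mem_insert_self _ _) k (Finset.mem_insert_of_mem hk)
        (fun e => ha (e ▸ hk)) x hx y hy

/-- Transport of the partition function along a measure preserving map. -/
lemma Xi_map {E' : Type*} [MeasurableSpace E'] {ν : Measure E} {ν' : Measure E'} [SigmaFinite ν]
    [SigmaFinite ν'] {v : E → E → ℝ} {v' : E' → E' → ℝ} (hv' : Measurable (Function.uncurry v'))
    {f : E → E'} (hf : MeasurePreserving f ν ν') (h : ∀ x y, v' (f x) (f y) = v x y) :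
    Xi ν' v' = Xi ν v := by
  rw [Xi_eq, Xi_eq]
  refine tsum_congr fun n => ?_
  congr 1
  unfold bInt
  have hp := measurePreserving_pi (fun _ : Fin n => ν) (fun _ : Fin n => ν') (fun _ => hf)
  rw [← hp.lintegral_comp (bolt_measurable hv')]
  refine lintegral_congr fun x => ?_
  unfold bolt energy
  simp_rw [h]

end parts

end Vale.Agent.P171
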