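import Vale.Agent.P171.Moment2

open MeasureTheory Set Filter Topology
open scoped ENNReal BigOperators

namespace Vale.Agent.P171

set_option linter.unusedSectionVars false

section perturb

variable {E I : Type*} [MeasurableSpace E] [DecidableEq I] [Countable I] [MeasurableSpace I]
  [MeasurableSingletonClass I]
variable {ν : Measure E} {v : E → E → ℝ} {cell : E → I} {C : Finset I} {V : I → I → ℝ}
  {K J : ℝ}

lemma badF_nonneg (hK : 0 < K) (hV : ∀ c d, 0 ≤ V c d) (c : I) {n : ℕ} (x : Fin n → E) :
    0 ≤ badF cell V K c x := by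
  classical
  unfold badF
  split_ifs with h
  · have hPhi0 : 0 ≤ Phi cell V c x := Finset.sum_nonneg fun j _ => hV _ _
    have : 0 < K * ((cnt cell c x : ℝ) - 1) := lt_of_le_of_lt (by positivity) h
    have := (mul_pos_iff_of_pos_left hK).mp this
    positivity
  · exact le_rfl

/-- squared cell count as an `ℝ≥0∞`-valued function -/
noncomputable def cntSq (cell : E → I) (c : I) (n : ℕ) (x : Fin n → E) : ℝ≥0∞ :=
  ENNReal.ofReal ((cnt cell c x : ℝ) ^ 2)

lemma cntSq_measurable (hcell : Measurable cell) (c : I) (n : ℕ) :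
    Measurable (cntSq cell c n) :=
  ENNReal.measurable_ofReal.comp ((cnt_measurable hcell c n).pow_const 2)

lemma cnt_le {c : I} {n : ℕ} (x : Fin n → E) : cnt cell c x ≤ n := by
  unfold cnt
  refine (Finset.card_filter_le _ _).trans ?_
  simp

lemma Hyp.cntSq_lt_top [IsFiniteMeasure ν] (H : Hyp ν v cell C V K J) (c : I) :
    gInt ν v (cntSq cell c) < ∞ := by
  refine lt_of_le_of_lt (gInt_mono_ae fun n => Eventually.of_forall fun x => ?_) H.gInt_sq_lt_top
  unfold cntSq
  rw [ENNReal.ofReal_pow (by positivity), ENNReal.ofReal_natCast]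
  exact pow_le_pow_left' (by exact_mod_cast cnt_le x) 2

/-- Uniform local second moment bound. -/
theorem Hyp.moment [IsFiniteMeasure ν] (H : Hyp ν v cell C V K J) {c : I} (hc : c ∈ C) :
    gInt ν v (cntSq cell c) ≤ 5 * Xi ν v := by
  classical
  have hK := H.hK
  have hJ0 := H.hJ0
  set Y : I → ℝ≥0∞ := fun c => gInt ν v (cntSq cell c) with hY
  obtain ⟨m, hm, hmax⟩ := Finset.exists_max_image C Y ⟨c, hc⟩
  have hstep : Y m ≤ ENNReal.ofReal (5/2) * Xi ν v + ENNReal.ofReal (1/2) * Y m := by
    have h1 : Y m ≤ gInt ν v (fun n x => (2 * ENNReal.ofReal (badF cell V K m x) + 2) +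
        ∑ d ∈ C, ENNReal.ofReal (8 * J / K ^ 2 * V m d) * cntSq cell d n x) := by
      refine gInt_mono_ae fun n => ?_
      filter_upwards [ae_cells H.hC n] with x hx
      have h2 := cnt_sq_le hK H.hV0 H.hJ hm hx
      unfold cntSq
      refine (ENNReal.ofReal_le_ofReal h2).trans (le_of_eq ?_)
      have hb := badF_nonneg hK H.hV0 m x (cell := cell)
      have hS0 : 0 ≤ ∑ d ∈ C, V m d * (cnt cell d x : ℝ) ^ 2 :=
        Finset.sum_nonneg fun d _ => mul_nonneg (H.hV0 m d) (sq_nonneg _)
      rw [ENNReal.ofReal_add (by positivity) (by positivity),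
        ENNReal.ofReal_add (by positivity) (by norm_num), ENNReal.ofReal_mul (by norm_num)]
      rw [Finset.mul_sum, ENNReal.ofReal_sum_of_nonneg]
      · congr 1
        · norm_num
        · refine Finset.sum_congr rfl fun d _ => ?_
          rw [← mul_assoc, ENNReal.ofReal_mul]
          have := H.hV0 m d
          positivity
      · intro d _
        have := H.hV0 m d
        positivity
    refine h1.trans ?_
    have mb := fun n => ENNReal.measurable_ofReal.comp (badF_measurable H.hcell V K m n)
    rw [gInt_add H.hv (F := fun n x => (2 * ENNReal.ofReal (badF cell V K m x) + 2))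
      (fun n => ((mb n).const_mul 2).add_const 2)]
    rw [gInt_add H.hv (F := fun n x => (2 * ENNReal.ofReal (badF cell V K m x)))
      (fun n => ((mb n).const_mul 2))]
    rw [gInt_const_mul H.hv (F := fun n x => ENNReal.ofReal (badF cell V K m x)) mb]
    rw [gInt_finset_sum H.hv C (F := fun d n x =>
      ENNReal.ofReal (8 * J / K ^ 2 * V m d) * cntSq cell d n x)
      (fun d n => (cntSq_measurable H.hcell d n).const_mul _)]
    have h3 : ∀ d ∈ C, gInt ν v (fun n x =>
        ENNReal.ofReal (8 * J / K ^ 2 * V m d) * cntSq cell d n x) ≤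
        ENNReal.ofReal (8 * J / K ^ 2 * V m d) * Y m := by
      intro d hd
      rw [gInt_const_mul H.hv (fun n => cntSq_measurable H.hcell d n)]
      exact mul_le_mul_right (hmax d hd) _
    have h4 : gInt ν v (fun _ _ => (2 : ℝ≥0∞)) = 2 * Xi ν v := by
      have := gInt_const_mul (ν := ν) H.hv (F := fun _ _ => (1 : ℝ≥0∞))
        (fun n => measurable_const) 2
      simpa [Xi] using this
    rw [h4]
    have h5 : 2 * gInt ν v (fun _ x => ENNReal.ofReal (badF cell V K m x)) ≤
        ENNReal.ofReal (1/2) * Xi ν v := by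
      refine (mul_le_mul_right (H.bad_bound m) _).trans ?_
      have h6 := H.hM m hm
      calc 2 * (ENNReal.ofReal (2 / K) * ν (cell ⁻¹' {m}) * Xi ν v)
          ≤ 2 * (ENNReal.ofReal (2 / K) * ENNReal.ofReal (K / 8) * Xi ν v) := by gcongr
        _ = ENNReal.ofReal (1/2) * Xi ν v := by
            rw [← ENNReal.ofReal_mul (by positivity), ← mul_assoc]
            congr 1
            have : (2 : ℝ≥0∞) = ENNReal.ofReal 2 := by norm_num
            rw [this, ← ENNReal.ofReal_mul (by norm_num)]
            congr 1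
            field_simp
            norm_num
    have h7 : ∑ d ∈ C, gInt ν v (fun n x =>
        ENNReal.ofReal (8 * J / K ^ 2 * V m d) * cntSq cell d n x) ≤
        ENNReal.ofReal (1/2) * Y m := by
      refine (Finset.sum_le_sum h3).trans ?_
      rw [← Finset.sum_mul]
      refine mul_le_mul_left ?_ _
      rw [← ENNReal.ofReal_sum_of_nonneg]
      · refine ENNReal.ofReal_le_ofReal ?_
        rw [← Finset.mul_sum]
        calc 8 * J / K ^ 2 * ∑ d ∈ C, V m d ≤ 8 * J / K ^ 2 * J :=
              mul_le_mul_of_nonneg_left (H.hJ m hm) (by positivity)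
          _ ≤ 1 / 2 := by
              rw [div_mul_eq_mul_div, div_le_iff₀ (by positivity)]
              nlinarith [H.hKJ]
      · intro d _
        have := H.hV0 m d
        positivity
    have h8 : (2 : ℝ≥0∞) * Xi ν v + ENNReal.ofReal (1/2) * Xi ν v =
        ENNReal.ofReal (5/2) * Xi ν v := by
      rw [← add_mul]
      congr 1
      have : (2 : ℝ≥0∞) = ENNReal.ofReal 2 := by norm_num
      rw [this, ← ENNReal.ofReal_add (by norm_num) (by norm_num)]
      norm_num
    rw [← h8, add_comm (2 * Xi ν v)]
    exact add_le_add (add_le_add h5 le_rfl) h7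
  have hfin : Y m ≠ ∞ := (H.cntSq_lt_top m).ne
  have hXfin : Xi ν v ≠ ∞ := H.Xi_lt_top.ne
  have h9 : Y m ≤ 5 * Xi ν v := by
    have e1 := ENNReal.toReal_mono (by finiteness) hstep
    rw [ENNReal.toReal_add (by finiteness) (by finiteness), ENNReal.toReal_mul,
      ENNReal.toReal_mul, ENNReal.toReal_ofReal (by norm_num),
      ENNReal.toReal_ofReal (by norm_num)] at e1
    rw [← ENNReal.toReal_le_toReal hfin (by finiteness), ENNReal.toReal_mul]
    simp only [ENNReal.toReal_ofNat]
    linarith
  exact (hmax c hc).trans h9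

end perturb

end Vale.Agent.P171
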