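import Vale.Agent.P171.Geom

open MeasureTheory Set Filter Topology
open scoped ENNReal NNReal BigOperators

namespace Vale.Agent.P171

/-- Ranges of the attractive steps. -/
def Rn (k : ℕ) : ℕ := 8 * (k + 1)

lemma Rn_pos (k : ℕ) : 0 < Rn k := by unfold Rn; omega

lemma one_le_Rn (k : ℕ) : (1 : ℝ) ≤ Rn k := by exact_mod_cast Rn_pos k

/-- Normalised step of range `R`. -/
noncomputable def gfun (R r : ℝ) : ℝ := if r < R then (R ^ 3)⁻¹ else 0

/-- Attractive part: superposition of normalised steps with weights `a k`. -/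
noncomputable def attr (a : ℕ → ℝ) (r : ℝ) : ℝ := ∑' k, a k * gfun (Rn k) r

/-- The potential: repulsive step of height `K` and range `2`, minus the attractive part. -/
noncomputable def phi (K : ℝ) (a : ℕ → ℝ) (r : ℝ) : ℝ := (if r < 2 then K else 0) - attr a r

/-- Pair function of a radial potential. -/
noncomputable def pv (φ : ℝ → ℝ) (x y : E3) : ℝ := φ (dist x y)

/-- Lattice kernel dominating a step of range `R`. -/
noncomputable def gker (R : ℕ) (c d : Z3) : ℝ := if ∀ i, |c i - d i| ≤ (R : ℤ) then ((R : ℝ) ^ 3)⁻¹ else 0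

/-- Lattice kernel dominating the attractive part. -/
noncomputable def Vker (a : ℕ → ℝ) (c d : Z3) : ℝ := ∑' k, a k * gker (Rn k) c d

/-- Admissible weights: nonnegative and summable. -/
structure Nice (a : ℕ → ℝ) : Prop where
  nonneg : ∀ k, 0 ≤ a k
  summable : Summable a

lemma gfun_nonneg (k : ℕ) (r : ℝ) : 0 ≤ gfun (Rn k) r := by
  unfold gfun; split_ifs
  · positivity
  · exact le_rfl

lemma inv_cube_le_one (k : ℕ) : (((Rn k : ℕ) : ℝ) ^ 3)⁻¹ ≤ 1 := by
  have h := one_le_Rn k
  exact inv_le_one_of_one_le₀ (one_le_pow₀ h)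

lemma gfun_le_one (k : ℕ) (r : ℝ) : gfun (Rn k) r ≤ 1 := by
  unfold gfun; split_ifs
  · exact inv_cube_le_one k
  · norm_num

lemma gker_nonneg (R : ℕ) (c d : Z3) : 0 ≤ gker R c d := by
  unfold gker; split_ifs
  · positivity
  · exact le_rfl

lemma gker_le_one (k : ℕ) (c d : Z3) : gker (Rn k) c d ≤ 1 := by
  unfold gker; split_ifs
  · exact inv_cube_le_one k
  · norm_num

lemma gker_symm (R : ℕ) (c d : Z3) : gker R c d = gker R d c := by
  unfold gker
  congr 1
  simp_rw [abs_sub_comm]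

lemma Nice.summable_gfun {a : ℕ → ℝ} (h : Nice a) (r : ℝ) :
    Summable fun k => a k * gfun (Rn k) r :=
  Summable.of_nonneg_of_le (fun k => mul_nonneg (h.nonneg k) (gfun_nonneg k r))
    (fun k => mul_le_of_le_one_right (h.nonneg k) (gfun_le_one k r)) h.summable

lemma Nice.summable_gker {a : ℕ → ℝ} (h : Nice a) (c d : Z3) :
    Summable fun k => a k * gker (Rn k) c d :=
  Summable.of_nonneg_of_le (fun k => mul_nonneg (h.nonneg k) (gker_nonneg _ c d))
    (fun k => mul_le_of_le_one_right (h.nonneg k) (gker_le_one k c d)) h.summable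

lemma Nice.attr_nonneg {a : ℕ → ℝ} (h : Nice a) (r : ℝ) : 0 ≤ attr a r :=
  tsum_nonneg fun k => mul_nonneg (h.nonneg k) (gfun_nonneg k r)

lemma Nice.Vker_nonneg {a : ℕ → ℝ} (h : Nice a) (c d : Z3) : 0 ≤ Vker a c d :=
  tsum_nonneg fun k => mul_nonneg (h.nonneg k) (gker_nonneg _ c d)

lemma Vker_symm (a : ℕ → ℝ) (c d : Z3) : Vker a c d = Vker a d c := by
  unfold Vker; simp_rw [gker_symm _ c d]

lemma Nice.attr_le {a : ℕ → ℝ} (h : Nice a) (r : ℝ) : attr a r ≤ ∑' k, a k :=
  Summable.tsum_le_tsum (fun k => mul_le_of_le_one_right (h.nonneg k) (gfun_le_one k r))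
    (h.summable_gfun r) h.summable

lemma Nice.attr_antitone {a : ℕ → ℝ} (h : Nice a) : Antitone (attr a) := by
  intro r s hrs
  refine Summable.tsum_le_tsum (fun k => mul_le_mul_of_nonneg_left ?_ (h.nonneg k))
    (h.summable_gfun s) (h.summable_gfun r)
  unfold gfun
  split_ifs with h1 h2
  · exact le_rfl
  · exact absurd (lt_of_le_of_lt hrs h1) h2
  · positivity
  · exact le_rfl

lemma Nice.attr_measurable {a : ℕ → ℝ} (h : Nice a) : Measurable (attr a) :=
  h.attr_antitone.measurable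

lemma Nice.phi_measurable {a : ℕ → ℝ} (h : Nice a) (K : ℝ) : Measurable (phi K a) := by
  unfold phi
  exact (Measurable.ite (measurableSet_lt measurable_id measurable_const) measurable_const
    measurable_const).sub h.attr_measurable

lemma pv_measurable {φ : ℝ → ℝ} (h : Measurable φ) : Measurable (Function.uncurry (pv φ)) :=
  h.comp measurable_dist

lemma pv_symm (φ : ℝ → ℝ) (x y : E3) : pv φ x y = pv φ y x := by
  unfold pv; rw [dist_comm]

lemma gfun_le_gker {R : ℕ} {x y : E3} :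
    gfun R (dist x y) ≤ gker R (cell x) (cell y) := by
  unfold gfun
  split_ifs with h
  · unfold gker
    rw [if_pos (fun i => cell_diff_le h i)]
  · exact gker_nonneg _ _ _

lemma Nice.attr_le_Vker {a : ℕ → ℝ} (h : Nice a) (x y : E3) :
    attr a (dist x y) ≤ Vker a (cell x) (cell y) :=
  Summable.tsum_le_tsum (fun k => mul_le_mul_of_nonneg_left gfun_le_gker (h.nonneg k))
    (h.summable_gfun _) (h.summable_gker _ _)

lemma card_near_le (C : Finset Z3) (c : Z3) (R : ℕ) :
    (C.filter (fun d => ∀ i, |c i - d i| ≤ (R : ℤ))).card ≤ (2 * R + 1) ^ 3 := by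
  have hsub : C.filter (fun d => ∀ i, |c i - d i| ≤ (R : ℤ)) ⊆
      Fintype.piFinset fun i => Finset.Icc (c i - R) (c i + R) := by
    intro d hd
    rw [Fintype.mem_piFinset]
    intro i
    have := (Finset.mem_filter.mp hd).2 i
    rw [abs_le] at this
    rw [Finset.mem_Icc]
    constructor <;> linarith [this.1, this.2]
  refine (Finset.card_le_card hsub).trans ?_
  rw [Fintype.card_piFinset]
  have h1 : ∀ i : Fin 3, (Finset.Icc (c i - (R : ℤ)) (c i + R)).card = 2 * R + 1 := by
    intro i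
    rw [Int.card_Icc]
    omega
  simp_rw [h1]
  simp

lemma sum_gker_le (C : Finset Z3) (c : Z3) {R : ℕ} (hR : 0 < R) :
    ∑ d ∈ C, gker R c d ≤ 27 := by
  unfold gker
  rw [← Finset.sum_filter, Finset.sum_const, nsmul_eq_mul]
  have hR' : (1 : ℝ) ≤ R := by exact_mod_cast hR
  have h1 : ((C.filter (fun d => ∀ i, |c i - d i| ≤ (R : ℤ))).card : ℝ) ≤ (2 * R + 1) ^ 3 := by
    exact_mod_cast card_near_le C c R
  have h2 : (2 * (R : ℝ) + 1) ^ 3 ≤ 27 * R ^ 3 := by
    have : 2 * (R : ℝ) + 1 ≤ 3 * R := by linarith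
    calc (2 * (R : ℝ) + 1) ^ 3 ≤ (3 * R) ^ 3 := pow_le_pow_left₀ (by positivity) this 3
      _ = 27 * R ^ 3 := by ring
  rw [← div_eq_mul_inv, div_le_iff₀ (by positivity)]
  linarith

lemma Nice.sum_Vker_le {a : ℕ → ℝ} (h : Nice a) (C : Finset Z3) (c : Z3) :
    ∑ d ∈ C, Vker a c d ≤ 27 * ∑' k, a k := by
  unfold Vker
  rw [← Summable.tsum_finsetSum (fun d _ => h.summable_gker c d), ← tsum_mul_left]
  refine Summable.tsum_le_tsum (fun k => ?_) (summable_sum fun d _ => h.summable_gker c d)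
    (h.summable.mul_left 27)
  rw [← Finset.mul_sum, mul_comm (27 : ℝ)]
  exact mul_le_mul_of_nonneg_left (sum_gker_le C c (Rn_pos k)) (h.nonneg k)

end Vale.Agent.P171
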