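import Vale.Agent.P171.Potential

open MeasureTheory Set Filter Topology
open scoped ENNReal NNReal BigOperators

namespace Vale.Agent.P171

lemma Hyp.Xi_le {E I : Type*} [MeasurableSpace E] [DecidableEq I] [Countable I]
    [MeasurableSpace I] [MeasurableSingletonClass I]
    {ν : Measure E} [IsFiniteMeasure ν] {v : E → E → ℝ} {cell : E → I} {C : Finset I}
    {V : I → I → ℝ} {K J : ℝ} (H : Hyp ν v cell C V K J) :
    Xi ν v ≤ ENNReal.ofReal (Real.exp (Real.exp (K / 2) * (ν univ).toReal)) := by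
  rw [Xi_eq, ← tsum_exp_bound _ (by positivity)]
  refine ENNReal.tsum_le_tsum fun n => mul_le_mul_right ?_ _
  unfold bInt
  calc ∫⁻ x : Fin n → E, bolt v x ∂(Measure.pi fun _ => ν)
      ≤ ∫⁻ _ : Fin n → E, ENNReal.ofReal (Real.exp (K / 2)) ^ n ∂(Measure.pi fun _ => ν) := by
        refine lintegral_mono_ae ?_
        filter_upwards [ae_cells H.hC n] with x hx
        exact H.bolt_le hx
    _ = ENNReal.ofReal (Real.exp (K / 2)) ^ n * (ν univ) ^ n := by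
        rw [lintegral_const, Measure.pi_univ]; simp
    _ = _ := by
        rw [ENNReal.ofReal_mul (Real.exp_pos _).le, ENNReal.ofReal_toReal (measure_ne_top ν _),
          mul_pow]

/-- Admissible weights. -/
structure Wadm (K : ℝ) (a : ℕ → ℝ) : Prop where
  nice : Nice a
  hK : 108 * (∑' k, a k + 1) ≤ K

/-- Admissible parameters. -/
structure Adm (K : ℝ) (a : ℕ → ℝ) (z : ℝ≥0) : Prop extends Wadm K a where
  hz : 8 * (z : ℝ) ≤ K

lemma Nice.tsum_nonneg {a : ℕ → ℝ} (h : Nice a) : 0 ≤ ∑' k, a k := _root_.tsum_nonneg h.nonneg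

lemma Wadm.K_pos {K : ℝ} {a : ℕ → ℝ} (h : Wadm K a) : 0 < K := by
  have := h.nice.tsum_nonneg
  linarith [h.hK]

lemma hyp_box {n : ℕ} {z : ℝ≥0} {v : E3 → E3 → ℝ} {V : Z3 → Z3 → ℝ} {K J : ℝ}
    (hv : Measurable (Function.uncurry v)) (hs : ∀ a b, v a b = v b a)
    (hV0 : ∀ c d, 0 ≤ V c d) (hVs : ∀ c d, V c d = V d c)
    (hJ : ∀ c ∈ boxCells n, ∑ d ∈ boxCells n, V c d ≤ J) (hJ0 : 0 ≤ J)
    (hlow : ∀ y z, (if cell y = cell z then K else 0) - V (cell y) (cell z) ≤ v y z)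
    (hK : 0 < K) (hKJ : 4 * J ≤ K) (hz : 8 * (z : ℝ) ≤ K) :
    Hyp ((base z).restrict (hbox 0 n)) v cell (boxCells n) V K J where
  hv := hv
  hs := hs
  hcell := measurable_cell
  hC := by
    refine (ae_restrict_iff' (measurableSet_hbox _ _)).mpr (Eventually.of_forall fun y hy => ?_)
    exact cell_mem_boxCells hy
  hV0 := hV0
  hVs := hVs
  hJ := hJ
  hJ0 := hJ0
  hlow := fun y z _ _ => hlow y z
  hK := hK
  hKJ := hKJ
  hM := by
    intro c _
    refine (Measure.restrict_apply_le _ _).trans ?_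
    rw [base_apply, volume_cell, mul_one]
    rw [← ENNReal.ofReal_coe_nnreal]
    refine ENNReal.ofReal_le_ofReal ?_
    linarith

lemma pv_phi_lower {K : ℝ} (hK : 0 ≤ K) {a : ℕ → ℝ} (h : Nice a) (x y : E3) :
    (if cell x = cell y then K else 0) - Vker a (cell x) (cell y) ≤ pv (phi K a) x y := by
  unfold pv phi
  have h1 := h.attr_le_Vker x y
  have h2 : (if cell x = cell y then K else 0) ≤ (if dist x y < 2 then K else 0) := by
    by_cases hc : cell x = cell y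
    · rw [if_pos hc, if_pos (dist_lt_two_of_cell_eq hc)]
    · rw [if_neg hc]; split_ifs
      · exact hK
      · exact le_rfl
  linarith

lemma Adm.hyp {K : ℝ} {a : ℕ → ℝ} {z : ℝ≥0} (h : Adm K a z) (n : ℕ) :
    Hyp ((base z).restrict (hbox 0 n)) (pv (phi K a)) cell (boxCells n) (Vker a) K
      (27 * ∑' k, a k) :=
  hyp_box (pv_measurable (h.nice.phi_measurable K)) (pv_symm _) h.nice.Vker_nonneg (Vker_symm a)
    (fun c _ => h.nice.sum_Vker_le _ c) (by have := h.nice.tsum_nonneg; positivity)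
    (pv_phi_lower h.K_pos.le h.nice) h.K_pos (by linarith [h.hK]) h.hz

/-- Partition function of the cube `[0, L)^3`. -/
noncomputable def Xb (K : ℝ) (a : ℕ → ℝ) (z : ℝ≥0) (L : ℝ) : ℝ≥0∞ :=
  Xi ((base z).restrict (hbox 0 L)) (pv (phi K a))

lemma hbox_mono {l l' : ℝ} (h : l ≤ l') : hbox 0 l ⊆ hbox 0 l' := by
  intro x hx i
  have := hx i
  simp only [Pi.zero_apply, zero_add] at this ⊢
  exact ⟨this.1, lt_of_lt_of_le this.2 h⟩

lemma Xb_mono (K : ℝ) (a : ℕ → ℝ) (z : ℝ≥0) : Monotone (Xb K a z) := fun _ _ h =>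
  Xi_restrict_mono _ (hbox_mono h)

lemma one_le_Xb (K : ℝ) (a : ℕ → ℝ) (z : ℝ≥0) (L : ℝ) : 1 ≤ Xb K a z L :=
  Xi_ge_one _ _

lemma Wadm.energy_ge {K : ℝ} {a : ℕ → ℝ} (h : Wadm K a) {n : ℕ} (x : Fin n → E3) :
    -(K / 2) * n ≤ energy (pv (phi K a)) x := by
  have h1 := Vale.Agent.P171.energy_ge (cell := cell)
    (C := Finset.univ.image fun i => cell (x i)) (x := x)
    (fun i => Finset.mem_image_of_mem _ (Finset.mem_univ i)) h.nice.Vker_nonneg (Vker_symm a)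
    (fun c _ => h.nice.sum_Vker_le _ c) (fun y z _ _ => pv_phi_lower h.K_pos.le h.nice y z)
  have h2 := h.nice.tsum_nonneg
  have h3 : 0 ≤ (K - 27 * ∑' k, a k) * ∑ c ∈ Finset.univ.image (fun i => cell (x i)),
      (cnt cell c x : ℝ)^2 := by
    refine mul_nonneg ?_ (Finset.sum_nonneg fun c _ => sq_nonneg _)
    linarith [h.hK]
  linarith

lemma Wadm.bolt_le {K : ℝ} {a : ℕ → ℝ} (h : Wadm K a) {n : ℕ} (x : Fin n → E3) :
    bolt (pv (phi K a)) x ≤ ENNReal.ofReal (Real.exp (K / 2)) ^ n := by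
  unfold bolt
  rw [← ENNReal.ofReal_pow (Real.exp_pos _).le, ← Real.exp_nat_mul]
  refine ENNReal.ofReal_le_ofReal (Real.exp_le_exp.mpr ?_)
  linarith [h.energy_ge x]

lemma Wadm.Xi_le {K : ℝ} {a : ℕ → ℝ} (h : Wadm K a) (ν : Measure E3) [IsFiniteMeasure ν] :
    Xi ν (pv (phi K a)) ≤ ENNReal.ofReal (Real.exp (Real.exp (K / 2) * (ν univ).toReal)) := by
  rw [Xi_eq, ← tsum_exp_bound _ (by positivity)]
  refine ENNReal.tsum_le_tsum fun n => mul_le_mul_right ?_ _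
  unfold bInt
  calc ∫⁻ x : Fin n → E3, bolt (pv (phi K a)) x ∂(Measure.pi fun _ => ν)
      ≤ ∫⁻ _ : Fin n → E3, ENNReal.ofReal (Real.exp (K / 2)) ^ n ∂(Measure.pi fun _ => ν) :=
        lintegral_mono fun x => h.bolt_le x
    _ = ENNReal.ofReal (Real.exp (K / 2)) ^ n * (ν univ) ^ n := by
        rw [lintegral_const, Measure.pi_univ]; simp
    _ = _ := by
        rw [ENNReal.ofReal_mul (Real.exp_pos _).le, ENNReal.ofReal_toReal (measure_ne_top ν _),
          mul_pow]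

lemma base_box_univ (z : ℝ≥0) (p : Fin 3 → ℝ) {l : ℝ} (hl : 0 ≤ l) :
    ((base z).restrict (hbox p l)) univ = ENNReal.ofReal (z * l ^ 3) := by
  rw [Measure.restrict_apply_univ, base_apply, volume_hbox p hl,
    ENNReal.ofReal_mul (NNReal.coe_nonneg z), ENNReal.ofReal_coe_nnreal]

lemma Wadm.Xb_le {K : ℝ} {a : ℕ → ℝ} (h : Wadm K a) (z : ℝ≥0) (n : ℕ) :
    Xb K a z n ≤ ENNReal.ofReal (Real.exp (Real.exp (K / 2) * z * (n : ℝ) ^ 3)) := by
  refine (h.Xi_le _).trans (le_of_eq ?_)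
  rw [base_box_univ z 0 (by positivity), ENNReal.toReal_ofReal (by positivity), mul_assoc]

lemma Wadm.Xb_lt_top {K : ℝ} {a : ℕ → ℝ} {z : ℝ≥0} (h : Wadm K a) (L : ℝ) :
    Xb K a z L < ∞ :=
  lt_of_le_of_lt (Xb_mono K a z (Nat.le_ceil L))
    (lt_of_le_of_lt (h.Xb_le z ⌈L⌉₊) ENNReal.ofReal_lt_top)

/-- Logarithm of the partition function. -/
noncomputable def lX (K : ℝ) (a : ℕ → ℝ) (z : ℝ≥0) (L : ℝ) : ℝ := Real.log (Xb K a z L).toReal

lemma Wadm.one_le_toReal {K : ℝ} {a : ℕ → ℝ} {z : ℝ≥0} (h : Wadm K a) (L : ℝ) :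
    1 ≤ (Xb K a z L).toReal := by
  have := ENNReal.toReal_mono (h.Xb_lt_top L).ne (one_le_Xb K a z L)
  simpa using this

lemma Wadm.lX_nonneg {K : ℝ} {a : ℕ → ℝ} {z : ℝ≥0} (h : Wadm K a) (L : ℝ) : 0 ≤ lX K a z L :=
  Real.log_nonneg (h.one_le_toReal L)

lemma Wadm.lX_mono {K : ℝ} {a : ℕ → ℝ} {z : ℝ≥0} (h : Wadm K a) {L L' : ℝ} (hL : L ≤ L') :
    lX K a z L ≤ lX K a z L' :=
  Real.log_le_log (by linarith [h.one_le_toReal (z := z) L])
    (ENNReal.toReal_mono (h.Xb_lt_top L').ne (Xb_mono K a z hL))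

lemma Wadm.exp_lX {K : ℝ} {a : ℕ → ℝ} {z : ℝ≥0} (h : Wadm K a) (L : ℝ) :
    ENNReal.ofReal (Real.exp (lX K a z L)) = Xb K a z L := by
  unfold lX
  rw [Real.exp_log (by linarith [h.one_le_toReal (z := z) L]), ENNReal.ofReal_toReal (h.Xb_lt_top L).ne]

lemma Wadm.lX_le {K : ℝ} {a : ℕ → ℝ} {z : ℝ≥0} (h : Wadm K a) (n : ℕ) :
    lX K a z n ≤ Real.exp (K / 2) * z * (n : ℝ) ^ 3 := by
  have h2 := h.Xb_le z n
  unfold lX
  rw [Real.log_le_iff_le_exp (by linarith [h.one_le_toReal (z := z) n])]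
  have := ENNReal.toReal_mono ENNReal.ofReal_ne_top h2
  rwa [ENNReal.toReal_ofReal (Real.exp_pos _).le] at this

lemma Adm.one_le_toReal {K : ℝ} {a : ℕ → ℝ} {z : ℝ≥0} (h : Adm K a z) (L : ℝ) :
    1 ≤ (Xb K a z L).toReal := h.toWadm.one_le_toReal L

lemma Adm.lX_nonneg {K : ℝ} {a : ℕ → ℝ} {z : ℝ≥0} (h : Adm K a z) (L : ℝ) : 0 ≤ lX K a z L :=
  h.toWadm.lX_nonneg L

lemma Adm.exp_lX {K : ℝ} {a : ℕ → ℝ} {z : ℝ≥0} (h : Adm K a z) (L : ℝ) :
    ENNReal.ofReal (Real.exp (lX K a z L)) = Xb K a z L := h.toWadm.exp_lX L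

lemma Adm.Xb_lt_top {K : ℝ} {a : ℕ → ℝ} {z : ℝ≥0} (h : Adm K a z) (L : ℝ) :
    Xb K a z L < ∞ := h.toWadm.Xb_lt_top L

/-- translation invariance -/
lemma Xi_translate {φ : ℝ → ℝ} (hφ : Measurable φ) (z : ℝ≥0) (p : Fin 3 → ℝ) (l : ℝ) :
    Xi ((base z).restrict (hbox p l)) (pv φ) = Xi ((base z).restrict (hbox 0 l)) (pv φ) := by
  set P : E3 := WithLp.toLp 2 p with hP
  have hpre : (fun x : E3 => x + P) ⁻¹' (hbox p l) = hbox 0 l := by
    ext x
    simp only [Set.mem_preimage, hbox, Set.mem_ofPred_eq]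
    refine forall_congr' fun i => ?_
    have : (x + P) i = x i + p i := rfl
    rw [this]
    simp only [Pi.zero_apply, zero_add]
    constructor
    · rintro ⟨h1, h2⟩; constructor <;> linarith
    · rintro ⟨h1, h2⟩; constructor <;> linarith
  have hmp : MeasurePreserving (fun x : E3 => x + P) (base z) (base z) := by
    unfold base
    exact (measurePreserving_add_right volume P).smul_measure _
  have h2 := hmp.restrict_preimage (measurableSet_hbox p l)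
  rw [hpre] at h2
  refine Xi_map (pv_measurable hφ) h2 fun x y => ?_
  unfold pv
  rw [dist_add_right]

end Vale.Agent.P171
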