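import Vale.Agent.P171.Basic

open MeasureTheory Set Filter Topology
open scoped ENNReal BigOperators

namespace Vale.Agent.P171

section energysplit

variable {E ι : Type*} [Fintype ι] [DecidableEq ι]

lemma energy_split {v : E → E → ℝ} (hs : ∀ a b, v a b = v b a) (p : ι → Prop) [DecidablePred p]
    (x : ι → E) :
    energy v x = energy v (fun i : {i // p i} => x i) + energy v (fun i : {i // ¬ p i} => x i)
      + ∑ i : {i // p i}, ∑ j : {i // ¬ p i}, v (x i) (x j) := by
  unfold energy
  rw [← Fintype.sum_subtype_add_sum_subtype p (fun i => ∑ j, if i = j then 0 else v (x i) (x j))]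
  have h1 : ∀ i : {i // p i}, (∑ j, if (i : ι) = j then 0 else v (x i) (x j)) =
      (∑ j : {i // p i}, if i = j then 0 else v (x i) (x j)) +
        ∑ j : {i // ¬ p i}, v (x i) (x j) := by
    intro i
    rw [← Fintype.sum_subtype_add_sum_subtype p (fun j => if (i : ι) = j then 0 else v (x i) (x j))]
    congr 1
    · refine Finset.sum_congr rfl fun j _ => ?_
      simp [Subtype.ext_iff]
    · refine Finset.sum_congr rfl fun j _ => ?_
      rw [if_neg]
      intro hij
      exact j.2 (hij ▸ i.2)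
  have h2 : ∀ i : {i // ¬ p i}, (∑ j, if (i : ι) = j then 0 else v (x i) (x j)) =
      (∑ j : {i // ¬ p i}, if i = j then 0 else v (x i) (x j)) +
        ∑ j : {i // p i}, v (x j) (x i) := by
    intro i
    rw [← Fintype.sum_subtype_add_sum_subtype p (fun j => if (i : ι) = j then 0 else v (x i) (x j)),
      add_comm]
    congr 1
    · refine Finset.sum_congr rfl fun j _ => ?_
      simp [Subtype.ext_iff]
    · refine Finset.sum_congr rfl fun j _ => ?_
      rw [if_neg, hs]
      intro hij
      exact i.2 (hij ▸ j.2)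
  simp_rw [h1, h2]
  rw [Finset.sum_add_distrib, Finset.sum_add_distrib]
  rw [Finset.sum_comm (f := fun (i : {i // ¬ p i}) (j : {i // p i}) => v (x j) (x i))]
  ring

end energysplit

lemma bolt_split_le {E ι : Type*} [Fintype ι] [DecidableEq ι] {v : E → E → ℝ}
    (hs : ∀ a b, v a b = v b a) (p : ι → Prop) [DecidablePred p] (x : ι → E)
    (h : ∀ i j, p i → ¬ p j → 0 ≤ v (x i) (x j)) :
    bolt v x ≤ bolt v (fun i : {i // p i} => x i) * bolt v (fun i : {i // ¬ p i} => x i) := by
  unfold bolt
  rw [← ENNReal.ofReal_mul (Real.exp_pos _).le, ← Real.exp_add]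
  refine ENNReal.ofReal_le_ofReal (Real.exp_le_exp.mpr ?_)
  rw [energy_split hs p x]
  have : 0 ≤ ∑ i : {i // p i}, ∑ j : {i // ¬ p i}, v (x i) (x j) :=
    Finset.sum_nonneg fun i _ => Finset.sum_nonneg fun j _ => h _ _ i.2 j.2
  linarith

lemma bolt_split_ge {E ι : Type*} [Fintype ι] [DecidableEq ι] {v : E → E → ℝ}
    (hs : ∀ a b, v a b = v b a) (p : ι → Prop) [DecidablePred p] (x : ι → E)
    (h : ∀ i j, p i → ¬ p j → v (x i) (x j) ≤ 0) :
    bolt v (fun i : {i // p i} => x i) * bolt v (fun i : {i // ¬ p i} => x i) ≤ bolt v x := by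
  unfold bolt
  rw [← ENNReal.ofReal_mul (Real.exp_pos _).le, ← Real.exp_add]
  refine ENNReal.ofReal_le_ofReal (Real.exp_le_exp.mpr ?_)
  rw [energy_split hs p x]
  have : ∑ i : {i // p i}, ∑ j : {i // ¬ p i}, v (x i) (x j) ≤ 0 :=
    Finset.sum_nonpos fun i _ => Finset.sum_nonpos fun j _ => h _ _ i.2 j.2
  linarith

section meas

variable {E : Type*} [MeasurableSpace E]

/-- Reindexing of the Boltzmann integral. -/
lemma lintegral_bolt_reindex {ι κ : Type*} [Fintype ι] [DecidableEq ι] [Fintype κ] [DecidableEq κ]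
    {ν : Measure E} [SigmaFinite ν] {v : E → E → ℝ} (hv : Measurable (Function.uncurry v))
    (e : ι ≃ κ) :
    ∫⁻ x : ι → E, bolt v x ∂(Measure.pi fun _ => ν) =
      ∫⁻ x : κ → E, bolt v x ∂(Measure.pi fun _ => ν) := by
  have hp := measurePreserving_piCongrLeft (fun _ : κ => ν) e
  rw [← hp.lintegral_comp (bolt_measurable hv)]
  refine lintegral_congr fun x => ?_
  rw [← bolt_comp_equiv v e]
  congr 1
  funext i
  simp [MeasurableEquiv.coe_piCongrLeft]

/-- `n`-particle Boltzmann integral. -/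
noncomputable def bInt (ν : Measure E) (v : E → E → ℝ) (n : ℕ) : ℝ≥0∞ :=
  ∫⁻ x : Fin n → E, bolt v x ∂(Measure.pi fun _ => ν)

lemma Xi_eq (ν : Measure E) (v : E → E → ℝ) :
    Xi ν v = ∑' n : ℕ, ((n.factorial : ℕ) : ℝ≥0∞)⁻¹ * bInt ν v n := by
  unfold Xi gInt wInt bInt
  simp

lemma lintegral_bolt_fintype {ι : Type*} [Fintype ι] [DecidableEq ι]
    {ν : Measure E} [SigmaFinite ν] {v : E → E → ℝ} (hv : Measurable (Function.uncurry v)) :
    ∫⁻ x : ι → E, bolt v x ∂(Measure.pi fun _ => ν) = bInt ν v (Fintype.card ι) :=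
  lintegral_bolt_reindex hv (Fintype.equivFin ι)

omit [MeasurableSpace E] in
lemma pi_union_eq {n : ℕ} (A B : Set E) :
    Set.pi univ (fun _ : Fin n => A ∪ B) =
      ⋃ S : Finset (Fin n), Set.pi univ (fun i => if i ∈ S then A else B) := by
  classical
  ext x
  simp only [Set.mem_pi, Set.mem_univ, true_implies, Set.mem_iUnion]
  constructor
  · intro h
    refine ⟨Finset.univ.filter (fun i => x i ∈ A), fun i => ?_⟩
    by_cases hi : x i ∈ A
    · simp [hi]
    · have := h i
      simp only [Set.mem_union, hi, false_or] at this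
      simp [hi, this]
  · rintro ⟨S, hS⟩ i
    have := hS i
    split_ifs at this with h
    · exact Or.inl this
    · exact Or.inr this

lemma lintegral_pi_union {n : ℕ} {ν : Measure E} [SigmaFinite ν] {A B : Set E}
    (hA : MeasurableSet A) (hB : MeasurableSet B) (hAB : Disjoint A B)
    (G : (Fin n → E) → ℝ≥0∞) :
    ∫⁻ x, G x ∂(Measure.pi fun _ : Fin n => ν.restrict (A ∪ B)) =
      ∑ S : Finset (Fin n), ∫⁻ x in Set.pi univ (fun i => if i ∈ S then A else B), G x
        ∂(Measure.pi fun _ => ν) := by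
  classical
  rw [← Measure.restrict_pi_pi, pi_union_eq, lintegral_iUnion, tsum_fintype]
  · intro S
    refine MeasurableSet.pi Set.countable_univ fun i _ => ?_
    split_ifs
    · exact hA
    · exact hB
  · intro S T hST
    rw [Function.onFun, Set.disjoint_left]
    intro x hxS hxT
    apply hST
    ext i
    simp only [Set.mem_pi, Set.mem_univ, true_implies] at hxS hxT
    have h1 := hxS i
    have h2 := hxT i
    by_cases hS : i ∈ S <;> by_cases hT : i ∈ T
    · simp [hS, hT]
    · simp only [hS, hT, if_true, if_false] at h1 h2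
      exact absurd h2 (Set.disjoint_left.mp hAB h1)
    · simp only [hS, hT, if_true, if_false] at h1 h2
      exact absurd h1 (Set.disjoint_left.mp hAB h2)
    · simp [hS, hT]

lemma lintegral_split_prod {n : ℕ} {ν : Measure E} [SigmaFinite ν] {v : E → E → ℝ}
    (hv : Measurable (Function.uncurry v)) {A B : Set E} (p : Fin n → Prop) [DecidablePred p] :
    ∫⁻ x in Set.pi univ (fun i => if p i then A else B),
        bolt v (fun i : {i // p i} => x i) * bolt v (fun i : {i // ¬ p i} => x i)
        ∂(Measure.pi fun _ => ν) =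
      bInt (ν.restrict A) v (Finset.univ.filter p).card *
        bInt (ν.restrict B) v (n - (Finset.univ.filter p).card) := by
  rw [Measure.restrict_pi_pi]
  have hp := measurePreserving_piEquivPiSubtypeProd
    (fun i : Fin n => ν.restrict (if p i then A else B)) p
  set G : ({i // p i} → E) × ({i // ¬ p i} → E) → ℝ≥0∞ :=
    fun p => bolt v p.1 * bolt v p.2 with hG
  have hGm : Measurable G :=
    ((bolt_measurable hv).comp measurable_fst).mul ((bolt_measurable hv).comp measurable_snd)
  have h1 : ∀ x : Fin n → E,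
      bolt v (fun i : {i // p i} => x i) * bolt v (fun i : {i // ¬ p i} => x i) =
      G (MeasurableEquiv.piEquivPiSubtypeProd (fun _ => E) p x) := by
    intro x
    rfl
  simp_rw [h1]
  rw [hp.lintegral_comp hGm]
  have e1 : (Measure.pi fun i : {i // p i} => ν.restrict (if p i then A else B)) =
      Measure.pi fun _ : {i // p i} => ν.restrict A := by
    congr 1
    funext i
    simp [i.2]
  have e2 : (Measure.pi fun i : {i // ¬ p i} => ν.restrict (if p i then A else B)) =
      Measure.pi fun _ : {i // ¬ p i} => ν.restrict B := by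
    congr 1
    funext i
    simp [i.2]
  rw [e1, e2, lintegral_prod_mul (bolt_measurable hv).aemeasurable
    (bolt_measurable hv).aemeasurable]
  rw [lintegral_bolt_fintype hv, lintegral_bolt_fintype hv, Fintype.card_subtype_compl,
    Fintype.card_subtype, Fintype.card_fin]

lemma ennreal_cauchy (a b : ℕ → ℝ≥0∞) :
    (∑' n, a n) * (∑' n, b n) = ∑' n : ℕ, ∑ k ∈ Finset.range (n + 1), a k * b (n - k) := by
  rw [← ENNReal.tsum_mul_right]
  simp_rw [← ENNReal.tsum_mul_left]
  rw [← ENNReal.tsum_prod (f := fun i j => a i * b j)]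
  rw [← Finset.HasAntidiagonal.sigmaAntidiagonalEquivProd.tsum_eq (fun p : ℕ × ℕ => a p.1 * b p.2)]
  rw [ENNReal.tsum_sigma']
  refine tsum_congr fun n => ?_
  rw [tsum_fintype, ← Finset.Nat.sum_antidiagonal_eq_sum_range_succ (fun i j => a i * b j)]
  rw [Finset.univ_eq_attach]
  exact Finset.sum_attach _ (fun p : ℕ × ℕ => a p.1 * b p.2)

lemma fact_choose (n k : ℕ) (hk : k ≤ n) :
    ((n.factorial : ℕ) : ℝ≥0∞)⁻¹ * (n.choose k : ℕ) =
      ((k.factorial : ℕ) : ℝ≥0∞)⁻¹ * (((n - k).factorial : ℕ) : ℝ≥0∞)⁻¹ := by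
  have h := Nat.choose_mul_factorial_mul_factorial hk
  have h1 : ((k.factorial : ℕ) : ℝ≥0∞) ≠ 0 := by exact_mod_cast k.factorial_ne_zero
  have h3 : ((n.choose k : ℕ) : ℝ≥0∞) ≠ 0 := by
    exact_mod_cast (Nat.choose_pos hk).ne'
  have t1 : ((k.factorial : ℕ) : ℝ≥0∞) ≠ ∞ := ENNReal.natCast_ne_top _
  have t3 : ((n.choose k : ℕ) : ℝ≥0∞) ≠ ∞ := ENNReal.natCast_ne_top _
  have key : ((n.factorial : ℕ) : ℝ≥0∞) =
      (n.choose k : ℕ) * ((k.factorial : ℕ) * ((n - k).factorial : ℕ)) := by
    rw [← h]; push_cast; ring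
  rw [key, ENNReal.mul_inv (Or.inl h3) (Or.inl t3), mul_right_comm,
    ENNReal.inv_mul_cancel h3 t3, one_mul, ENNReal.mul_inv (Or.inl h1) (Or.inl t1)]

lemma sum_subsets (n : ℕ) (f g : ℕ → ℝ≥0∞) :
    ((n.factorial : ℕ) : ℝ≥0∞)⁻¹ * ∑ S : Finset (Fin n), f S.card * g (n - S.card) =
      ∑ k ∈ Finset.range (n + 1), (((k.factorial : ℕ) : ℝ≥0∞)⁻¹ * f k) *
        ((((n - k).factorial : ℕ) : ℝ≥0∞)⁻¹ * g (n - k)) := by
  have h := Finset.sum_powerset_apply_card (fun k => f k * g (n - k))
    (x := (Finset.univ : Finset (Fin n)))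
  rw [Finset.powerset_univ, Finset.card_univ, Fintype.card_fin] at h
  rw [h, Finset.mul_sum]
  refine Finset.sum_congr rfl fun k hk => ?_
  have hk' : k ≤ n := Nat.lt_succ_iff.mp (Finset.mem_range.mp hk)
  rw [nsmul_eq_mul, ← mul_assoc, fact_choose n k hk']
  ring

lemma filter_mem_self {n : ℕ} (S : Finset (Fin n)) :
    Finset.univ.filter (fun i => i ∈ S) = S := by
  ext i; simp

/-- Upper bound for the partition function of a disjoint union with nonnegative cross
interaction. -/
lemma Xi_union_le {ν : Measure E} [SigmaFinite ν] {v : E → E → ℝ}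
    (hv : Measurable (Function.uncurry v)) (hs : ∀ a b, v a b = v b a) {A B : Set E}
    (hA : MeasurableSet A) (hB : MeasurableSet B) (hAB : Disjoint A B)
    (h : ∀ x ∈ A, ∀ y ∈ B, 0 ≤ v x y) :
    Xi (ν.restrict (A ∪ B)) v ≤ Xi (ν.restrict A) v * Xi (ν.restrict B) v := by
  rw [Xi_eq, Xi_eq, Xi_eq, ennreal_cauchy]
  refine ENNReal.tsum_le_tsum fun n => ?_
  rw [← sum_subsets]
  refine mul_le_mul_right ?_ _
  unfold bInt
  rw [lintegral_pi_union hA hB hAB]
  refine Finset.sum_le_sum fun S _ => ?_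
  have := lintegral_split_prod (ν := ν) hv (A := A) (B := B) (fun i => i ∈ S)
  rw [filter_mem_self] at this
  unfold bInt at this
  rw [← this]
  refine setLIntegral_mono' ?_ ?_
  · refine MeasurableSet.pi Set.countable_univ fun i _ => ?_
    split_ifs
    · exact hA
    · exact hB
  · intro x hx
    refine bolt_split_le hs (fun i => i ∈ S) x fun i j hi hj => h _ ?_ _ ?_
    · have := hx i (Set.mem_univ _)
      simpa [hi] using this
    · have := hx j (Set.mem_univ _)
      simpa [hj] using this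

/-- Lower bound for the partition function of a disjoint union with nonpositive cross
interaction. -/
lemma Xi_union_ge {ν : Measure E} [SigmaFinite ν] {v : E → E → ℝ}
    (hv : Measurable (Function.uncurry v)) (hs : ∀ a b, v a b = v b a) {A B : Set E}
    (hA : MeasurableSet A) (hB : MeasurableSet B) (hAB : Disjoint A B)
    (h : ∀ x ∈ A, ∀ y ∈ B, v x y ≤ 0) :
    Xi (ν.restrict A) v * Xi (ν.restrict B) v ≤ Xi (ν.restrict (A ∪ B)) v := by
  rw [Xi_eq, Xi_eq, Xi_eq, ennreal_cauchy]
  refine ENNReal.tsum_le_tsum fun n => ?_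
  rw [← sum_subsets]
  refine mul_le_mul_right ?_ _
  unfold bInt
  rw [lintegral_pi_union hA hB hAB]
  refine Finset.sum_le_sum fun S _ => ?_
  have := lintegral_split_prod (ν := ν) hv (A := A) (B := B) (fun i => i ∈ S)
  rw [filter_mem_self] at this
  unfold bInt at this
  rw [← this]
  refine setLIntegral_mono' ?_ ?_
  · refine MeasurableSet.pi Set.countable_univ fun i _ => ?_
    split_ifs
    · exact hA
    · exact hB
  · intro x hx
    refine bolt_split_ge hs (fun i => i ∈ S) x fun i j hi hj => h _ ?_ _ ?_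
    · have := hx i (Set.mem_univ _)
      simpa [hi] using this
    · have := hx j (Set.mem_univ _)
      simpa [hj] using this

end meas

end Vale.Agent.P171
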