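import Vale.Agent.P171.BlockQ

open MeasureTheory Set Filter Topology
open scoped ENNReal NNReal BigOperators

namespace Vale.Agent.P171

lemma tendsto_Rn : Tendsto (fun k : ℕ => (Rn k : ℝ)) atTop atTop := by
  refine tendsto_natCast_atTop_atTop.comp ?_
  refine tendsto_atTop_mono (fun k => ?_) tendsto_id
  unfold Rn
  simp only [id]
  omega

/-- Bound of the logarithm of the block partition function. -/
lemma log_Qf_le {K μ : ℝ} {a : ℕ → ℝ} (h : Adm K a (act (μ + 1))) (k : ℕ) {t s0 x1 x2 X : ℝ}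
    (ht0 : 0 < t) (ht : t ≤ 1/2) (hs0 : 0 < s0) (hs1 : s0 ≤ 1) (hx1 : 0 ≤ x1) (hxX : x1 ≤ X)
    (htX : 27 * t * X ≤ s0) (hX : Real.exp (K / 2) * Real.exp (μ + 1) ≤ (27/4) * X ^ 2)
    (hgain : press K a (act (μ + s0)) ≤ press K a (act μ) + s0 * x2)
    (hk : ((Rn k : ℝ) + 2) ^ 3 * x2 ≤ x1 * (Rn k : ℝ) ^ 3) :
    Real.log (Qf K a (act (μ + 27 * t / (Rn k : ℝ) ^ 3 / 2)) (Rn k)
      (27 * t / (Rn k : ℝ) ^ 3)).toReal ≤ Real.log 3 + (27 * t / 2) * x1 ^ 2 * (Rn k : ℝ) ^ 3 +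
        ((Rn k : ℝ) + 2) ^ 3 * press K a (act μ) := by
  have hA0 : Adm K a (act μ) := h.of_le (by linarith)
  have hA1 : Adm K a (act (μ + s0)) := h.of_le (by linarith)
  have hR : (0 : ℝ) < Rn k := by exact_mod_cast Rn_pos k
  have hP := hA0.press_nonneg
  have hl0 := hA0.lX_le_press (Rn k)
  have hl1 := hA1.lX_le_press (Rn k)
  set l : ℝ := (Rn k : ℝ) with hl
  set T : ℝ := (27 * t / 2) * x1 ^ 2 * l ^ 3 with hT
  have hT0 : 0 ≤ T := by positivity
  set M : ℝ := T + (l + 2) ^ 3 * press K a (act μ) with hM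
  have hM0 : 0 ≤ M := by positivity
  have hQ := Qf_le h k ht0 ht hs0 hs1 hx1 hxX htX hX
  have h1 : Qf K a (act (μ + 27 * t / (Rn k : ℝ) ^ 3 / 2)) (Rn k) (27 * t / (Rn k : ℝ) ^ 3) ≤
      ENNReal.ofReal (3 * Real.exp M) := by
    refine hQ.trans ?_
    rw [← ENNReal.ofReal_one, ← ENNReal.ofReal_add (Real.exp_pos _).le (Real.exp_pos _).le,
      ← ENNReal.ofReal_add (by positivity) (by norm_num)]
    refine ENNReal.ofReal_le_ofReal ?_
    have e1 : Real.exp ((27 * t / 2) * x1 ^ 2 * l ^ 3 + lX K a (act μ) l) ≤ Real.exp M :=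
      Real.exp_le_exp.mpr (by rw [hM]; linarith)
    have e2 : Real.exp ((27 * t / 2) * x1 ^ 2 * l ^ 3 - s0 * x1 * l ^ 3 +
        lX K a (act (μ + s0)) l) ≤ Real.exp M := by
      refine Real.exp_le_exp.mpr ?_
      have h2 : (l + 2) ^ 3 * press K a (act (μ + s0)) ≤
          (l + 2) ^ 3 * (press K a (act μ) + s0 * x2) :=
        mul_le_mul_of_nonneg_left hgain (by positivity)
      have h3 : s0 * ((l + 2) ^ 3 * x2) ≤ s0 * (x1 * l ^ 3) :=
        mul_le_mul_of_nonneg_left hk hs0.le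
      rw [hM]
      linarith
    have e3 : 1 ≤ Real.exp M := Real.one_le_exp hM0
    linarith
  have h2 := ENNReal.toReal_mono ENNReal.ofReal_ne_top h1
  rw [ENNReal.toReal_ofReal (by positivity)] at h2
  have h3 : (1 : ℝ) ≤ (Qf K a (act (μ + 27 * t / (Rn k : ℝ) ^ 3 / 2)) (Rn k)
      (27 * t / (Rn k : ℝ) ^ 3)).toReal := by
    have := ENNReal.toReal_mono (ne_top_of_le_ne_top ENNReal.ofReal_ne_top h1)
      (one_le_Qf K a (act (μ + 27 * t / (Rn k : ℝ) ^ 3 / 2)) (Rn k) (27 * t / (Rn k : ℝ) ^ 3))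
    simpa using this
  calc Real.log _ ≤ Real.log (3 * Real.exp M) := Real.log_le_log (by linarith) h2
    _ = Real.log 3 + M := by
        rw [Real.log_mul (by norm_num) (Real.exp_pos _).ne', Real.log_exp]
    _ = _ := by rw [hM]; ring

/-- Effect of adding a weak long range attraction at a point where the pressure has a
one-sided slope at most `x2`. -/
theorem step_bound {K μ : ℝ} {a : ℕ → ℝ} (h : Adm K a (act (μ + 1))) {t s0 x1 x2 X : ℝ}
    (ht0 : 0 < t) (ht : t ≤ 1/2) (hs0 : 0 < s0) (hs1 : s0 ≤ 1) (hx1 : 0 < x1)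
    (hx12 : x2 < x1) (hxX : x1 ≤ X)
    (htX : 27 * t * X ≤ s0) (hX : Real.exp (K / 2) * Real.exp (μ + 1) ≤ (27/4) * X ^ 2)
    (hgain : press K a (act (μ + s0)) ≤ press K a (act μ) + s0 * x2)
    (hadm : ∀ k, Adm K (fun j => a j + single k t j) (act μ)) {c : ℝ}
    (hc : ∀ k, c ≤ press K (fun j => a j + single k t j) (act μ)) :
    c ≤ press K a (act μ) + (27 * t / 2) * x1 ^ 2 := by
  have hA0 : Adm K a (act μ) := h.of_le (by linarith)
  have hratio : Tendsto (fun k : ℕ => (((Rn k : ℝ) + 2) / (Rn k : ℝ)) ^ 3) atTop (𝓝 1) :=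
    (tendsto_ratio 2).comp tendsto_Rn
  have hR3 : Tendsto (fun k : ℕ => ((Rn k : ℝ)) ^ 3) atTop atTop :=
    (tendsto_pow_atTop (by norm_num)).comp tendsto_Rn
  have hlog : Tendsto (fun k : ℕ => Real.log 3 / ((Rn k : ℝ)) ^ 3) atTop (𝓝 0) :=
    hR3.const_div_atTop _
  have hev : ∀ᶠ k : ℕ in atTop, ((Rn k : ℝ) + 2) ^ 3 * x2 ≤ x1 * (Rn k : ℝ) ^ 3 := by
    have h1 : Tendsto (fun k : ℕ => (((Rn k : ℝ) + 2) / (Rn k : ℝ)) ^ 3 * x2) atTop
        (𝓝 (1 * x2)) := hratio.mul_const _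
    rw [one_mul] at h1
    filter_upwards [h1.eventually_lt_const hx12] with k hk
    have hR : (0 : ℝ) < Rn k := by exact_mod_cast Rn_pos k
    rw [div_pow, div_mul_eq_mul_div, div_lt_iff₀ (by positivity)] at hk
    exact hk.le
  have hlim : Tendsto (fun k : ℕ => (5/2) * dlt a (Rn k) + (Real.log 3 / ((Rn k : ℝ)) ^ 3 +
      (27 * t / 2) * x1 ^ 2 + (((Rn k : ℝ) + 2) / (Rn k : ℝ)) ^ 3 * press K a (act μ))) atTop
      (𝓝 ((5/2) * 0 + (0 + (27 * t / 2) * x1 ^ 2 + 1 * press K a (act μ)))) := by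
    refine Tendsto.add ((h.nice.tendsto_dlt.comp ?_).const_mul _)
      ((hlog.add tendsto_const_nhds).add (hratio.mul_const _))
    refine tendsto_atTop_mono (fun k => ?_) tendsto_id
    unfold Rn
    simp only [id]
    omega
  have hle : ∀ᶠ k : ℕ in atTop, c ≤ (5/2) * dlt a (Rn k) + (Real.log 3 / ((Rn k : ℝ)) ^ 3 +
      (27 * t / 2) * x1 ^ 2 + (((Rn k : ℝ) + 2) / (Rn k : ℝ)) ^ 3 * press K a (act μ)) := by
    filter_upwards [hev] with k hk
    have hR : (0 : ℝ) < Rn k := by exact_mod_cast Rn_pos k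
    refine (hc k).trans ((press_step_le h k ht0.le (by linarith) (hadm k)).trans ?_)
    refine add_le_add le_rfl ?_
    have h1 := log_Qf_le h k ht0 ht hs0 hs1 hx1.le hxX htX hX hgain hk
    rw [div_le_iff₀ (by positivity)]
    refine h1.trans (le_of_eq ?_)
    field_simp
  have := ge_of_tendsto hlim hle
  linarith

end Vale.Agent.P171
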