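import Vale.Agent.P171.Limit

open MeasureTheory Set Filter Topology
open scoped ENNReal NNReal BigOperators

namespace Vale.Agent.P171

lemma far_boxesZ {j j' : Z3} (hj : j ≠ j') {x y : E3}
    (hx : x ∈ hbox (fun i => 3 * (j i : ℝ)) 1)
    (hy : y ∈ hbox (fun i => 3 * (j' i : ℝ)) 1) : 2 < dist x y := by
  obtain ⟨i, hi⟩ := Function.ne_iff.mp hj
  have hx' := hx i
  have hy' := hy i
  refine lt_of_lt_of_le ?_ (abs_coord_le_dist x y i)
  rcases lt_or_gt_of_ne hi with h | h
  · have h1 : (j i : ℝ) + 1 ≤ j' i := by exact_mod_cast h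
    rw [abs_sub_comm]
    refine lt_of_lt_of_le ?_ (le_abs_self _)
    linarith [hx'.2, hy'.1]
  · have h1 : (j' i : ℝ) + 1 ≤ j i := by exact_mod_cast h
    refine lt_of_lt_of_le ?_ (le_abs_self _)
    linarith [hy'.2, hx'.1]

/-- Lower kernel for one step. -/
noncomputable def lker (k : ℕ) (c d : Z3) : ℝ :=
  if ∀ i, |c i - d i| ≤ ((k + 1 : ℕ) : ℤ) then (((Rn k : ℕ) : ℝ) ^ 3)⁻¹ else 0

lemma lker_nonneg (k : ℕ) (c d : Z3) : 0 ≤ lker k c d := by
  unfold lker; split_ifs
  · positivity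
  · exact le_rfl

lemma lker_le_one (k : ℕ) (c d : Z3) : lker k c d ≤ 1 := by
  unfold lker; split_ifs
  · exact inv_cube_le_one k
  · norm_num

lemma lker_le_gfun {k : ℕ} {j j' : Z3} {x y : E3}
    (hx : x ∈ hbox (fun i => 3 * (j i : ℝ)) 1)
    (hy : y ∈ hbox (fun i => 3 * (j' i : ℝ)) 1) :
    lker k j j' ≤ gfun (Rn k) (dist x y) := by
  unfold lker
  split_ifs with h
  · unfold gfun
    rw [if_pos]
    have hk : (0 : ℝ) ≤ k := Nat.cast_nonneg k
    have h1 : dist x y < 2 * (3 * ((k : ℝ) + 1) + 1) := by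
      refine dist_lt_of_coord (fun i => ?_) (by positivity)
      have h2 := h i
      have h3 : |(j i : ℝ) - j' i| ≤ (k : ℝ) + 1 := by
        have : |((j i - j' i : ℤ) : ℝ)| ≤ (((k + 1 : ℕ) : ℤ) : ℝ) := by
          rw [← Int.cast_abs]; exact_mod_cast h2
        push_cast at this
        exact this
      rw [abs_le] at h3 ⊢
      have hx' := hx i
      have hy' := hy i
      constructor <;> nlinarith [h3.1, h3.2, hx'.1, hx'.2, hy'.1, hy'.2]
    refine lt_of_lt_of_le h1 ?_
    unfold Rn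
    push_cast
    linarith
  · exact gfun_nonneg _ _

/-- Lower kernel. -/
noncomputable def Lker (a : ℕ → ℝ) (c d : Z3) : ℝ := ∑' k, a k * lker k c d

lemma Nice.summable_lker {a : ℕ → ℝ} (h : Nice a) (c d : Z3) :
    Summable fun k => a k * lker k c d :=
  Summable.of_nonneg_of_le (fun k => mul_nonneg (h.nonneg k) (lker_nonneg _ c d))
    (fun k => mul_le_of_le_one_right (h.nonneg k) (lker_le_one k c d)) h.summable

lemma Nice.Lker_le_attr {a : ℕ → ℝ} (h : Nice a) {j j' : Z3} {x y : E3}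
    (hx : x ∈ hbox (fun i => 3 * (j i : ℝ)) 1)
    (hy : y ∈ hbox (fun i => 3 * (j' i : ℝ)) 1) :
    Lker a j j' ≤ attr a (dist x y) :=
  Summable.tsum_le_tsum (fun k => mul_le_mul_of_nonneg_left (lker_le_gfun hx hy) (h.nonneg k))
    (h.summable_lker _ _) (h.summable_gfun _)

/-- Energy of the trial configuration. -/
noncomputable def trialE (a : ℕ → ℝ) (m : ℕ) : ℝ :=
  (1 / 2) * ∑ c ∈ boxCells m, ∑ d ∈ boxCells m, if c = d then 0 else Lker a c d

lemma trial_lower {K : ℝ} {a : ℕ → ℝ} (h : Nice a) (z : ℝ≥0) (m : ℕ) :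
    (z : ℝ≥0∞) ^ (m ^ 3) * ENNReal.ofReal (Real.exp (trialE a m)) ≤
      Xb K a z ((3 * m : ℕ) : ℝ) := by
  classical
  set N := m ^ 3 with hN
  have e : Fin N ≃ (boxCells m) := ((boxCells m).equivFinOfCardEq (card_boxCells m)).symm
  set Q : Z3 → Set E3 := fun c => hbox (fun i => 3 * (c i : ℝ)) 1 with hQ
  set A : Equiv.Perm (Fin N) → Set (Fin N → E3) :=
    fun σ => Set.pi univ fun i => Q (e (σ i)) with hA
  have hQsub : ∀ c ∈ boxCells m, Q c ⊆ hbox 0 ((3 * m : ℕ) : ℝ) := by
    intro c hc x hx i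
    have h1 := hx i
    have h2 := mem_boxCells.mp hc i
    have h3 : (0 : ℝ) ≤ c i := by exact_mod_cast h2.1
    have h4 : (c i : ℝ) + 1 ≤ m := by exact_mod_cast h2.2
    simp only [Pi.zero_apply, zero_add]
    push_cast
    constructor <;> linarith [h1.1, h1.2]
  have hAsub : (⋃ σ, A σ) ⊆ Set.pi univ (fun _ : Fin N => hbox 0 ((3 * m : ℕ) : ℝ)) := by
    intro x hx
    obtain ⟨σ, hσ⟩ := Set.mem_iUnion.mp hx
    intro i _
    exact hQsub _ (e (σ i)).2 (hσ i (Set.mem_univ _))
  have hAm : ∀ σ, MeasurableSet (A σ) := fun σ =>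
    MeasurableSet.pi Set.countable_univ fun i _ => measurableSet_hbox _ _
  have hdisj : Pairwise (Function.onFun Disjoint A) := by
    intro σ τ hστ
    rw [Function.onFun, Set.disjoint_left]
    intro x hx hx'
    obtain ⟨i, hi⟩ : ∃ i, σ i ≠ τ i := by
      by_contra hcon
      push Not at hcon
      exact hστ (Equiv.ext hcon)
    have hne : ((e (σ i)) : Z3) ≠ (e (τ i)) := fun heq => hi (e.injective (Subtype.ext heq))
    have := far_boxesZ hne (hx i (Set.mem_univ _)) (hx' i (Set.mem_univ _))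
    rw [dist_self] at this
    linarith
  have hbolt : ∀ σ, ∀ x ∈ A σ, ENNReal.ofReal (Real.exp (trialE a m)) ≤
      bolt (pv (phi K a)) x := by
    intro σ x hx
    unfold bolt
    refine ENNReal.ofReal_le_ofReal (Real.exp_le_exp.mpr ?_)
    rw [le_neg]
    have h1 : energy (pv (phi K a)) x ≤ (1/2) * ∑ i, ∑ j, (if i = j then 0 else
        -(Lker a (e (σ i)) (e (σ j)))) := by
      unfold energy
      refine mul_le_mul_of_nonneg_left ?_ (by norm_num)
      refine Finset.sum_le_sum fun i _ => Finset.sum_le_sum fun j _ => ?_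
      split_ifs with hij
      · exact le_rfl
      · have hne : ((e (σ i)) : Z3) ≠ (e (σ j)) := fun heq =>
          hij (σ.injective (e.injective (Subtype.ext heq)))
        have hd := far_boxesZ hne (hx i (Set.mem_univ _)) (hx j (Set.mem_univ _))
        have hl := h.Lker_le_attr (hx i (Set.mem_univ _)) (hx j (Set.mem_univ _))
        unfold pv phi
        rw [if_neg (not_lt.mpr hd.le)]
        linarith
    refine h1.trans (le_of_eq ?_)
    unfold trialE
    rw [← mul_neg]
    congr 1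
    have hsum : ∀ f : Z3 → ℝ, ∑ i, f (e (σ i)) = ∑ c ∈ boxCells m, f c := by
      intro f
      rw [← Finset.sum_coe_sort (boxCells m) f]
      exact Equiv.sum_comp (σ.trans e) (fun c : boxCells m => f c)
    rw [← hsum (fun c => ∑ d ∈ boxCells m, if c = d then (0 : ℝ) else Lker a c d),
      ← Finset.sum_neg_distrib]
    refine Finset.sum_congr rfl fun i _ => ?_
    rw [← hsum (fun d => if (e (σ i) : Z3) = d then (0 : ℝ) else Lker a (e (σ i)) d),
      ← Finset.sum_neg_distrib]
    refine Finset.sum_congr rfl fun j _ => ?_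
    by_cases hij : i = j
    · subst hij; simp
    · have hne : ((e (σ i)) : Z3) ≠ (e (σ j)) := fun heq =>
          hij (σ.injective (e.injective (Subtype.ext heq)))
      rw [if_neg hij, if_neg hne]
  have hvol : ∀ σ, (Measure.pi fun _ : Fin N => base z) (A σ) = (z : ℝ≥0∞) ^ N := by
    intro σ
    rw [hA]
    simp only
    rw [Measure.pi_pi]
    have : ∀ i, base z (Q (e (σ i))) = z := by
      intro i
      rw [base_apply, hQ]
      simp only
      rw [volume_hbox _ (by norm_num)]
      simp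
    simp [this]
  have hfact : ((N.factorial : ℕ) : ℝ≥0∞) ≠ 0 := by exact_mod_cast N.factorial_ne_zero
  have hfact' : ((N.factorial : ℕ) : ℝ≥0∞) ≠ ∞ := ENNReal.natCast_ne_top _
  calc (z : ℝ≥0∞) ^ N * ENNReal.ofReal (Real.exp (trialE a m))
      = ((N.factorial : ℕ) : ℝ≥0∞)⁻¹ * ∑ _σ : Equiv.Perm (Fin N),
          ENNReal.ofReal (Real.exp (trialE a m)) * (z : ℝ≥0∞) ^ N := by
        rw [Finset.sum_const, Finset.card_univ, Fintype.card_perm, Fintype.card_fin, nsmul_eq_mul,
          ← mul_assoc, ENNReal.inv_mul_cancel hfact hfact', one_mul, mul_comm]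
    _ ≤ ((N.factorial : ℕ) : ℝ≥0∞)⁻¹ * bInt ((base z).restrict (hbox 0 ((3 * m : ℕ) : ℝ)))
          (pv (phi K a)) N := by
        refine mul_le_mul_right ?_ _
        rw [bInt_restrict]
        refine le_trans ?_ (lintegral_mono_set hAsub)
        rw [lintegral_iUnion hAm hdisj, tsum_fintype]
        refine Finset.sum_le_sum fun σ _ => ?_
        rw [← hvol σ, ← setLIntegral_const]
        exact setLIntegral_mono' (hAm σ) (hbolt σ)
    _ ≤ Xb K a z ((3 * m : ℕ) : ℝ) := by
        unfold Xb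
        rw [Xi_eq]
        exact ENNReal.le_tsum N

lemma card_interior (m n : ℕ) :
    (Fintype.piFinset fun _ : Fin 3 => Finset.Ico (n : ℤ) ((m : ℤ) - n)).card =
      (m - 2 * n) ^ 3 := by
  rw [Fintype.card_piFinset]
  have : ((m : ℤ) - n - n).toNat = m - 2 * n := by omega
  simp [this]

lemma count_pairs (m n : ℕ) (hn : 1 ≤ n) :
    (((m - 2 * n : ℕ) : ℝ)) ^ 3 * (8 * (n : ℝ) ^ 3) ≤
      ∑ c ∈ boxCells m, ∑ d ∈ boxCells m, if c = d then (0 : ℝ) else
        (if ∀ i, |c i - d i| ≤ (n : ℤ) then 1 else 0) := by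
  classical
  set S := Fintype.piFinset fun _ : Fin 3 => Finset.Ico (n : ℤ) ((m : ℤ) - n) with hS
  have hsub : S ⊆ boxCells m := by
    intro c hc
    rw [mem_boxCells]
    intro i
    have := Fintype.mem_piFinset.mp hc i
    rw [Finset.mem_Ico] at this
    constructor <;> omega
  have h0 : ∀ c d : Z3, (0 : ℝ) ≤ (if c = d then (0 : ℝ) else
        (if ∀ i, |c i - d i| ≤ (n : ℤ) then 1 else 0)) := by
    intro c d; split_ifs <;> norm_num
  have hrow : ∀ c ∈ S, 8 * (n : ℝ) ^ 3 ≤ ∑ d ∈ boxCells m, (if c = d then (0 : ℝ) else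
        (if ∀ i, |c i - d i| ≤ (n : ℤ) then 1 else 0)) := by
    intro c hc
    set T := (Fintype.piFinset fun i : Fin 3 => Finset.Icc (c i - n) (c i + n)).erase c with hT
    have hTsub : T ⊆ boxCells m := by
      intro d hd
      rw [mem_boxCells]
      intro i
      have h1 := Fintype.mem_piFinset.mp (Finset.mem_of_mem_erase hd) i
      have h2 := Fintype.mem_piFinset.mp hc i
      rw [Finset.mem_Icc] at h1
      rw [Finset.mem_Ico] at h2
      constructor <;> omega
    have hTcard : (T.card : ℝ) = (2 * (n : ℝ) + 1) ^ 3 - 1 := by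
      have hcm : c ∈ (Fintype.piFinset fun i : Fin 3 => Finset.Icc (c i - (n : ℤ)) (c i + n)) := by
        rw [Fintype.mem_piFinset]
        intro i
        rw [Finset.mem_Icc]
        constructor <;> omega
      have h1 := Finset.card_erase_add_one hcm
      have h2 : (Fintype.piFinset fun i : Fin 3 => Finset.Icc (c i - (n : ℤ)) (c i + n)).card =
          (2 * n + 1) ^ 3 := by
        rw [Fintype.card_piFinset]
        have h3 : ∀ i : Fin 3, (Finset.Icc (c i - (n : ℤ)) (c i + n)).card = 2 * n + 1 := by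
          intro i
          rw [Int.card_Icc]
          omega
        simp_rw [h3]
        simp
      rw [h2] at h1
      have h4 : (T.card : ℝ) + 1 = (2 * (n : ℝ) + 1) ^ 3 := by exact_mod_cast h1
      linarith
    have hn' : (1 : ℝ) ≤ n := by exact_mod_cast hn
    calc 8 * (n : ℝ) ^ 3 ≤ (T.card : ℝ) := by
          rw [hTcard]; nlinarith [sq_nonneg (n : ℝ)]
      _ = ∑ d ∈ T, (1 : ℝ) := by simp
      _ ≤ ∑ d ∈ T, (if c = d then (0 : ℝ) else
        (if ∀ i, |c i - d i| ≤ (n : ℤ) then 1 else 0)) := by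
          refine Finset.sum_le_sum fun d hd => ?_
          rw [if_neg (Ne.symm (Finset.ne_of_mem_erase hd)), if_pos]
          intro i
          have h1 := Fintype.mem_piFinset.mp (Finset.mem_of_mem_erase hd) i
          rw [Finset.mem_Icc] at h1
          rw [abs_le]
          constructor <;> omega
      _ ≤ _ := Finset.sum_le_sum_of_subset_of_nonneg hTsub fun d _ _ => h0 c d
  calc (((m - 2 * n : ℕ) : ℝ)) ^ 3 * (8 * (n : ℝ) ^ 3)
      = ∑ _c ∈ S, 8 * (n : ℝ) ^ 3 := by
        rw [Finset.sum_const, nsmul_eq_mul, hS, card_interior]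
        push_cast; ring
    _ ≤ ∑ c ∈ S, ∑ d ∈ boxCells m, (if c = d then (0 : ℝ) else
        (if ∀ i, |c i - d i| ≤ (n : ℤ) then 1 else 0)) := Finset.sum_le_sum hrow
    _ ≤ _ := Finset.sum_le_sum_of_subset_of_nonneg hsub fun c _ _ =>
        Finset.sum_nonneg fun d _ => h0 c d

end Vale.Agent.P171
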