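import Vale.Agent.P171.Trial

open MeasureTheory Set Filter Topology
open scoped ENNReal NNReal BigOperators

namespace Vale.Agent.P171

lemma Nice.trialE_ge {a : ℕ → ℝ} (h : Nice a) (m n : ℕ) :
    (1/128) * ∑ k ∈ Finset.range n, a k * (((m - 2 * (k + 1) : ℕ) : ℝ)) ^ 3 ≤ trialE a m := by
  have h1 : ∀ c d, ∑ k ∈ Finset.range n, a k * lker k c d ≤ Lker a c d := fun c d =>
    (h.summable_lker c d).sum_le_tsum _ (fun k _ => mul_nonneg (h.nonneg k) (lker_nonneg k c d))
  have h2 : ∑ c ∈ boxCells m, ∑ d ∈ boxCells m, (if c = d then 0 else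
      ∑ k ∈ Finset.range n, a k * lker k c d) ≤
      ∑ c ∈ boxCells m, ∑ d ∈ boxCells m, (if c = d then 0 else Lker a c d) := by
    refine Finset.sum_le_sum fun c _ => Finset.sum_le_sum fun d _ => ?_
    split_ifs
    · exact le_rfl
    · exact h1 c d
  have h3 : ∑ c ∈ boxCells m, ∑ d ∈ boxCells m, (if c = d then 0 else
      ∑ k ∈ Finset.range n, a k * lker k c d) =
      ∑ k ∈ Finset.range n, a k * ∑ c ∈ boxCells m, ∑ d ∈ boxCells m,
        (if c = d then 0 else lker k c d) := by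
    simp_rw [Finset.mul_sum]
    rw [Finset.sum_comm' (s := Finset.range n) (t := fun _ => boxCells m)
      (t' := boxCells m) (s' := fun _ => Finset.range n) (by simp)]
    refine Finset.sum_congr rfl fun c _ => ?_
    rw [Finset.sum_comm]
    refine Finset.sum_congr rfl fun d _ => ?_
    split_ifs
    · simp
    · rfl
  have h4 : ∀ k ∈ Finset.range n, a k * ((((m - 2 * (k + 1) : ℕ) : ℝ)) ^ 3 / 64) ≤
      a k * ∑ c ∈ boxCells m, ∑ d ∈ boxCells m, (if c = d then 0 else lker k c d) := by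
    intro k _
    refine mul_le_mul_of_nonneg_left ?_ (h.nonneg k)
    have h5 := count_pairs m (k + 1) (by omega)
    have h6 : ∑ c ∈ boxCells m, ∑ d ∈ boxCells m, (if c = d then 0 else lker k c d) =
        ((((Rn k : ℕ) : ℝ)) ^ 3)⁻¹ * ∑ c ∈ boxCells m, ∑ d ∈ boxCells m,
          (if c = d then (0 : ℝ) else (if ∀ i, |c i - d i| ≤ ((k + 1 : ℕ) : ℤ) then 1 else 0)) := by
      rw [Finset.mul_sum]
      refine Finset.sum_congr rfl fun c _ => ?_
      rw [Finset.mul_sum]
      refine Finset.sum_congr rfl fun d _ => ?_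
      unfold lker
      split_ifs <;> simp
    rw [h6]
    have hR : (0 : ℝ) < ((Rn k : ℕ) : ℝ) ^ 3 := by
      have := one_le_Rn k; positivity
    refine le_trans (le_of_eq ?_) (mul_le_mul_of_nonneg_left h5 (inv_nonneg.mpr hR.le))
    have hRk : ((Rn k : ℕ) : ℝ) = 8 * ((k + 1 : ℕ) : ℝ) := by unfold Rn; push_cast; ring
    rw [hRk]
    have hk : ((k + 1 : ℕ) : ℝ) ≠ 0 := by positivity
    field_simp
    norm_num
  unfold trialE
  calc (1/128) * ∑ k ∈ Finset.range n, a k * (((m - 2 * (k + 1) : ℕ) : ℝ)) ^ 3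
      = (1/2) * ∑ k ∈ Finset.range n, a k * ((((m - 2 * (k + 1) : ℕ) : ℝ)) ^ 3 / 64) := by
        rw [Finset.mul_sum, Finset.mul_sum]
        refine Finset.sum_congr rfl fun k _ => ?_
        ring
    _ ≤ (1/2) * ∑ c ∈ boxCells m, ∑ d ∈ boxCells m, (if c = d then 0 else Lker a c d) := by
        refine mul_le_mul_of_nonneg_left ?_ (by norm_num)
        refine le_trans ?_ h2
        rw [h3]
        exact Finset.sum_le_sum h4

/-- Activity associated with a chemical potential. -/
noncomputable def act (μ : ℝ) : ℝ≥0 := Real.toNNReal (Real.exp μ)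

lemma act_coe (μ : ℝ) : (act μ : ℝ) = Real.exp μ := Real.coe_toNNReal _ (Real.exp_pos μ).le

lemma act_ennreal (μ : ℝ) : (act μ : ℝ≥0∞) = ENNReal.ofReal (Real.exp μ) := rfl

lemma Adm.lX_trial {K μ : ℝ} {a : ℕ → ℝ} (h : Adm K a (act μ)) (m n : ℕ) :
    (m : ℝ) ^ 3 * μ + (1/128) * ∑ k ∈ Finset.range n, a k * (((m - 2 * (k + 1) : ℕ) : ℝ)) ^ 3 ≤
      lX K a (act μ) ((3 * m : ℕ) : ℝ) := by
  have h1 := trial_lower (K := K) h.nice (act μ) m
  have h2 := h.nice.trialE_ge m n
  have h3 := ENNReal.toReal_mono (h.Xb_lt_top _).ne h1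
  rw [ENNReal.toReal_mul, ENNReal.toReal_pow, ENNReal.toReal_ofReal (Real.exp_pos _).le] at h3
  have h4 : ((act μ : ℝ≥0∞)).toReal = Real.exp μ := act_coe μ
  rw [h4, ← Real.exp_nat_mul, ← Real.exp_add] at h3
  unfold lX
  rw [Real.le_log_iff_exp_le (by linarith [h.one_le_toReal ((3 * m : ℕ) : ℝ)])]
  refine le_trans (Real.exp_le_exp.mpr ?_) h3
  push_cast
  linarith

lemma tendsto_trunc (c : ℕ) :
    Tendsto (fun m : ℕ => (((m - c : ℕ) : ℝ)) ^ 3 / ((3 * m : ℕ) : ℝ) ^ 3) atTop
      (𝓝 (1 / 27)) := by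
  have h1 : Tendsto (fun m : ℕ => (((m : ℝ) + (-(c : ℝ))) / m) ^ 3 * (1/27)) atTop
      (𝓝 (1 * (1/27))) := ((tendsto_ratio (-(c : ℝ))).comp tendsto_natCast_atTop_atTop).mul_const _
  rw [one_mul] at h1
  refine h1.congr' ?_
  filter_upwards [eventually_ge_atTop c, eventually_gt_atTop 0] with m hm hm0
  rw [Nat.cast_sub hm]
  push_cast
  have : (m : ℝ) ≠ 0 := by positivity
  field_simp
  ring

/-- Lower bound of the pressure by the trial state. -/
theorem Adm.press_ge {K μ : ℝ} {a : ℕ → ℝ} (h : Adm K a (act μ)) :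
    μ / 27 + (∑' k, a k) / 3456 ≤ press K a (act μ) := by
  have hpart : ∀ n : ℕ, μ / 27 + (∑ k ∈ Finset.range n, a k) / 3456 ≤ press K a (act μ) := by
    intro n
    have h1 : Tendsto (fun m : ℕ => lX K a (act μ) ((3 * m : ℕ) : ℝ) / ((3 * m : ℕ) : ℝ) ^ 3)
        atTop (𝓝 (press K a (act μ))) := by
      refine h.tendsto_press.comp (tendsto_natCast_atTop_atTop.comp ?_)
      exact tendsto_atTop_mono (fun m => (by omega : m ≤ 3 * m)) tendsto_id
    have h2 : Tendsto (fun m : ℕ => (((m - 0 : ℕ) : ℝ)) ^ 3 / ((3 * m : ℕ) : ℝ) ^ 3 * μ +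
        (1/128) * ∑ k ∈ Finset.range n, a k *
          ((((m - 2 * (k + 1) : ℕ) : ℝ)) ^ 3 / ((3 * m : ℕ) : ℝ) ^ 3)) atTop
        (𝓝 (1 / 27 * μ + (1/128) * ∑ k ∈ Finset.range n, a k * (1/27))) := by
      refine ((tendsto_trunc 0).mul_const μ).add (Tendsto.const_mul _ ?_)
      exact tendsto_finsetSum _ fun k _ => (tendsto_trunc _).const_mul _
    refine (le_of_eq ?_).trans (le_of_tendsto_of_tendsto h2 h1 ?_)
    · rw [← Finset.sum_mul]; ring
    · filter_upwards [eventually_gt_atTop 0] with m hm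
      have hm' : (0 : ℝ) < ((3 * m : ℕ) : ℝ) := by positivity
      rw [le_div_iff₀ (by positivity)]
      refine le_trans (le_of_eq ?_) (h.lX_trial m n)
      rw [add_mul, mul_assoc (1/128 : ℝ), Finset.sum_mul]
      congr 1
      · simp only [Nat.sub_zero]; field_simp
      · congr 1
        refine Finset.sum_congr rfl fun k _ => ?_
        field_simp
  have h3 : Tendsto (fun n : ℕ => μ / 27 + (∑ k ∈ Finset.range n, a k) / 3456) atTop
      (𝓝 (μ / 27 + (∑' k, a k) / 3456)) :=
    tendsto_const_nhds.add (h.nice.summable.hasSum.tendsto_sum_nat.div_const _)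
  exact le_of_tendsto' h3 hpart

/-- Upper bound of the pressure without attraction. -/
theorem press_zero_le {K : ℝ} {z : ℝ≥0} (h : Adm K (fun _ => 0) z) :
    press K (fun _ => 0) z ≤ z := by
  refine ciSup_le fun n => ?_
  have hn : (0 : ℝ) ≤ n := Nat.cast_nonneg n
  have h1 : Xb K (fun _ => 0) z n ≤ ENNReal.ofReal (Real.exp (z * (n : ℝ) ^ 3)) := by
    unfold Xb
    rw [Xi_eq, ← tsum_exp_bound _ (by positivity)]
    refine ENNReal.tsum_le_tsum fun N => mul_le_mul_right ?_ _
    unfold bInt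
    calc ∫⁻ x : Fin N → E3, bolt (pv (phi K fun _ => 0)) x
          ∂(Measure.pi fun _ => (base z).restrict (hbox 0 n))
        ≤ ∫⁻ _ : Fin N → E3, 1 ∂(Measure.pi fun _ => (base z).restrict (hbox 0 n)) := by
          refine lintegral_mono fun x => ?_
          unfold bolt
          rw [← ENNReal.ofReal_one]
          refine ENNReal.ofReal_le_ofReal ?_
          rw [← Real.exp_zero]
          refine Real.exp_le_exp.mpr (neg_nonpos.mpr ?_)
          unfold energy
          refine mul_nonneg (by norm_num) (Finset.sum_nonneg fun i _ =>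
            Finset.sum_nonneg fun j _ => ?_)
          split_ifs
          · exact le_rfl
          · unfold pv phi attr
            have := h.K_pos
            split_ifs
            · simpa using this.le
            · simp
      _ = _ := by
          rw [lintegral_const, Measure.pi_univ]
          simp only [Finset.prod_const, Finset.card_univ, Fintype.card_fin, one_mul]
          rw [base_box_univ z 0 hn]
  rw [div_le_iff₀ (by positivity)]
  have h2 : lX K (fun _ => 0) z n ≤ z * (n : ℝ) ^ 3 := by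
    unfold lX
    rw [Real.log_le_iff_le_exp (by linarith [h.one_le_toReal n])]
    have := ENNReal.toReal_mono ENNReal.ofReal_ne_top h1
    rwa [ENNReal.toReal_ofReal (Real.exp_pos _).le] at this
  refine h2.trans (mul_le_mul_of_nonneg_left ?_ (NNReal.coe_nonneg z))
  exact pow_le_pow_left₀ hn (by linarith) 3

end Vale.Agent.P171
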